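import Vale.Agent.P223.X.PartX
import Vale.Agent.P223.X.DensX

/-! Smooth cutoff functions on `X`. -/

namespace Vale.Agent.P223.H391

open scoped ContDiff Topology
open MeasureTheory Vale.Agent.P223.H Vale.Agent.P223.X

variable {n : ℕ} {M X Γ I : Type} [TopologicalSpace M] [TopologicalSpace X] [Group Γ]
    [MulAction Γ X] [Fintype I] [T2Space X]

theorem exists_cut (C : Cov n M X Γ I) {K : Set X} (hK : IsCompact K) :
    ∃ κ : X → ℝ, C.Ck ∞ κ ∧ HasCompactSupport κ ∧ (∀ x, 0 ≤ κ x) ∧ (∀ x, κ x ≤ 1) ∧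
      ∀ x ∈ K, κ x = 1 := by
  classical
  obtain ⟨χ, hχ⟩ := PartX.main n M X Γ I C
  obtain ⟨T, hT⟩ := DensX.fin_T C hK
  have hnn : ∀ i γ x, 0 ≤ DensX.uu C χ i γ x := by
    intro i γ x
    unfold DensX.uu Cov.ex
    split_ifs
    · exact hχ.nonneg _ _
    · exact le_rfl
  refine ⟨fun x => ∑ i, ∑ γ ∈ T, DensX.uu C χ i γ x, ?_, ?_, ?_, ?_, ?_⟩
  · intro γ j
    unfold Cov.rep
    exact ContDiff.sum fun i _ => ContDiff.sum fun γ' _ => DensX.Ck_uu hχ i γ' γ j
  · have hc : IsCompact (⋃ i : I, ⋃ γ ∈ T, (fun y => γ • C.ψ i y) '' Metric.closedBall (0 : E n) 2) :=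
      isCompact_iUnion fun i => T.isCompact_biUnion fun γ _ => DensX.isCompact_ball C γ i 2
    refine HasCompactSupport.intro hc fun x hx => ?_
    refine Finset.sum_eq_zero fun i _ => Finset.sum_eq_zero fun γ hγ => ?_
    by_contra hne
    exact hx (Set.mem_iUnion.2 ⟨i, Set.mem_iUnion₂.2 ⟨γ, hγ, DensX.uu_supp hχ hne⟩⟩)
  · exact fun x => Finset.sum_nonneg fun i _ => Finset.sum_nonneg fun γ _ => hnn i γ x
  · intro x
    obtain ⟨T', hT'⟩ := DensX.fin_T C (isCompact_singleton (x := x))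
    have h1 := DensX.uu_sum hχ (T := T ∪ T') (fun γ hγ => hT' γ fun h =>
      hγ (Finset.mem_union_right _ h)) (Set.mem_singleton x)
    rw [← h1]
    exact Finset.sum_le_sum fun i _ =>
      Finset.sum_le_sum_of_subset_of_nonneg Finset.subset_union_left fun γ _ _ => hnn i γ x
  · exact fun x hx => DensX.uu_sum hχ hT hx

end Vale.Agent.P223.H391
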