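import Vale.Agent.P223.H566.Spec

/-! Block statement: plane wave representation of powers of the resolvent times a cutoff. -/

namespace Vale.Agent.P223.H391

open scoped ContDiff InnerProductSpace
open MeasureTheory Vale.Agent.P223.H Vale.Agent.P223.X Vale.Agent.P223.H566

/-- BLOCK PW (helper691) : `g ^ J * k` is an integral of operators of rank one, with sup bounds
for `u` and `L¹` bounds for `v`. -/
def SpecPW : Prop := ∀ (n : ℕ) (M X Γ I V H : Type) [TopologicalSpace M] [TopologicalSpace X]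
  [Group Γ] [MulAction Γ X] [Fintype I] [T2Space X] [ConnectedSpace X] [T2Space M]
  [MeasurableSpace X] [BorelSpace X] [NormedAddCommGroup V] [InnerProductSpace ℂ V]
  [FiniteDimensional ℂ V] [NormedAddCommGroup H] [InnerProductSpace ℂ H] [CompleteSpace H]
  (c : Ctx n M X Γ I V H) (κ : X → ℝ) (hκ : c.C.Ck ∞ κ) (k : H →L[ℂ] H) (J : ℕ) (m : ℝ)
  (g p : H →L[ℂ] H), 1 ≤ n → HasCompactSupport κ →
  (∀ φ, k (c.E.e φ) = c.E.e (c.S.mC κ hκ φ)) → n < 2 * J → 1 ≤ m → Rsv c.E m g p →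
  ∃ (α : Type) (_ : MeasurableSpace α) (ν : Measure α) (u v : α → H),
    StronglyMeasurable u ∧ StronglyMeasurable v ∧ Integrable (fun a => ‖u a‖ * ‖v a‖) ν ∧
    (∀ x y : H, ⟪x, (g ^ J * k) y⟫_ℂ = ∫ a, ⟪x, u a⟫_ℂ * ⟪v a, y⟫_ℂ ∂ν) ∧
    ∀ (s : ℝ) (w : X → ℝ), Gst c.C c.G s w → 1 ≤ m ^ 2 + s →
      ∃ cu cv : α → ℝ, (∀ a, 0 ≤ cu a) ∧ (∀ a, 0 ≤ cv a) ∧
        Integrable (fun a => cu a * cv a) ν ∧ (∀ a, WB c.E w (cu a) (u a)) ∧
        ∀ a b x, 0 ≤ b → WB c.E w b x → ‖⟪v a, x⟫_ℂ‖ ≤ b * cv a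

end Vale.Agent.P223.H391
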