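import Vale.Agent.P223.H391.Ops
import Vale.Agent.P223.H391.CutX
import Vale.Agent.P223.H391.SpecPW
import Vale.Agent.P223.H691.SpecTC
import Vale.Agent.P223.X.Vol

/-! Growth of the Taylor coefficients: assembly. -/

namespace Vale.Agent.P223.H391

open scoped ContDiff InnerProductSpace Topology
open MeasureTheory Vale.Agent.P223.H Vale.Agent.P223.X Vale.Agent.P223.H566

section hilbert
variable {H : Type} [NormedAddCommGroup H] [InnerProductSpace ℂ H] [CompleteSpace H]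

/-- the trace -/
noncomputable def trI (H : Type) [NormedAddCommGroup H] [InnerProductSpace ℂ H]
    [CompleteSpace H] : TrI (H →L[ℂ] H) where
  nuc T := ∃ b, Nuc T b
  tr := trH
  left A T h := by
    obtain ⟨b, hb⟩ := h
    have := ((H691.specTC H).1 T A 1 b hb).1
    rw [mul_one] at this
    exact ⟨_, this⟩
  right A T h := by
    obtain ⟨b, hb⟩ := h
    have := ((H691.specTC H).1 T 1 A b hb).1
    rw [one_mul] at this
    exact ⟨_, this⟩
  comm A T h := by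
    obtain ⟨b, hb⟩ := h
    have := ((H691.specTC H).1 T A 1 b hb).2.2.2.1
    rwa [mul_one, mul_one] at this

theorem intRep_of {α : Type} [MeasurableSpace α] {ν : Measure α} {u v : α → H}
    {T : H →L[ℂ] H} (hu : StronglyMeasurable u) (hv : StronglyMeasurable v)
    (hi : Integrable (fun a => ‖u a‖ * ‖v a‖) ν)
    (hT : ∀ x y : H, ⟪x, T y⟫_ℂ = ∫ a, ⟪x, u a⟫_ℂ * ⟪v a, y⟫_ℂ ∂ν) : H691.IntRep ν u v T := by
  have hi' : ∀ x, Integrable (fun a => ⟪v a, x⟫_ℂ • u a) ν := by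
    intro x
    refine (hi.mul_const ‖x‖).mono' ((hv.aestronglyMeasurable.inner
      aestronglyMeasurable_const).smul hu.aestronglyMeasurable) ?_
    filter_upwards with a
    rw [norm_smul]
    have := norm_inner_le_norm (𝕜 := ℂ) (v a) x
    calc ‖⟪v a, x⟫_ℂ‖ * ‖u a‖ ≤ (‖v a‖ * ‖x‖) * ‖u a‖ := by gcongr
      _ = ‖u a‖ * ‖v a‖ * ‖x‖ := by ring
  refine ⟨hu.aestronglyMeasurable, hv.aestronglyMeasurable, hi, fun x => ?_⟩
  refine ext_inner_left ℂ fun y => ?_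
  rw [hT, ← integral_inner (hi' x)]
  simp only [inner_smul_right, mul_comm]

theorem nb_of_rep {α : Type} [MeasurableSpace α] {ν : Measure α} {u v : α → H}
    {D : H →L[ℂ] H} (h : H691.IntRep ν u v D) (S : Sup H) {cu cv : α → ℝ} (hcu : ∀ a, 0 ≤ cu a)
    (hcv : ∀ a, 0 ≤ cv a) (hint : Integrable (fun a => cu a * cv a) ν)
    (hu : ∀ a, S.SB (cu a) (u a)) (hv : ∀ a, S.PB (cv a) (v a)) :
    S.NB (trI H).tr D (∫ a, cu a * cv a ∂ν) := by
  intro κ T F R hR hF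
  have e : ∀ k, (trI H).tr (F k * D) = ∫ a, ⟪v a, F k (u a)⟫_ℂ ∂ν := fun k =>
    (h.left (F k)).tr_eq
  have hi : ∀ k, Integrable (fun a => ⟪v a, F k (u a)⟫_ℂ) ν := fun k =>
    (h.left (F k)).integrable_trace
  calc ∑ k ∈ T, ‖(trI H).tr (F k * D)‖ ≤ ∑ k ∈ T, ∫ a, ‖⟪v a, F k (u a)⟫_ℂ‖ ∂ν :=
        Finset.sum_le_sum fun k _ => by rw [e]; exact norm_integral_le_integral_norm _
    _ = ∫ a, ∑ k ∈ T, ‖⟪v a, F k (u a)⟫_ℂ‖ ∂ν := by
        rw [integral_finsetSum _ fun k _ => (hi k).norm]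
    _ ≤ ∫ a, R * (cu a * cv a) ∂ν := by
        refine integral_mono (integrable_finsetSum _ fun k _ => (hi k).norm)
          (hint.const_mul R) fun a => ?_
        exact hF _ _ _ _ (hcu a) (hcv a) (hu a) (hv a)
    _ = (∫ a, cu a * cv a ∂ν) * R := by rw [integral_const_mul, mul_comm]

variable {Γ ι : Type} [Group Γ] {n : ℕ} {m : ℝ} {a h : Γ × ι → H →L[ℂ] H} {W g p : H →L[ℂ] H}

/-- the letters of the words -/
def lt (n : ℕ) (a h : Γ × ι → H →L[ℂ] H) (W : H →L[ℂ] H) (i : Fin (n + 1)) :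
    Γ × ι → H →L[ℂ] H := Fin.cases (fun l => W * a l) (fun _ => h) i

omit [CompleteSpace H] [Group Γ] in
theorem wrd_eq (j : Fin (n + 1) → ℕ) (l : Fin (n + 1) → Γ × ι) :
    W * wrd a h g j l = wd (lt n a h W) g (fun i => j i + 1) l := by
  unfold wd
  rw [word_succ]
  simp only [wrd, lt, word, Fin.cases_zero, Fin.cases_succ, mul_assoc]

theorem nuc_kg [Countable Γ] [Fintype ι] {k : Γ × ι → H →L[ℂ] H} {w : Γ → ℝ} {A : ℕ → ℝ}
    (hA : Alg n m a h W g p) (hD : Dec n m a h g p k w A) (hw : ∀ γ, 0 ≤ w γ) (hs : Summable w)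
    {j : ℕ} (hj : n < 2 * j) (l : Γ × ι) : ∃ b, Nuc (k l * g ^ j) b := by
  have h1 := (H691.specTC H).2.2.2.1 (Γ × ι) (fun i => k l * g ^ j * a i) (k l * g ^ j)
    (fun i => ‖(1 : H →L[ℂ] H)‖ * (A j * m ^ ((n : ℝ) - 2 * j) * w (l.1⁻¹ * i.1)) * ‖a i‖)
    (fun i => ?_) ?_ fun x => ?_
  · exact ⟨_, h1.1⟩
  · have h2 := ((H691.specTC H).1 _ 1 (a i) _ (hD.ng j hj l i)).1
    rwa [one_mul, mul_assoc (k l * g ^ j), (hD.ka i).1] at h2
  · have h3 : Summable fun i : Γ × ι => w (l.1⁻¹ * i.1) * 1 :=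
      (hs.comp_injective (i := fun γ => l.1⁻¹ * γ) (mul_right_injective _)).mul_of_nonneg
        (g := fun _ : ι => (1 : ℝ)) (Summable.of_finite) (fun _ => hw _) (fun _ => zero_le_one)
    refine Summable.of_norm_bounded (h3.mul_left
      (‖(1 : H →L[ℂ] H)‖ * |A j * m ^ ((n : ℝ) - 2 * j)| * A 0)) fun i => ?_
    rw [norm_mul, norm_mul, norm_mul, norm_norm, norm_norm, Real.norm_eq_abs, Real.norm_eq_abs,
      abs_of_nonneg (hw _)]
    calc ‖(1 : H →L[ℂ] H)‖ * (|A j * m ^ ((n : ℝ) - 2 * j)| * w (l.1⁻¹ * i.1)) * ‖a i‖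
        ≤ ‖(1 : H →L[ℂ] H)‖ * (|A j * m ^ ((n : ℝ) - 2 * j)| * w (l.1⁻¹ * i.1)) * A 0 :=
          mul_le_mul_of_nonneg_left (hD.na i).1 (mul_nonneg (norm_nonneg _)
            (mul_nonneg (abs_nonneg _) (hw _)))
      _ = _ := by ring
  · simp only [mul_apply_eq_comp]
    exact ((k l * g ^ j).hasSum (hA.suma x))

theorem nuc_lt [Countable Γ] [Fintype ι] {k : Γ × ι → H →L[ℂ] H} {w : Γ → ℝ} {A : ℕ → ℝ}
    (hA : Alg n m a h W g p) (hD : Dec n m a h g p k w A) (hw : ∀ γ, 0 ≤ w γ) (hs : Summable w)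
    {j : ℕ} (hj : n < 2 * j) (i : Fin (n + 1)) (l : Γ × ι) :
    (trI H).nuc (lt n a h W i l * g ^ j) := by
  have h1 : (trI H).nuc (k l * g ^ j) := nuc_kg hA hD hw hs hj l
  refine Fin.cases ?_ (fun i => ?_) i
  · change (trI H).nuc (W * a l * g ^ j)
    have e : W * a l * g ^ j = W * a l * (k l * g ^ j) := by
      rw [mul_assoc W (a l) (k l * g ^ j), ← mul_assoc (a l) (k l), (hD.ka l).2, mul_assoc]
    rw [e]
    exact (trI H).left _ _ h1
  · change (trI H).nuc (h l * g ^ j)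
    have e : h l * g ^ j = h l * (k l * g ^ j) := by
      rw [← mul_assoc, (hD.kh l).2]
    rw [e]
    exact (trI H).left _ _ h1

theorem inv_lt [Countable Γ] [Fintype ι] {k : Γ × ι → H →L[ℂ] H} {w : Γ → ℝ} {A : ℕ → ℝ}
    (hA : Alg n m a h W g p) (hD : Dec n m a h g p k w A) (hw : ∀ γ, 0 ≤ w γ) (hs : Summable w)
    {j : Fin (n + 1) → ℕ} {q : Fin (n + 1)} (hj : n < 2 * j q) (γ : Γ)
    (l : Fin (n + 1) → Γ × ι) : (trI H).tr (wd (lt n a h W) g j (tl γ l)) =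
      (trI H).tr (wd (lt n a h W) g j l) := by
  obtain ⟨τ, τ', h1, -, h2, h3, h4⟩ := hA.tr
  have hpow : ∀ k : ℕ, g ^ k = τ γ * g ^ k * τ' γ := by
    intro k
    have hc : Commute (τ γ) g := (h4 γ).1
    rw [(hc.pow_right k).eq, mul_assoc, (h1 γ).1, mul_one]
  have ha : ∀ l : Γ × ι, a (γ * l.1, l.2) = τ γ * a l * τ' γ := by
    intro l
    rw [h2, mul_assoc, (h1 γ).1, mul_one]
  have hh : ∀ l : Γ × ι, h (γ * l.1, l.2) = τ γ * h l * τ' γ := by
    intro l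
    rw [h3, mul_assoc, (h1 γ).1, mul_one]
  have hlt : ∀ (i : Fin (n + 1)) (l : Γ × ι), lt n a h W i (γ * l.1, l.2) =
      τ γ * lt n a h W i l * τ' γ := by
    intro i l
    refine Fin.cases ?_ (fun i => ?_) i
    · change W * a (γ * l.1, l.2) = τ γ * (W * a l) * τ' γ
      rw [ha, ← mul_assoc, ← mul_assoc, ← mul_assoc, (h4 γ).2.2]
    · exact hh l
  have e1 : wd (lt n a h W) g j (tl γ l) = τ γ * wd (lt n a h W) g j l * τ' γ := by
    unfold wd word
    rw [← prod_conj (h1 γ).1 (h1 γ).2]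
    congr 1
    congr 1
    funext i
    change lt n a h W i (γ * (l i).1, (l i).2) * g ^ j i =
      τ γ * (lt n a h W i (l i) * g ^ j i) * τ' γ
    rw [hlt]
    conv_lhs => rw [hpow (j i)]
    simp only [mul_assoc]
    rw [← mul_assoc (τ' γ) (τ γ), (h1 γ).2, one_mul]
  have e2 : (trI H).nuc (wd (lt n a h W) g j l) := by
    refine (trI H).prod_mem (x := lt n a h W q (l q) * g ^ j q) ?_ (nuc_lt hA hD hw hs hj _ _)
    exact (List.mem_ofFn' _ _).2 ⟨q, rfl⟩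
  rw [e1, mul_assoc, (trI H).comm _ _ ((trI H).right _ _ e2), mul_assoc, (h1 γ).2, mul_one]

end hilbert

section cut
variable {n : ℕ} {M X Γ I : Type} [TopologicalSpace M] [TopologicalSpace X] [Group Γ]
    [MulAction Γ X] {V : Type} [NormedAddCommGroup V] [InnerProductSpace ℂ V]
    {C : Cov n M X Γ I} {G : I → E n → Matrix (Fin n) (Fin n) ℝ} {K : Cliff n V}
    [MeasurableSpace X] {S : SpX C G K} {μ : Measure X} {H : Type} [NormedAddCommGroup H]
    [InnerProductSpace ℂ H]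

theorem ext_core (E : Emb S μ H) {A B : H →L[ℂ] H} (h : ∀ φ, A (E.e φ) = B (E.e φ)) : A = B := by
  refine ContinuousLinearMap.ext fun u => ?_
  exact congrFun (E.dense.equalizer A.continuous B.continuous (funext fun φ => h φ)) u

omit [MeasurableSpace X] in
theorem mul_cut {κ f : X → ℝ} {T : Set X} (h1 : ∀ x ∈ T, κ x = 1) (h2 : ∀ x, x ∉ T → f x = 0)
    (φ : Raw Γ I n V) (γ : Γ) (i : I) (y : E n) :
    mulR C κ (mulR C f φ) γ i y = mulR C f φ γ i y := by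
  unfold mulR
  by_cases hx : γ • C.ψ i y ∈ T
  · rw [h1 _ hx, Complex.ofReal_one, one_smul]
  · rw [h2 _ hx, Complex.ofReal_zero, zero_smul, smul_zero]

omit [MeasurableSpace X] in
theorem cl_cut {κ f φ₀ : X → ℝ} (h1 : ∀ x ∈ tsupport φ₀, κ x = 1) (h2 : ∀ x, f x = φ₀ x)
    (φ : Raw Γ I n V) (γ : Γ) (i : I) (y : E n) :
    mulR C κ (S.clR f φ) γ i y = S.clR f φ γ i y := by
  have h3 : f = φ₀ := funext h2
  subst h3
  unfold mulR
  by_cases hx : γ • C.ψ i y ∈ tsupport f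
  · rw [h1 _ hx, Complex.ofReal_one, one_smul]
  · have h4 : C.rep f γ i =ᶠ[𝓝 y] fun _ => 0 :=
      WtX.rep_ev (notMem_tsupport_iff_eventuallyEq.1 hx)
    have h5 : S.clR f φ γ i y = 0 := by
      unfold SpX.clR cdf
      simp [H.pd, h4.fderiv_eq, rs_apply]
    rw [h5, smul_zero]

end cut

/-- BLOCK K6 -/
theorem specGrow (hI : SpecIntS) (hL : SpecLocal) (hS : SpecSup) (hAlg : SpecAlg)
    (hDecA : SpecDecA) (hDec : SpecDec) (hPW : SpecPW) : SpecGrow := by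
  classical
  intro n M X Γ I V H _ _ _ _ _ _ _ _ _ _ _ _ _ _ _ _ c ι _ P a h W s w F hn hO hw hF
  have : Countable Γ := Vol.countable_group c.C
  -- cutoffs
  choose κ hκ1 hκ2 hκ3 hκ4 hκ5 using fun i : ι => exists_cut c.C (K := tsupport (P.φ i))
    (P.supp i).isCompact
  obtain ⟨k₁, -, -, -, hk₁, -⟩ := hDecA n M X Γ I V H c ι κ hn ⟨hκ1, hκ2, hκ3, hκ4⟩
  obtain ⟨k, wt, A, m₀, hm₀, hwt, hsum, hD⟩ := hDec n M X Γ I V H c ι P a h W hn hO
  have hwc : Continuous w := Ck_continuous c.C fun γ i => (hw.smooth γ i).of_le (by simp)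
  obtain ⟨La, hLa, hra⟩ := row_a hI hn c.vol c.E hwc hw.pos hO
  obtain ⟨Lh, hLh, hrh⟩ := row_h hI hL hn c.vol c.E hwc hw.pos hO
  have hrow : ∀ i, (supW c.E w hw.pos).Row (lt n a h W i) (La + Lh) := by
    intro i
    refine Fin.cases ?_ (fun i => ?_) i
    · have := hra.mul (op_W hL c.E hw.pos hO) hLa
      rw [one_mul] at this
      exact this.mono (by linarith)
    · exact hrh.mono (by linarith)
  refine ⟨max m₀ (1 + |s|), lt_max_of_lt_left hm₀, fun m g p hm hms hR => ?_⟩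
  have hm1 : m₀ ≤ m := (le_max_left _ _).trans hm
  have hm2 : 1 + |s| ≤ m := (le_max_right _ _).trans hm
  have hm3 : 1 ≤ m := by linarith [abs_nonneg s]
  have hm4 : 1 ≤ m ^ 2 + s := by
    have h1 := neg_abs_le s
    have h2 := abs_nonneg s
    nlinarith
  have hA := hAlg n M X Γ I V H c ι P a h W g p m hn (by linarith) hO hR
  have hD := hD m hm1 g p hR
  -- the nuclear operators
  have hκe : ∀ (i : ι) φ, k₁ (1, i) (c.E.e φ) = c.E.e (c.S.mC (κ i) (hκ1 i) φ) := by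
    intro i φ
    have hl : c.C.Ck ∞ (fun x => κ i ((1 : Γ)⁻¹ • x)) := by
      have e : (fun x : X => κ i ((1 : Γ)⁻¹ • x)) = κ i := by
        funext x; rw [inv_one, one_smul]
      rw [e]; exact hκ1 i
    rw [hk₁.k_e (1, i) hl φ]
    congr 1
    refine Subtype.ext ?_
    funext γ j y
    change ((κ i ((1 : Γ)⁻¹ • γ • c.C.ψ j y) : ℝ) : ℂ) • _ = ((κ i (γ • c.C.ψ j y) : ℝ) : ℂ) • _
    rw [inv_one, one_smul]
  have hNB : ∀ i : ι, ∃ C : ℝ, 0 ≤ C ∧
      (supW c.E w hw.pos).NB (trI H).tr (g ^ n * k₁ (1, i)) C := by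
    intro i
    obtain ⟨α, _, ν, u, v, hu, hv, hint, hrep, hb⟩ := hPW n M X Γ I V H c (κ i) (hκ1 i)
      (k₁ (1, i)) n m g p hn (hκ2 i) (hκe i) (by omega) hm3 hR
    obtain ⟨cu, cv, h1, h2, h3, h4, h5⟩ := hb s w hw hm4
    refine ⟨_, integral_nonneg fun a => mul_nonneg (h1 a) (h2 a),
      nb_of_rep (intRep_of hu hv hint hrep) (supW c.E w hw.pos) h1 h2 h3 h4 ?_⟩
    intro a b x hb hx
    exact h5 a b x hb hx
  choose Cn hCn hNB using hNB
  have hNB' : ∀ i : ι, (supW c.E w hw.pos).NB (trI H).tr (g ^ n * k₁ (1, i)) (∑ i, Cn i) := by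
    intro i κ T Fk R hR hFk
    refine (hNB i κ T Fk R hR hFk).trans (mul_le_mul_of_nonneg_right ?_ hR)
    exact Finset.single_le_sum (f := Cn) (fun j _ => hCn j) (Finset.mem_univ i)
  -- cutoffs on the left of the letters
  have hka : ∀ i : ι, k₁ (1, i) * a (1, i) = a (1, i) := by
    intro i
    refine ext_core c.E fun φ => ?_
    rw [mul_apply_eq_comp, hO.a_e _ (ck_fn hO.sm (1, i)), hκe]
    congr 1
    refine Subtype.ext ?_
    funext γ j y
    exact mul_cut (hκ5 i) (fun x hx => by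
      change P.φ i ((1 : Γ)⁻¹ • x) = 0
      rw [inv_one, one_smul]
      exact image_eq_zero_of_notMem_tsupport hx) _ _ _ _
  have hkh : ∀ i : ι, k₁ (1, i) * h (1, i) = h (1, i) := by
    intro i
    refine ext_core c.E fun φ => ?_
    rw [mul_apply_eq_comp, hO.h_e _ (ck_fn hO.sm (1, i)), hκe]
    congr 1
    refine Subtype.ext ?_
    funext γ j y
    exact cl_cut (hκ5 i) (fun x => by
      change P.φ i ((1 : Γ)⁻¹ • x) = _
      rw [inv_one, one_smul]) _ _ _ _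
  have hχ : ∀ (q : Fin (n + 1)) (i : ι), k₁ (1, i) * lt n a h W q (1, i) =
      lt n a h W q (1, i) := by
    intro q i
    refine Fin.cases ?_ (fun q => ?_) q
    · change k₁ (1, i) * (W * a (1, i)) = W * a (1, i)
      rw [hA.Wa, ← mul_assoc, hka]
    · exact hkh i
  obtain ⟨D, hgr⟩ := growth (supW c.E w hw.pos) (trI H) (lt n a h W) g (fun i => k₁ (1, i)) n
    (La + Lh) (m ^ 2 + s)⁻¹ (∑ i, Cn i) (by positivity) (by positivity)
    (Finset.sum_nonneg fun i _ => hCn i) hrow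
    (op_g hS c hn hw (by linarith) hms hR) hχ
    (fun q l j hj => nuc_lt hA hD hwt hsum (by omega) q l) hNB'
    (fun j ⟨q, hq⟩ γ l => by rw [inv_lt hA hD hwt hsum (q := q) (by omega) γ l])
    (fun l => (F fun i => (l i).1 : ℂ)) 1 zero_le_one (fun l => by
      rw [Complex.norm_real]
      exact hF.bdd _)
  refine ⟨D, (n + 1) * n, fun K hK => ?_⟩
  have := hgr K (Finset.Nat.antidiagonalTuple (n + 1) K) hK fun j hj =>
    Finset.Nat.mem_antidiagonalTuple.1 hj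
  rw [inv_pow, ← div_eq_mul_inv] at this
  refine le_trans (le_of_eq ?_) this
  congr 1
  unfold rK
  refine tsum_congr fun l => ?_
  congr 1
  refine Finset.sum_congr rfl fun j _ => ?_
  rw [wrd_eq]
  rfl

end Vale.Agent.P223.H391
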