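import Vale.Agent.P223.H391.SupPD

/-! Sup bound for `p = D g` (block (C) of Stage 2). -/

namespace Vale.Agent.P223.H391

open scoped ContDiff InnerProductSpace Topology
open MeasureTheory Vale.Agent.P223.H Vale.Agent.P223.X Vale.Agent.P223.H566

/-- BLOCK (C) : sup bound for `p = D g` if `Scal ≥ -κ` and `κ ≤ m²`. -/
def SpecSupP : Prop := ∀ n : ℕ, ∃ q : ℝ, 0 ≤ q ∧
  ∀ (M X Γ I V H : Type) [TopologicalSpace M] [TopologicalSpace X]
  [Group Γ] [MulAction Γ X] [Fintype I] [T2Space X] [ConnectedSpace X] [T2Space M]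
  [MeasurableSpace X] [BorelSpace X] [NormedAddCommGroup V] [InnerProductSpace ℂ V]
  [FiniteDimensional ℂ V] [NormedAddCommGroup H] [InnerProductSpace ℂ H] [CompleteSpace H]
  (c : Ctx n M X Γ I V H) (κ m : ℝ) (g p : H →L[ℂ] H), 1 ≤ n → 0 < m → κ ≤ m ^ 2 →
  (∀ i y, -κ ≤ Vale.Agent.P223.H.scal (c.G i) y) → Rsv c.E m g p →
  ∀ (b : ℝ) (u : H), 0 ≤ b → WB c.E (fun _ => 1) b u → WB c.E (fun _ => 1) (q / m * b) (p u)

section
variable {n : ℕ} {M X Γ I V H : Type} [TopologicalSpace M] [TopologicalSpace X]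
  [Group Γ] [MulAction Γ X] [Fintype I] [T2Space X] [ConnectedSpace X] [T2Space M]
  [MeasurableSpace X] [BorelSpace X] [NormedAddCommGroup V] [InnerProductSpace ℂ V]
  [FiniteDimensional ℂ V] [NormedAddCommGroup H] [InnerProductSpace ℂ H] [CompleteSpace H]
  {c : Ctx n M X Γ I V H}

omit [Fintype I] [ConnectedSpace X] [T2Space M] [BorelSpace X] [FiniteDimensional ℂ V]
  [CompleteSpace H] in
theorem norm_p_le {m : ℝ} (hm : 0 < m) {g p : H →L[ℂ] H} (hR : Rsv c.E m g p) (u : H) :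
    ‖p u‖ ≤ ‖u‖ / m := by
  obtain ⟨sp, sm, -, -, h1, h2, -, hp⟩ := hR.ex
  have h3 := h1 u
  have h4 := h2 u
  rw [le_div_iff₀ hm, hp, smul_apply, sub_apply, norm_smul]
  have h5 := norm_sub_le (sm u) (sp u)
  have h6 : ‖(1 / 2 : ℂ)‖ = 1 / 2 := by norm_num
  rw [h6]
  nlinarith

theorem supP_aux (hL : SpecLocal) (hD : SpecDense) (hn : 1 ≤ n) {κ : ℝ}
    (hs : ∀ i y, -κ ≤ Vale.Agent.P223.H.scal (c.G i) y) {b : ℝ} (hb : 0 ≤ b) {u : H}
    (hu : WB c.E (fun _ => 1) b u) (φ : Core c.S) (N : ℕ) :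
    ∀ (m : ℝ) (g p : H →L[ℂ] H), 0 < m → κ ≤ m ^ 2 → Rsv c.E m g p →
    ‖⟪p u, c.E.e φ⟫_ℂ‖ ≤ 12 * n * b / m * (1 - (1 / 2) ^ N) *
      ∫ x, 1 * nm c.C (φ : Raw Γ I n V) x ∂c.μ + (1 / 2) ^ N * (‖u‖ / m * ‖c.E.e φ‖) := by
  have hn' : (1 : ℝ) ≤ n := by exact_mod_cast hn
  induction N with
  | zero =>
    intro m g p hm hk hR
    rw [pow_zero, sub_self, mul_zero, zero_mul, zero_add, one_mul]
    exact (norm_inner_le_norm _ _).trans
      (mul_le_mul_of_nonneg_right (norm_p_le hm hR u) (norm_nonneg _))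
  | succ N ih =>
    intro m g p hm hk hR
    have hm' : 0 < 2 * m := by positivity
    obtain ⟨g', p', hR'⟩ := exists_Rsv hL hD c hm'
    have h1 := ih (2 * m) g' p' hm' (by nlinarith) hR'
    have h2 := (res_id hD hm hm' hR hR' u).2
    have h3 : WB c.E (fun _ => 1) ((n : ℝ) / m * (b / (m ^ 2 / 2))) (p (g' u)) := by
      refine pg_bound hL hD hm hm' hR hR' hs (σ := m ^ 2 / 2) (t := (n : ℝ) / m)
        (by positivity) (by positivity) ?_ ?_ hb hu
      · nlinarith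
      · have e : ((n : ℝ) / m)⁻¹ ^ 2 * n / 4 = m ^ 2 / (4 * n) := by
          have : (n : ℝ) ≠ 0 := by positivity
          field_simp
        rw [e]
        have : m ^ 2 / (4 * n) ≤ m ^ 2 / 4 :=
          div_le_div_of_nonneg_left (by positivity) (by norm_num) (by linarith)
        linarith
    have h4 := h3 φ
    set L := ∫ x, 1 * nm c.C (φ : Raw Γ I n V) x ∂c.μ with hLd
    have e1 : ⟪p u, c.E.e φ⟫_ℂ = ⟪p' u, c.E.e φ⟫_ℂ + (3 * m ^ 2 : ℝ) * ⟪p (g' u), c.E.e φ⟫_ℂ := by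
      rw [h2, inner_add_left, inner_smul_left]
      congr 2
      rw [← Complex.ofReal_pow, ← Complex.ofReal_pow, ← Complex.ofReal_sub, Complex.conj_ofReal]
      congr 1
      ring
    rw [e1]
    have h5 : ‖((3 * m ^ 2 : ℝ) : ℂ) * ⟪p (g' u), c.E.e φ⟫_ℂ‖ ≤
        3 * m ^ 2 * ((n : ℝ) / m * (b / (m ^ 2 / 2)) * L) := by
      rw [norm_mul, Complex.norm_real, Real.norm_eq_abs, abs_of_nonneg (by positivity)]
      exact mul_le_mul_of_nonneg_left h4 (by positivity)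
    refine (norm_add_le _ _).trans ((add_le_add h1 h5).trans (le_of_eq ?_))
    rw [pow_succ]
    field_simp
    ring

end

theorem supP (hL : SpecLocal) (hD : SpecDense) : SpecSupP := by
  intro n
  refine ⟨12 * n, by positivity, ?_⟩
  intro M X Γ I V H _ _ _ _ _ _ _ _ _ _ _ _ _ _ _ _ c κ m g p hn hm hk hs hR b u hb hu φ
  set L := ∫ x, 1 * nm c.C (φ : Raw Γ I n V) x ∂c.μ with hLd
  have h0 : Filter.Tendsto (fun N : ℕ => ((1 : ℝ) / 2) ^ N) Filter.atTop (𝓝 0) :=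
    tendsto_pow_atTop_nhds_zero_of_lt_one (by norm_num) (by norm_num)
  have h1 : Filter.Tendsto (fun N : ℕ => 12 * n * b / m * (1 - (1 / 2) ^ N) * L +
      (1 / 2) ^ N * (‖u‖ / m * ‖c.E.e φ‖)) Filter.atTop
      (𝓝 (12 * n * b / m * (1 - 0) * L + 0 * (‖u‖ / m * ‖c.E.e φ‖))) :=
    (((h0.const_sub 1).const_mul _).mul_const L).add (h0.mul_const _)
  have h2 := ge_of_tendsto' h1 fun N => supP_aux hL hD hn hs hb hu φ N m g p hm hk hR
  refine h2.trans (le_of_eq ?_)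
  rw [sub_zero, mul_one, zero_mul, add_zero]
  ring

end Vale.Agent.P223.H391
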