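import Vale.Agent.P223.H391.Cmp

/-! Comparison: `|u| ≤ f` implies `|g u| ≤ w` if `-Δ w + (Scal / 4 + m²) w ≥ f`. -/

namespace Vale.Agent.P223.H391

open scoped ContDiff InnerProductSpace Topology
open MeasureTheory Vale.Agent.P223.H Vale.Agent.P223.X Vale.Agent.P223.H566

section
variable {n : ℕ} {M X Γ I V H : Type} [TopologicalSpace M] [TopologicalSpace X]
  [Group Γ] [MulAction Γ X] [Fintype I] [T2Space X] [ConnectedSpace X] [T2Space M]
  [MeasurableSpace X] [BorelSpace X] [NormedAddCommGroup V] [InnerProductSpace ℂ V]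
  [FiniteDimensional ℂ V] [NormedAddCommGroup H] [InnerProductSpace ℂ H] [CompleteSpace H]
  {c : Ctx n M X Γ I V H}

theorem cmp (hL : SpecLocal) (hD : SpecDense) (hn : 1 ≤ n) {m : ℝ} (hm : 0 < m)
    {g p : H →L[ℂ] H} (hR : Rsv c.E m g p) {w f : X → ℝ} (hw : c.C.Ck ∞ w) (hw0 : ∀ x, 0 < w x)
    (hwg : ∃ c₀ : ℝ, ∀ x, gsX c.C c.G w x ≤ (c₀ * w x) ^ 2) (hf : Continuous f) {ε : ℝ}
    (hε : 0 < ε) (hfε : ∀ x, ε * w x ≤ f x)
    (hineq : ∀ (γ : Γ) i y, f (γ • c.C.ψ i y) ≤ m ^ 2 * w (γ • c.C.ψ i y) +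
      (-lap (c.G i) (c.C.rep w γ i) y +
        Vale.Agent.P223.H.scal (c.G i) y / 4 * w (γ • c.C.ψ i y)))
    {u : H} (hu : WB c.E f 1 u) : WB c.E w 1 (g u) := by
  have hf0 : ∀ x, 0 < f x := fun x => (mul_pos hε (hw0 x)).trans_le (hfε x)
  have hG : Gst c.C c.G (-(m ^ 2)) w := ⟨hw, hw0, hwg, fun γ i y => by
    have h1 := hineq γ i y
    have h2 := hf0 (γ • c.C.ψ i y)
    linarith⟩
  have hcw : Continuous w := Ck_continuous c.C fun γ i => contDiff_infty.1 (hw γ i) 0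
  set k : X → ℝ := fun x => f x / w x with hk
  have hkc : Continuous k := hf.div hcw fun x => (hw0 x).ne'
  have hkε : ∀ x, ε ≤ k x := fun x => (le_div_iff₀ (hw0 x)).2 (hfε x)
  have hkw : ∀ (γ : Γ) i y, (k (γ • c.C.ψ i y) - m ^ 2) * w (γ • c.C.ψ i y) ≤
      -lap (c.G i) (c.C.rep w γ i) y +
        Vale.Agent.P223.H.scal (c.G i) y / 4 * w (γ • c.C.ψ i y) := fun γ i y => by
    have h1 := hineq γ i y
    have h2 : k (γ • c.C.ψ i y) * w (γ • c.C.ψ i y) = f (γ • c.C.ψ i y) :=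
      div_mul_cancel₀ _ (hw0 _).ne'
    rw [sub_mul, h2]
    linarith
  -- reduction
  suffices key : ∀ c' : ℝ, 1 < c' → WB c.E w c' (g u) by
    intro φ
    have hlim : Filter.Tendsto (fun c' : ℝ => c' * ∫ x, w x * nm c.C (φ : Raw Γ I n V) x ∂c.μ)
        (𝓝[>] 1) (𝓝 (1 * ∫ x, w x * nm c.C (φ : Raw Γ I n V) x ∂c.μ)) :=
      ((continuous_id.mul continuous_const).tendsto 1).mono_left nhdsWithin_le_nhds
    refine ge_of_tendsto hlim ?_
    filter_upwards [self_mem_nhdsWithin] with c' hc' using key c' hc' φ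
  intro c' hc'
  set c₀ : ℝ := (1 + c') / 2 with hc₀
  have h1 : 1 < c₀ := by rw [hc₀]; linarith
  have h2 : c₀ < c' := by rw [hc₀]; linarith
  have h3 : 0 < c₀ := by linarith
  obtain ⟨F, hF, hF1⟩ := exists_Tst (a := c₀ ^ 2) (b := c' ^ 2) (by positivity)
    (pow_lt_pow_left₀ h2 h3.le two_ne_zero)
  obtain ⟨B, hB⟩ := H620.supB hL n M X Γ I V H c (-(m ^ 2)) w (c₀ ^ 2) F hn hG hF
  have hsm : ∀ φ : Core c.S, c.C.Ck ∞ (fun x => F (H566.qf c.C w (φ : Raw Γ I n V) x)) :=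
    fun φ => supSm n M X Γ I V c.C c.G c.K c.S w F φ hw hw0 hF.smooth
  have hfc : ∀ φ : Core c.S, Continuous (fun x => F (H566.qf c.C w (φ : Raw Γ I n V) x)) :=
    fun φ => Ck_continuous c.C fun γ i => contDiff_infty.1 (hsm φ γ i) 0
  have hqc : ∀ φ : Core c.S, Continuous (fun x => H566.qf c.C w (φ : Raw Γ I n V) x) :=
    fun φ => Ck_continuous c.C fun γ i => contDiff_infty.1
      (supSm n M X Γ I V c.C c.G c.K c.S w id φ hw hw0 contDiff_id γ i) 0
  obtain ⟨φ, l1, l2⟩ := gr_seq (gr_gp hD hm hR u).1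
  set ψ : ℕ → Core c.S := fun j => c.S.mC _ (hsm (φ j)) (φ j) with hψ
  set J : ℕ → ℝ := fun j => ∫ x, k x * (F (H566.qf c.C w (φ j : Raw Γ I n V) x) *
    nm c.C (φ j : Raw Γ I n V) x ^ 2) ∂c.μ with hJ
  have hfin := finComp c.S.met c.vol
  have hint0 : ∀ j, Integrable (fun x => F (H566.qf c.C w (φ j : Raw Γ I n V) x) *
    nm c.C (φ j : Raw Γ I n V) x ^ 2) c.μ := fun j => by
    have := integrable_f (c := c) (φ j) ((hfc (φ j)).mul (φ j).2.continuous_nm)
    refine this.congr (Filter.Eventually.of_forall fun x => ?_)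
    simp only [Pi.mul_apply]
    ring
  have hint : ∀ j, Integrable (fun x => k x * (F (H566.qf c.C w (φ j : Raw Γ I n V) x) *
    nm c.C (φ j : Raw Γ I n V) x ^ 2)) c.μ := fun j => by
    have := integrable_f (c := c) (φ j) ((hkc.mul (hfc (φ j))).mul (φ j).2.continuous_nm)
    refine this.congr (Filter.Eventually.of_forall fun x => ?_)
    simp only [Pi.mul_apply]
    ring
  have hpos0 : ∀ j x, 0 ≤ F (H566.qf c.C w (φ j : Raw Γ I n V) x) *
      nm c.C (φ j : Raw Γ I n V) x ^ 2 := fun j x => mul_nonneg (hF.nonneg _) (sq_nonneg _)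
  have hJ0 : ∀ j, 0 ≤ J j := fun j => integral_nonneg fun x =>
    mul_nonneg (hε.le.trans (hkε x)) (hpos0 j x)
  -- norm of the test functions
  have n1 : ∀ j, ‖c.E.e (ψ j)‖ ≤ ‖c.E.e (φ j)‖ := by
    intro j
    have := norm_e_le c.E c.vol (φ := ψ j) (ψ := φ j) zero_le_one fun x => by
      rw [hψ, nm_mC]
      refine mul_le_mul_of_nonneg_right ?_ (norm_nonneg _)
      rw [abs_of_nonneg (hF.nonneg _)]
      exact hF.le _
    rwa [one_mul] at this
  have n2 : ∀ j, ‖c.E.e (c.S.DC (ψ j))‖ ≤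
      √(|B| * (‖c.E.e (φ j)‖ ^ 2 + ‖c.E.e (c.S.DC (φ j))‖ ^ 2)) := by
    intro j
    refine Real.le_sqrt_of_sq_le ((hB (φ j) (hsm (φ j))).trans ?_)
    exact mul_le_mul_of_nonneg_right (le_abs_self _) (by positivity)
  -- the error
  set err : ℕ → ℝ := fun j => m ^ 2 * (‖c.E.e (φ j) - g u‖ * ‖c.E.e (φ j)‖) +
    ‖c.E.e (c.S.DC (φ j)) - p u‖ *
      √(|B| * (‖c.E.e (φ j)‖ ^ 2 + ‖c.E.e (c.S.DC (φ j))‖ ^ 2)) with herr
  have herr0 : Filter.Tendsto err Filter.atTop (𝓝 0) := by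
    have t1 : Filter.Tendsto (fun j => ‖c.E.e (φ j) - g u‖) Filter.atTop (𝓝 0) := by
      rw [← tendsto_iff_norm_sub_tendsto_zero]; exact l1
    have t2 : Filter.Tendsto (fun j => ‖c.E.e (c.S.DC (φ j)) - p u‖) Filter.atTop (𝓝 0) := by
      rw [← tendsto_iff_norm_sub_tendsto_zero]; exact l2
    have t3 := ((t1.mul l1.norm).const_mul (m ^ 2)).add
      (t2.mul ((((l1.norm.pow 2).add (l2.norm.pow 2)).const_mul |B|).sqrt))
    rw [zero_mul, mul_zero, zero_mul, add_zero] at t3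
    exact t3
  -- main estimate
  have main : ∀ j, (1 - 1 / c₀) * J j ≤ err j := by
    intro j
    have a1 := supA' (c := c) hL hG hF hkc hkw (φ j) (hsm (φ j))
    have a2 : m ^ 2 * (⟪c.E.e (φ j), c.E.e (ψ j)⟫_ℂ).re +
        (⟪c.E.e (c.S.DC (φ j)), c.E.e (c.S.DC (ψ j))⟫_ℂ).re =
        (⟪u, c.E.e (ψ j)⟫_ℂ).re + (m ^ 2 * (⟪c.E.e (φ j) - g u, c.E.e (ψ j)⟫_ℂ).re +
        (⟪c.E.e (c.S.DC (φ j)) - p u, c.E.e (c.S.DC (ψ j))⟫_ℂ).re) := by
      have := congrArg Complex.re (weak_eq hL hD hm hR u (ψ j))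
      rw [Complex.add_re, ← Complex.ofReal_pow, Complex.re_ofReal_mul] at this
      rw [inner_sub_left, inner_sub_left, Complex.sub_re, Complex.sub_re]
      linear_combination this
    have a3 : (⟪u, c.E.e (ψ j)⟫_ℂ).re ≤ 1 / c₀ * J j := by
      have b1 : (⟪u, c.E.e (ψ j)⟫_ℂ).re ≤ 1 *
          ∫ x, f x * nm c.C (ψ j : Raw Γ I n V) x ∂c.μ :=
        (Complex.re_le_norm _).trans (hu (ψ j))
      rw [one_mul] at b1
      refine b1.trans ?_
      rw [hJ, ← integral_const_mul]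
      refine integral_mono (integrable_f (ψ j) hf) ((hint j).const_mul _) fun x => ?_
      simp only
      rw [hψ, nm_mC, abs_of_nonneg (hF.nonneg _)]
      set N := nm c.C (φ j : Raw Γ I n V) x with hN
      have hN0 : 0 ≤ N := norm_nonneg _
      have hwx := hw0 x
      by_cases hq : H566.qf c.C w (φ j : Raw Γ I n V) x ≤ c₀ ^ 2
      · rw [hF.zero _ hq]; simp
      · push Not at hq
        have hNw : c₀ * w x ≤ N := by
          unfold H566.qf at hq
          rw [lt_div_iff₀ (by positivity), ← mul_pow] at hq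
          exact (abs_le_of_sq_le_sq' hq.le hN0).2
        have hF0 := hF.nonneg (H566.qf c.C w (φ j : Raw Γ I n V) x)
        set F0 := F (H566.qf c.C w (φ j : Raw Γ I n V) x)
        have hfk : f x = k x * w x := (div_mul_cancel₀ _ hwx.ne').symm
        have hkx : 0 ≤ k x := hε.le.trans (hkε x)
        have : f x * (F0 * N) = (1 / c₀ * k x * F0 * N) * (c₀ * w x) := by
          rw [hfk]; field_simp
        rw [this]
        calc 1 / c₀ * k x * F0 * N * (c₀ * w x) ≤ 1 / c₀ * k x * F0 * N * N :=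
              mul_le_mul_of_nonneg_left hNw (by positivity)
          _ = _ := by ring
    have a4 : m ^ 2 * (⟪c.E.e (φ j) - g u, c.E.e (ψ j)⟫_ℂ).re +
        (⟪c.E.e (c.S.DC (φ j)) - p u, c.E.e (c.S.DC (ψ j))⟫_ℂ).re ≤ err j := by
      refine add_le_add (mul_le_mul_of_nonneg_left ?_ (sq_nonneg m)) ?_
      · refine (Complex.re_le_norm _).trans ((norm_inner_le_norm _ _).trans ?_)
        exact mul_le_mul_of_nonneg_left (n1 j) (norm_nonneg _)
      · refine (Complex.re_le_norm _).trans ((norm_inner_le_norm _ _).trans ?_)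
        exact mul_le_mul_of_nonneg_left (n2 j) (norm_nonneg _)
    have a5 : J j ≤ 1 / c₀ * J j + err j := by
      refine a1.trans ?_
      rw [a2]
      exact add_le_add a3 a4
    linarith
  have hJlim : Filter.Tendsto J Filter.atTop (𝓝 0) := by
    have hc : 0 < 1 - 1 / c₀ := sub_pos.2 ((div_lt_one h3).2 h1)
    refine squeeze_zero hJ0 (g := fun j => (1 - 1 / c₀)⁻¹ * err j) (fun j => ?_) ?_
    · rw [inv_mul_eq_div, le_div_iff₀ hc, mul_comm]
      exact main j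
    · have := herr0.const_mul ((1 - 1 / c₀)⁻¹)
      rw [mul_zero] at this
      exact this
  have := wb_of_limW (c := c) (t := 1) (h3.trans h2) zero_le_one hF hF1 hcw hw0
    (f := fun j x => H566.qf c.C w (φ j : Raw Γ I n V) x) (fun j => hqc (φ j))
    (fun j x => by
      unfold H566.qf
      rw [one_pow, one_mul, div_mul_cancel₀ _ (pow_pos (hw0 x) 2).ne']) l1 ?_
  · rwa [one_mul] at this
  refine squeeze_zero (fun j => integral_nonneg (hpos0 j)) (g := fun j => ε⁻¹ * J j)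
    (fun j => ?_) ?_
  · rw [hJ, ← integral_const_mul]
    refine integral_mono (hint0 j) ((hint j).const_mul _) fun x => ?_
    simp only
    have h4 := mul_le_mul_of_nonneg_right (hkε x) (hpos0 j x)
    rw [← div_eq_inv_mul, le_div_iff₀ hε, mul_comm]
    exact h4
  · have := hJlim.const_mul ε⁻¹
    rw [mul_zero] at this
    exact this

end

end Vale.Agent.P223.H391
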