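import Vale.Agent.P223.H391.Growth

/-! Growth of Taylor coefficients, abstract part: the final contradiction. -/

namespace Vale.Agent.P223.H391

open scoped InnerProductSpace Topology
open Filter

/-- A sequence which satisfies the recursion of the Taylor coefficients of `lam ^ (-n/2-1)` and
grows at most like `(lam + s) ^ (-K)` vanishes. -/
theorem zero_of_growth {r : ℕ → ℂ} {lam s : ℝ} (hl : 0 < lam) (hs : 0 < s) (n K₀ N : ℕ)
    (hrec : ∀ K, K₀ ≤ K → ((n : ℂ) + 2 + 2 * K) * r K = 2 * lam * (K + 1) * r (K + 1)) (C : ℝ)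
    (hgr : ∀ K, K₀ ≤ K → ‖r K‖ ≤ C * ((K : ℝ) + 1) ^ N * ((lam + s)⁻¹) ^ K) : r K₀ = 0 := by
  -- one step
  have h1 : ∀ K, K₀ ≤ K → ‖r K‖ ≤ lam * ‖r (K + 1)‖ := by
    intro K hK
    have h := congrArg norm (hrec K hK)
    rw [norm_mul, norm_mul] at h
    have e1 : ‖((n : ℂ) + 2 + 2 * K)‖ = (n : ℝ) + 2 + 2 * K := by
      have : ((n : ℂ) + 2 + 2 * K) = (((n : ℝ) + 2 + 2 * K : ℝ) : ℂ) := by push_cast; ring
      rw [this, Complex.norm_real, Real.norm_of_nonneg (by positivity)]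
    have e2 : ‖(2 * lam * (K + 1) : ℂ)‖ = 2 * lam * (K + 1) := by
      have : (2 * lam * (K + 1) : ℂ) = ((2 * lam * (K + 1) : ℝ) : ℂ) := by push_cast; ring
      rw [this, Complex.norm_real, Real.norm_of_nonneg (by positivity)]
    rw [e1, e2] at h
    have h2 : (2 * ((K : ℝ) + 1)) * ‖r K‖ ≤ (2 * ((K : ℝ) + 1)) * (lam * ‖r (K + 1)‖) := by
      calc (2 * ((K : ℝ) + 1)) * ‖r K‖ ≤ ((n : ℝ) + 2 + 2 * K) * ‖r K‖ := by
            refine mul_le_mul_of_nonneg_right ?_ (norm_nonneg _)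
            have : (0 : ℝ) ≤ n := Nat.cast_nonneg n
            linarith
        _ = (2 * ((K : ℝ) + 1)) * (lam * ‖r (K + 1)‖) := by rw [h]; ring
    exact le_of_mul_le_mul_left h2 (by positivity)
  have h2 : ∀ j : ℕ, ‖r K₀‖ ≤ lam ^ j * ‖r (K₀ + j)‖ := by
    intro j
    induction j with
    | zero => simp
    | succ j ih =>
      calc ‖r K₀‖ ≤ lam ^ j * ‖r (K₀ + j)‖ := ih
        _ ≤ lam ^ j * (lam * ‖r (K₀ + j + 1)‖) :=
          mul_le_mul_of_nonneg_left (h1 _ (Nat.le_add_right _ _)) (by positivity)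
        _ = lam ^ (j + 1) * ‖r (K₀ + (j + 1))‖ := by rw [pow_succ, ← add_assoc]; ring
  -- decay
  set ρ : ℝ := lam * (lam + s)⁻¹ with hρ
  have hls : 0 < lam + s := by linarith
  have hρ0 : 0 < ρ := by positivity
  have hρ1 : ρ < 1 := by
    rw [hρ, ← div_eq_mul_inv, div_lt_one hls]; linarith
  have h3 : ∀ j : ℕ, ‖r K₀‖ ≤ C * ((K₀ + j : ℝ) + 1) ^ N *
      (ρ ^ j * ((lam + s)⁻¹) ^ K₀) := by
    intro j
    refine (h2 j).trans ?_
    have h4 := hgr (K₀ + j) (Nat.le_add_right _ _)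
    calc lam ^ j * ‖r (K₀ + j)‖
        ≤ lam ^ j * (C * (((K₀ + j : ℕ) : ℝ) + 1) ^ N * ((lam + s)⁻¹) ^ (K₀ + j)) :=
          mul_le_mul_of_nonneg_left h4 (by positivity)
      _ = _ := by rw [hρ, mul_pow, pow_add]; push_cast; ring
  have h5 : Tendsto (fun j : ℕ => C * ((K₀ + j : ℝ) + 1) ^ N *
      (ρ ^ j * ((lam + s)⁻¹) ^ K₀)) atTop (𝓝 0) := by
    have h6 : Tendsto (fun j : ℕ => ((j + (K₀ + 1) : ℕ) : ℝ) ^ N * ρ ^ (j + (K₀ + 1))) atTop
        (𝓝 0) :=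
      (tendsto_pow_const_mul_const_pow_of_abs_lt_one N (by rwa [abs_of_pos hρ0])).comp
        (tendsto_add_atTop_nat (K₀ + 1))
    have h7 := h6.const_mul (C * (((lam + s)⁻¹) ^ K₀ * (ρ ^ (K₀ + 1))⁻¹))
    rw [mul_zero] at h7
    refine h7.congr fun j => ?_
    rw [pow_add ρ]
    have : ρ ^ (K₀ + 1) ≠ 0 := by positivity
    field_simp
    push_cast
    ring
  have h8 : ‖r K₀‖ ≤ 0 := ge_of_tendsto' h5 h3
  exact norm_le_zero_iff.1 h8

/-- compositions of `K` -/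
theorem card_comp_le (N K : ℕ) (J : Finset (Fin N → ℕ)) (hJ : ∀ j ∈ J, ∑ i, j i = K) :
    J.card ≤ (K + 1) ^ N := by
  classical
  have h1 : J ⊆ Fintype.piFinset fun _ : Fin N => Finset.range (K + 1) := by
    intro j hj
    rw [Fintype.mem_piFinset]
    intro i
    rw [Finset.mem_range, Nat.lt_succ_iff, ← hJ j hj]
    exact Finset.single_le_sum (f := j) (fun _ _ => Nat.zero_le _) (Finset.mem_univ i)
  refine (Finset.card_le_card h1).trans (le_of_eq ?_)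
  simp

theorem exists_large {n m : ℕ} (j : Fin (n + 1) → ℕ) (h : (n + 1) * m ≤ ∑ i, j i) :
    ∃ p, m ≤ j p := by
  by_contra hne
  push Not at hne
  have h1 : ∑ i, j i < ∑ _i : Fin (n + 1), m :=
    Finset.sum_lt_sum_of_nonempty Finset.univ_nonempty fun i _ => hne i
  rw [Finset.sum_const, Finset.card_univ, Fintype.card_fin, smul_eq_mul] at h1
  omega

section
variable {H : Type} [NormedAddCommGroup H] [InnerProductSpace ℂ H] {Γ ι : Type} [Group Γ]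

/-- growth of the Taylor coefficients -/
theorem growth [Fintype ι] (S : Sup H) (R : TrI (H →L[ℂ] H)) {n : ℕ}
    (A : Fin (n + 1) → Γ × ι → H →L[ℂ] H) (G : H →L[ℂ] H) (χ : ι → H →L[ℂ] H) (m : ℕ)
    (L q C : ℝ) (hL : 0 ≤ L) (hq : 0 < q) (hC : 0 ≤ C) (hA : ∀ i, S.Row (A i) L)
    (hG : S.Op G q)
    (hχ : ∀ p i, χ i * A p (1, i) = A p (1, i))
    (hnuc : ∀ p l k, m ≤ k → R.nuc (A p l * G ^ k))
    (hNB : ∀ i, S.NB R.tr (G ^ m * χ i) C)
    (hinv : ∀ j, (∃ p, m ≤ j p) → ∀ (γ : Γ) l,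
      ‖R.tr (wd A G j (tl γ l))‖ = ‖R.tr (wd A G j l)‖)
    (F : (Fin (n + 1) → Γ × ι) → ℂ) (BF : ℝ) (hBF : 0 ≤ BF) (hF : ∀ l, ‖F l‖ ≤ BF) :
    ∃ D : ℝ, ∀ (K : ℕ) (J : Finset (Fin (n + 1) → ℕ)), (n + 1) * m ≤ K →
      (∀ j ∈ J, ∑ i, j i = K) →
      ‖∑' l : {l : Fin (n + 1) → Γ × ι // (l 0).1 = 1},
        F l * ∑ j ∈ J, R.tr (wd A G (fun i => j i + 1) l)‖ ≤
          D * ((K : ℝ) + 1) ^ (n + 1) * q ^ K := by
  classical
  set D : ℝ := BF * (Fintype.card ι * (C * (L ^ (n + 1) * (q ^ (n + 1) * (q ^ m)⁻¹)))) with hD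
  have hD0 : 0 ≤ D := by positivity
  refine ⟨D, fun K J hK hJ => ?_⟩
  have key : ∀ j ∈ J, ∀ T : Finset {l : Fin (n + 1) → Γ × ι // (l 0).1 = 1},
      ∑ l ∈ T, ‖F l * R.tr (wd A G (fun i => j i + 1) l)‖ ≤ D * q ^ K := by
    intro j hj T
    have hs : ∑ i, (j i + 1) = K + (n + 1) := by
      rw [Finset.sum_add_distrib, hJ j hj]; simp
    obtain ⟨p, hp⟩ := exists_large (m := m) (fun i => j i + 1) (by
      rw [hs]; exact hK.trans (Nat.le_add_right _ _))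
    have hmK : m ≤ K + (n + 1) := by
      rw [← hs]
      exact hp.trans (Finset.single_le_sum (f := fun i => j i + 1) (fun _ _ => Nat.zero_le _)
        (Finset.mem_univ p))
    have hq' : q ^ (K + (n + 1) - m) = q ^ (n + 1) * (q ^ m)⁻¹ * q ^ K := by
      rw [pow_sub₀ _ hq.ne' hmK, pow_add]; ring
    have h1 := growth_word S R A G χ m L q C hL hq.le hA hG hχ hnuc hNB (fun i => j i + 1)
      (hinv _ ⟨p, hp⟩) p hp (K + (n + 1) - m) (by rw [hs]; omega) (T.map ⟨Subtype.val,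
        Subtype.val_injective⟩) (fun l hl => by
          obtain ⟨l', _, rfl⟩ := Finset.mem_map.1 hl
          exact l'.2)
    rw [Finset.sum_map] at h1
    calc ∑ l ∈ T, ‖F l * R.tr (wd A G (fun i => j i + 1) l)‖
        ≤ ∑ l ∈ T, BF * ‖R.tr (wd A G (fun i => j i + 1) l)‖ :=
          Finset.sum_le_sum fun l _ => by
            rw [norm_mul]
            exact mul_le_mul_of_nonneg_right (hF _) (norm_nonneg _)
      _ = BF * ∑ l ∈ T, ‖R.tr (wd A G (fun i => j i + 1) l)‖ := by rw [Finset.mul_sum]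
      _ ≤ BF * (Fintype.card ι * (C * (L ^ (n + 1) * q ^ (K + (n + 1) - m)))) :=
          mul_le_mul_of_nonneg_left h1 hBF
      _ = D * q ^ K := by rw [hq', hD]; ring
  have hfin : ∀ T : Finset {l : Fin (n + 1) → Γ × ι // (l 0).1 = 1},
      ∑ l ∈ T, ‖F l * ∑ j ∈ J, R.tr (wd A G (fun i => j i + 1) l)‖ ≤
        D * ((K : ℝ) + 1) ^ (n + 1) * q ^ K := by
    intro T
    calc ∑ l ∈ T, ‖F l * ∑ j ∈ J, R.tr (wd A G (fun i => j i + 1) l)‖
        ≤ ∑ l ∈ T, ∑ j ∈ J, ‖F l * R.tr (wd A G (fun i => j i + 1) l)‖ :=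
          Finset.sum_le_sum fun l _ => by
            rw [Finset.mul_sum]
            exact norm_sum_le _ _
      _ = ∑ j ∈ J, ∑ l ∈ T, ‖F l * R.tr (wd A G (fun i => j i + 1) l)‖ := Finset.sum_comm
      _ ≤ ∑ j ∈ J, D * q ^ K := Finset.sum_le_sum fun j hj => key j hj T
      _ = (J.card : ℝ) * (D * q ^ K) := by rw [Finset.sum_const, nsmul_eq_mul]
      _ ≤ (((K + 1) ^ (n + 1) : ℕ) : ℝ) * (D * q ^ K) := by
          refine mul_le_mul_of_nonneg_right ?_ (by positivity)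
          exact_mod_cast card_comp_le (n + 1) K J hJ
      _ = D * ((K : ℝ) + 1) ^ (n + 1) * q ^ K := by push_cast; ring
  have hsum : Summable fun l : {l : Fin (n + 1) → Γ × ι // (l 0).1 = 1} =>
      ‖F l * ∑ j ∈ J, R.tr (wd A G (fun i => j i + 1) l)‖ :=
    summable_of_sum_le (fun _ => norm_nonneg _) hfin
  exact (norm_tsum_le_tsum_norm hsum).trans (hsum.tsum_le_of_sum_le hfin)

end

end Vale.Agent.P223.H391
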