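import Vale.Agent.P223.H566.NV
import Vale.Agent.P223.X.RicU
import Vale.Agent.P223.X.Basic2

/-! The length of the gradient on a manifold; the volume is locally finite. -/

namespace Vale.Agent.P223.H391

open scoped ContDiff Topology ENNReal
open MeasureTheory Vale.Agent.P223.H Vale.Agent.P223.X Vale.Agent.P223.H566

section
variable {n : ℕ} {X : Type} [TopologicalSpace X] {c : X → J.Ch n X} {g : X → J.Mtx n}

theorem cm_cd {a b q : X} (ha : q ∈ (c a).source) (hb : q ∈ (c b).source) :
    c a q ∈ RicU.cd c a b := ⟨(c a).map_source ha, by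
  simp only [Set.mem_preimage]; rwa [(c a).left_inv ha]⟩

theorem det_jac (hc : J.Atl c) {a b q : X} (ha : q ∈ (c a).source) (hb : q ∈ (c b).source) :
    (jac (J.cm (c a) (c b)) (c a q)).det ≠ 0 := by
  have h1 := ((hc a).2 b q ha hb).2
  have h2 : jac (J.cm (c a) (c b)) (c a q) =
      LinearMap.toMatrix' (fderiv ℝ (J.cm (c a) (c b)) (c a q) : (E n) →ₗ[ℝ] (E n)) := by
    ext i j
    rw [RicU.jac_apply (((hc a).2 b q ha hb).1.differentiableAt (by simp)), LinearMap.toMatrix'_apply]
    congr 1
  rw [h2, LinearMap.det_toMatrix']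
  exact h1.ne'

/-- the length of the gradient does not depend on the chart -/
theorem gsq_chart (hc : J.Atl c) (hg : J.Met c g) {u : X → ℝ} (hu : J.Sm c u) {a b q : X}
    (ha : q ∈ (c a).source) (hb : q ∈ (c b).source) :
    J.gsq (g a) (fun x => u ((c a).symm x)) (c a q) =
      J.gsq (g b) (fun x => u ((c b).symm x)) (c b q) := by
  have h1 := RicU.chg hc hg a b
  have h2 := cm_cd ha hb
  have e : J.cm (c a) (c b) (c a q) = c b q := by unfold J.cm; rw [(c a).left_inv ha]
  have hev : (fun x => u ((c a).symm x)) =ᶠ[𝓝 (c a q)]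
      fun x => (fun z => u ((c b).symm z)) (J.cm (c a) (c b) x) := by
    filter_upwards [(RicU.isOpen_cd a b).mem_nhds h2] with x hx
    unfold J.cm
    rw [(c b).left_inv hx.2]
  have h3 := Bas2.gradSq_congr (G := g a) hev
  have h4 := Bas2.gradSq_comp (h1.smooth _ h2) (det_jac hc ha hb) (h1.compat _ h2)
    (f := fun z => u ((c b).symm z)) (by
      rw [e]
      exact ((hu b).contDiffAt ((c b).open_target.mem_nhds ((c b).map_source hb))).differentiableAt
        (by simp))
  rw [e] at h4
  exact h3.trans h4

theorem Sm_cont (hc : J.Atl c) {u : X → ℝ} (hu : J.Sm c u) : Continuous u := by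
  rw [continuous_iff_continuousAt]
  intro q
  have h1 : ContinuousAt (fun x => u ((c q).symm x)) (c q q) :=
    (hu q).continuousOn.continuousAt ((c q).open_target.mem_nhds ((c q).map_source (hc q).1))
  have h2 : ContinuousAt (fun p => u ((c q).symm (c q p))) q :=
    h1.comp (f := c q) ((c q).continuousAt (hc q).1)
  refine h2.congr ?_
  filter_upwards [(c q).open_source.mem_nhds (hc q).1] with p hp
  rw [(c q).left_inv hp]

theorem gsq_nonneg (hc : J.Atl c) (hg : J.Met c g) (u : X → ℝ) (q : X) :
    0 ≤ J.gsq (g q) (fun x => u ((c q).symm x)) (c q q) :=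
  Grad.gradSq_nonneg' (hg q q (hc q).1).2.1 _

/-- `|du|²` in a chart is continuous -/
theorem cont_gsq_chart (hg : J.Met c g) {u : X → ℝ} (hu : J.Sm c u) (a : X) :
    ContinuousOn (fun x => J.gsq (g a) (fun x => u ((c a).symm x)) x) (c a).target := by
  have hU := (c a).open_target
  have hpd : ∀ i, ContinuousOn (fun x => J.pd i (fun x => u ((c a).symm x)) x) (c a).target := by
    intro i
    have h1 : ContinuousOn (fun x => fderiv ℝ (fun x => u ((c a).symm x)) x) (c a).target :=
      ((contDiffOn_infty.1 (hu a)) 1).continuousOn_fderiv_of_isOpen hU le_rfl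
    exact h1.clm_apply continuousOn_const
  have hgc : ContinuousOn (fun x => (g a x)) (c a).target := by
    refine continuousOn_pi.2 fun i => continuousOn_pi.2 fun j => ?_
    intro x hx
    have := ((hg a _ ((c a).map_target hx)).1 i j).continuousAt
    rw [(c a).right_inv hx] at this
    exact this.continuousWithinAt
  have hgi : ∀ i j, ContinuousOn (fun x => (g a x)⁻¹ i j) (c a).target := by
    intro i j
    have h1 : ContinuousOn (fun x => (g a x)⁻¹) (c a).target := by
      intro x hx
      have hp := (hg a _ ((c a).map_target hx)).2.1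
      rw [(c a).right_inv hx] at hp
      have h2 : ContinuousAt (fun A : Matrix (Fin n) (Fin n) ℝ => A⁻¹) (g a x) := by
        have h3 : (fun A : Matrix (Fin n) (Fin n) ℝ => A⁻¹) = fun A => (A.det)⁻¹ • A.adjugate := by
          funext A
          rw [Matrix.inv_def, Ring.inverse_eq_inv']
        rw [h3]
        exact ((continuous_id.matrix_det.continuousAt).inv₀ hp.det_pos.ne').smul
          continuous_id.matrix_adjugate.continuousAt
      exact h2.comp_continuousWithinAt (hgc x hx)
    exact (continuous_apply_apply i j).comp_continuousOn h1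
  unfold J.gsq
  refine continuousOn_finsetSum _ fun i _ => continuousOn_finsetSum _ fun j _ => ?_
  exact ((hgi i j).mul (hpd i)).mul (hpd j)

/-- `|du|²` is continuous -/
theorem cont_gsq (hc : J.Atl c) (hg : J.Met c g) {u : X → ℝ} (hu : J.Sm c u) :
    Continuous fun q => J.gsq (g q) (fun x => u ((c q).symm x)) (c q q) := by
  rw [continuous_iff_continuousAt]
  intro a
  have h1 : ContinuousAt (fun p => J.gsq (g a) (fun x => u ((c a).symm x)) (c a p)) a :=
    ContinuousAt.comp (g := fun x => J.gsq (g a) (fun x => u ((c a).symm x)) x) (f := c a)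
      ((cont_gsq_chart hg hu a).continuousAt
        ((c a).open_target.mem_nhds ((c a).map_source (hc a).1))) ((c a).continuousAt (hc a).1)
  refine h1.congr ?_
  filter_upwards [(c a).open_source.mem_nhds (hc a).1] with p hp
  exact gsq_chart hc hg hu hp (hc p).1

theorem cont_grd (hc : J.Atl c) (hg : J.Met c g) {u : X → ℝ} (hu : J.Sm c u) :
    Continuous (NV.grd c g u) := (cont_gsq hc hg hu).sqrt

omit [TopologicalSpace X] in
theorem gsq_congr' {G : J.Mtx n} {f h : E n → ℝ} {x : E n} (e : f =ᶠ[𝓝 x] h) :
    J.gsq G f x = J.gsq G h x := by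
  unfold J.gsq J.pd
  rw [e.fderiv_eq]

/-- `|du|² = 0` outside the support -/
theorem gsq_out (hc : J.Atl c) {u : X → ℝ} {q : X} (hq : q ∉ tsupport u) :
    J.gsq (g q) (fun x => u ((c q).symm x)) (c q q) = 0 := by
  have hm := (c q).map_source (hc q).1
  have e : (fun x => u ((c q).symm x)) =ᶠ[𝓝 (c q q)] fun _ => (0 : ℝ) := by
    have h1 : ContinuousAt (c q).symm (c q q) := (c q).continuousAt_symm hm
    have h2 : ∀ᶠ z in 𝓝 ((c q).symm (c q q)), z ∉ tsupport u := by
      rw [(c q).left_inv (hc q).1]
      exact (isClosed_tsupport u).isOpen_compl.mem_nhds hq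
    filter_upwards [h1.eventually h2] with x hx
    exact image_eq_zero_of_notMem_tsupport hx
  rw [gsq_congr' e]
  unfold J.gsq J.pd
  simp

/-- the volume is locally finite -/
theorem loc_fin [MeasurableSpace X] [BorelSpace X] (hc : J.Atl c) (hg : J.Met c g)
    {μ : Measure X} (hμ : J.Vol c g μ) : IsLocallyFiniteMeasure μ := by
  refine ⟨fun q => ?_⟩
  obtain ⟨ε, hε, hb⟩ := Metric.isOpen_iff.1 (c q).open_target _ ((c q).map_source (hc q).1)
  set B := Metric.closedBall (c q q) (ε / 2) with hB
  have hBt : B ⊆ (c q).target := (Metric.closedBall_subset_ball (by linarith)).trans hb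
  have hBc : IsCompact B := isCompact_closedBall _ _
  have hgc : ContinuousOn (fun x => √(g q x).det) B := by
    have hgc : ContinuousOn (fun x => (g q x)) (c q).target := by
      refine continuousOn_pi.2 fun i => continuousOn_pi.2 fun j => ?_
      intro x hx
      have := ((hg q _ ((c q).map_target hx)).1 i j).continuousAt
      rw [(c q).right_inv hx] at this
      exact this.continuousWithinAt
    exact ((continuous_id.matrix_det.comp_continuousOn hgc).sqrt).mono hBt
  obtain ⟨A, hA⟩ := hBc.bddAbove_image hgc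
  refine ⟨(c q).symm '' B, ?_, ?_⟩
  · have h1 := (c q).symm.image_mem_nhds (x := c q q) (by
      simpa using (c q).map_source (hc q).1) (Metric.closedBall_mem_nhds (c q q)
        (show 0 < ε / 2 by linarith))
    rwa [(c q).left_inv (hc q).1] at h1
  · rw [hμ q B hBt hBc.measurableSet]
    calc ∫⁻ x in B, ENNReal.ofReal √(g q x).det ≤ ∫⁻ _ in B, ENNReal.ofReal A :=
          setLIntegral_mono' hBc.measurableSet fun x hx =>
            ENNReal.ofReal_le_ofReal (hA ⟨x, hx, rfl⟩)
      _ < ⊤ := by
          rw [setLIntegral_const]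
          exact ENNReal.mul_lt_top ENNReal.ofReal_lt_top hBc.measure_lt_top

end

end Vale.Agent.P223.H391
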