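import Vale.Agent.P223.H391.Nest

/-! Growth of Taylor coefficients, abstract part: traces of words. -/

namespace Vale.Agent.P223.H391

open scoped InnerProductSpace

section
variable {H : Type} [NormedAddCommGroup H] [InnerProductSpace ℂ H] {Γ ι : Type} [Group Γ]

/-- words with powers of one operator -/
def wd {B : Type} [Monoid B] {Λ : Type} {N : ℕ} (A : Fin N → Λ → B) (G : B) (j : Fin N → ℕ)
    (l : Fin N → Λ) : B := word A (fun i => G ^ j i) l

/-- translation of labels -/
def tl {N : ℕ} (γ : Γ) (l : Fin N → Γ × ι) : Fin N → Γ × ι := fun i => (γ * (l i).1, (l i).2)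

theorem word_left {B : Type} [Monoid B] {Λ : Type} {n : ℕ} (A : Fin (n + 1) → Λ → B)
    (X : Fin (n + 1) → B) (l : Fin (n + 1) → Λ) (c : B) (h : c * A 0 (l 0) = A 0 (l 0)) :
    c * word A X l = word A X l := by
  rw [word_succ, ← mul_assoc, ← mul_assoc, h]

theorem word_last {B : Type} [Monoid B] {Λ : Type} {n : ℕ} (A : Fin (n + 1) → Λ → B)
    (X X' : Fin (n + 1) → B) (l : Fin (n + 1) → Λ) (c : B)
    (h : ∀ i, i ≠ Fin.last n → X i = X' i) (h' : X (Fin.last n) = X' (Fin.last n) * c) :
    word A X l = word A X' l * c := by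
  unfold word
  rw [List.ofFn_succ', List.ofFn_succ']
  simp only [List.concat_eq_append, List.prod_append, List.prod_singleton]
  rw [h', mul_assoc, mul_assoc]
  have : (fun i : Fin n => A i.castSucc (l i.castSucc) * X i.castSucc) =
      fun i : Fin n => A i.castSucc (l i.castSucc) * X' i.castSucc := by
    funext i
    rw [h i.castSucc (Fin.castSucc_lt_last i).ne]
  rw [this]

/-- the growth bound for the words with given exponents -/
theorem growth_word [Fintype ι] (S : Sup H) (R : TrI (H →L[ℂ] H)) {n : ℕ}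
    (A : Fin (n + 1) → Γ × ι → H →L[ℂ] H) (G : H →L[ℂ] H) (χ : ι → H →L[ℂ] H) (m : ℕ)
    (L q C : ℝ) (hL : 0 ≤ L) (hq : 0 ≤ q) (hA : ∀ i, S.Row (A i) L) (hG : S.Op G q)
    (hχ : ∀ p i, χ i * A p (1, i) = A p (1, i))
    (hnuc : ∀ p l k, m ≤ k → R.nuc (A p l * G ^ k))
    (hNB : ∀ i, S.NB R.tr (G ^ m * χ i) C)
    (j : Fin (n + 1) → ℕ)
    (hinv : ∀ (γ : Γ) l, ‖R.tr (wd A G j (tl γ l))‖ = ‖R.tr (wd A G j l)‖)
    (p : Fin (n + 1)) (hp : m ≤ j p) (E : ℕ) (hE : E + m = ∑ i, j i)
    (T : Finset (Fin (n + 1) → Γ × ι)) (hT : ∀ l ∈ T, (l 0).1 = 1) :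
    ∑ l ∈ T, ‖R.tr (wd A G j l)‖ ≤ Fintype.card ι * (C * (L ^ (n + 1) * q ^ E)) := by
  classical
  -- change of the base point
  let mv : (Fin (n + 1) → Γ × ι) → Fin (n + 1) → Γ × ι := fun l => tl ((l (p + 1)).1)⁻¹ l
  have hinj : Set.InjOn mv T := by
    intro l hl l' hl' h
    have h0 := congrArg Prod.fst (congrFun h 0)
    simp only [mv, tl, hT l hl, hT l' hl', mul_one, inv_inj] at h0
    funext i
    have hi := congrFun h i
    simp only [mv, tl, h0, Prod.mk.injEq, mul_right_inj] at hi
    exact Prod.ext hi.1 hi.2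
  have h1 : ∑ l ∈ T, ‖R.tr (wd A G j l)‖ = ∑ l ∈ T.image mv, ‖R.tr (wd A G j l)‖ := by
    rw [Finset.sum_image hinj]
    exact Finset.sum_congr rfl fun l _ => (hinv _ _).symm
  have hT1 : ∀ l ∈ T.image mv, (l (p + 1)).1 = 1 := by
    intro l hl
    obtain ⟨l', _, rfl⟩ := Finset.mem_image.1 hl
    simp [mv, tl]
  rw [h1, ← Finset.sum_fiberwise (T.image mv) (fun l => (l (p + 1)).2)]
  rw [← Finset.card_univ (α := ι), ← nsmul_eq_mul]
  refine Finset.sum_le_card_nsmul _ _ _ fun i _ => ?_
  set T' := (T.image mv).filter fun l => (l (p + 1)).2 = i with hT'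
  have hT2 : ∀ l ∈ T', l (p + 1) = (1, i) := by
    intro l hl
    have := Finset.mem_filter.1 hl
    exact Prod.ext (hT1 l this.1) this.2
  -- the rotated word
  let e : Fin (n + 1) → ℕ := fun k => if k = p then j k - m else j k
  let A' : Fin (n + 1) → Γ × ι → H →L[ℂ] H := fun k => A (k + (p + 1))
  let σ : (Fin (n + 1) → Γ × ι) → Fin (n + 1) → Γ × ι := fun l k => l (k + (p + 1))
  have hlast : (Fin.last n + (p + 1) : Fin (n + 1)) = p := by
    rw [add_comm p 1, ← add_assoc, Fin.last_add_one, zero_add]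
  have h2 : ∀ l ∈ T', R.tr (wd A G j l) =
      R.tr (word A' (fun k => G ^ e (k + (p + 1))) (σ l) * (G ^ m * χ i)) := by
    intro l hl
    have hr := R.rot (fun k => A k (l k) * G ^ j k) p (hnuc _ _ _ hp)
    have e1 : wd A G j l = (List.ofFn fun k => A k (l k) * G ^ j k).prod := rfl
    have e2 : (List.ofFn fun k : Fin (n + 1) => A (k + (p + 1)) (l (k + (p + 1))) *
        G ^ j (k + (p + 1))).prod = word A' (fun k => G ^ e (k + (p + 1))) (σ l) * G ^ m := by
      change word A' (fun k => G ^ j (k + (p + 1))) (σ l) = _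
      refine word_last _ _ _ _ _ (fun k hk => ?_) ?_
      · have hk' : k + (p + 1) ≠ p := by
          intro h
          exact hk (add_right_cancel (h.trans hlast.symm))
        simp only [e, if_neg hk']
      · simp only [hlast, e, if_true]
        rw [← pow_add, Nat.sub_add_cancel hp]
    rw [e2] at hr
    rw [e1, hr.2]
    have e3 : χ i * (word A' (fun k => G ^ e (k + (p + 1))) (σ l)) =
        word A' (fun k => G ^ e (k + (p + 1))) (σ l) := by
      refine word_left _ _ _ _ ?_
      have : σ l 0 = (1, i) := by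
        simp only [σ, zero_add]
        exact hT2 l hl
      rw [this]
      exact hχ _ _
    rw [← mul_assoc, ← R.comm (χ i) _ hr.1, ← mul_assoc, e3]
  rw [Finset.sum_congr rfl fun l hl => by rw [h2 l hl]]
  have hR : 0 ≤ L ^ (n + 1) * q ^ E := by positivity
  refine hNB i (Fin (n + 1) → Γ × ι) T' (fun l => word A' (fun k => G ^ e (k + (p + 1))) (σ l)) _
    hR fun c d u v hc hd hu hv => ?_
  have hσ : Function.Injective σ := by
    intro l l' h
    funext k
    have := congrFun h (k - (p + 1))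
    simpa only [σ, sub_add_cancel] using this
  have h3 := S.nest_sum (A := A') (X := fun k => G ^ e (k + (p + 1))) (L := L)
    (q := fun k => q ^ e (k + (p + 1))) hL (fun k => pow_nonneg hq _) (fun k => hA _)
    (fun k => hG.pow hq _) (T'.image σ) hc hu hv
  rw [Finset.sum_image hσ.injOn] at h3
  refine h3.trans (le_of_eq ?_)
  congr 2
  rw [Finset.prod_pow_eq_pow_sum]
  congr 1
  rw [Fintype.sum_equiv (Equiv.addRight (p + 1)) (fun k => e (k + (p + 1))) e fun k => rfl]
  have h4 : ∑ k, j k = (∑ k, e k) + m := by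
    have : ∀ k, j k = e k + if k = p then m else 0 := by
      intro k
      by_cases hk : k = p
      · simp only [e, hk, if_true]; omega
      · simp only [e, hk, if_false, add_zero]
    rw [Finset.sum_congr rfl fun k _ => this k, Finset.sum_add_distrib]
    simp
  omega

end

end Vale.Agent.P223.H391
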