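import Vale.Agent.P223.MathlibUsed
import Mathlib.Analysis.InnerProductSpace.Adjoint

/-! Growth of Taylor coefficients, abstract part: nested sup bounds. -/

namespace Vale.Agent.P223.H391

open scoped InnerProductSpace

/-- Sup bounds: `SB c u` means `|u| ≤ c`. -/
structure Sup (H : Type) [NormedAddCommGroup H] [InnerProductSpace ℂ H] where
  SB : ℝ → H → Prop
  zero : ∀ c, 0 ≤ c → SB c 0
  smul : ∀ c u (z : ℂ), 0 ≤ c → ‖z‖ ≤ 1 → SB c u → SB c (z • u)
  mono : ∀ c c' u, c ≤ c' → SB c u → SB c' u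

section
variable {H : Type} [NormedAddCommGroup H] [InnerProductSpace ℂ H] {Λ : Type}

/-- `L¹` bounds, by duality -/
def Sup.PB (S : Sup H) (d : ℝ) (v : H) : Prop :=
  ∀ c u, 0 ≤ c → S.SB c u → ‖⟪v, u⟫_ℂ‖ ≤ c * d

/-- families of operators with `∑ |A_l| ≤ L` pointwise -/
def Sup.Row (S : Sup H) (A : Λ → H →L[ℂ] H) (L : ℝ) : Prop :=
  ∀ (T : Finset Λ) (c : ℝ) (u : Λ → H), 0 ≤ c → (∀ l ∈ T, S.SB c (u l)) →
    S.SB (L * c) (∑ l ∈ T, A l (u l))

/-- operators of norm at most `q` for the sup norm -/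
def Sup.Op (S : Sup H) (X : H →L[ℂ] H) (q : ℝ) : Prop :=
  ∀ c u, 0 ≤ c → S.SB c u → S.SB (q * c) (X u)

theorem Sup.Op.one (S : Sup H) : S.Op 1 1 := fun c u _ h => by simpa using h

theorem Sup.Op.mul {S : Sup H} {X Y : H →L[ℂ] H} {q r : ℝ} (hX : S.Op X q) (hY : S.Op Y r)
    (hr : 0 ≤ r) : S.Op (X * Y) (q * r) := by
  intro c u hc hu
  rw [mul_assoc]
  exact hX _ _ (mul_nonneg hr hc) (hY c u hc hu)

theorem Sup.Op.pow {S : Sup H} {X : H →L[ℂ] H} {q : ℝ} (hX : S.Op X q) (hq : 0 ≤ q) (k : ℕ) :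
    S.Op (X ^ k) (q ^ k) := by
  induction k with
  | zero => simpa using Sup.Op.one S
  | succ k ih =>
    rw [pow_succ, pow_succ]
    exact ih.mul hX hq

theorem Sup.Row.mono {S : Sup H} {A : Λ → H →L[ℂ] H} {L L' : ℝ} (hA : S.Row A L)
    (h : L ≤ L') : S.Row A L' := fun T c u hc hu =>
  S.mono _ _ _ (mul_le_mul_of_nonneg_right h hc) (hA T c u hc hu)

/-- left multiplication of a row by an operator -/
theorem Sup.Row.mul {S : Sup H} {A : Λ → H →L[ℂ] H} {X : H →L[ℂ] H} {L q : ℝ}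
    (hA : S.Row A L) (hX : S.Op X q) (hL : 0 ≤ L) : S.Row (fun l => X * A l) (q * L) := by
  intro T c u hc hu
  have h := hX _ _ (mul_nonneg hL hc) (hA T c u hc hu)
  rw [mul_assoc]
  rw [map_sum] at h
  exact h

/-- words -/
def word {B : Type} [Monoid B] {N : ℕ} (A : Fin N → Λ → B) (X : Fin N → B) (l : Fin N → Λ) : B :=
  (List.ofFn fun i => A i (l i) * X i).prod

theorem word_succ {B : Type} [Monoid B] {N : ℕ} (A : Fin (N + 1) → Λ → B) (X : Fin (N + 1) → B)
    (l : Fin (N + 1) → Λ) : word A X l =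
      A 0 (l 0) * X 0 * word (fun i => A i.succ) (fun i => X i.succ) (fun i => l i.succ) := by
  simp [word]

theorem Sup.nest (S : Sup H) : ∀ (N : ℕ) (A : Fin N → Λ → H →L[ℂ] H) (X : Fin N → H →L[ℂ] H)
    (L : ℝ) (q : Fin N → ℝ), 0 ≤ L → (∀ i, 0 ≤ q i) → (∀ i, S.Row (A i) L) →
    (∀ i, S.Op (X i) (q i)) → ∀ (T : Finset (Fin N → Λ)) (z : (Fin N → Λ) → ℂ),
    (∀ l, ‖z l‖ ≤ 1) → ∀ (c : ℝ) (u : H), 0 ≤ c → S.SB c u →
    S.SB (L ^ N * (∏ i, q i) * c) (∑ l ∈ T, z l • word A X l u) := by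
  classical
  intro N
  induction N with
  | zero =>
    intro A X L q hL hq hA hX T z hz c u hc hu
    have hw : ∀ l, word A X l = 1 := fun l => by simp [word]
    simp only [hw, pow_zero, Finset.univ_eq_empty, Finset.prod_empty, one_mul, one_apply_eq_self]
    rcases T.eq_empty_or_nonempty with rfl | ⟨l, hl⟩
    · simpa using S.zero c hc
    · have : T = {l} := by
        ext l'
        simp only [Finset.mem_singleton]
        exact ⟨fun _ => Subsingleton.elim _ _, fun h => h ▸ hl⟩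
      rw [this, Finset.sum_singleton]
      exact S.smul c u _ hc (hz l) hu
  | succ N ih =>
    intro A X L q hL hq hA hX T z hz c u hc hu
    -- the sections of `T`
    let T' : Λ → Finset (Fin N → Λ) := fun a =>
      (T.filter fun l => l 0 = a).image fun l i => l i.succ
    have h1 : ∑ l ∈ T, z l • word A X l u = ∑ a ∈ T.image (fun l => l 0),
        A 0 a (X 0 (∑ l ∈ T' a, z (Fin.cons a l) •
          word (fun i => A i.succ) (fun i => X i.succ) l u)) := by
      rw [← Finset.sum_fiberwise_of_maps_to (s := T) (t := T.image (fun l => l 0))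
        (g := fun l => l 0) (fun l hl => Finset.mem_image_of_mem _ hl)]
      refine Finset.sum_congr rfl fun a _ => ?_
      have hinj : Set.InjOn (fun (l : Fin (N + 1) → Λ) (i : Fin N) => l i.succ)
          (T.filter fun l => l 0 = a) := by
        intro l hl l' hl' h
        simp only [Finset.coe_filter, Set.mem_ofPred_eq] at hl hl'
        funext i
        refine Fin.cases ?_ (fun i => ?_) i
        · rw [hl.2, hl'.2]
        · exact congrFun h i
      rw [Finset.sum_image hinj, map_sum, map_sum]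
      refine Finset.sum_congr rfl fun l hl => ?_
      have hl0 : l 0 = a := (Finset.mem_filter.1 hl).2
      have hc : (Fin.cons a (fun i => l i.succ) : Fin (N + 1) → Λ) = l := by
        rw [← hl0]
        exact Fin.cons_self_tail l
      rw [hc, word_succ, hl0, map_smul, map_smul]
      rfl
    rw [h1, pow_succ, Fin.prod_univ_succ]
    have h2 : L ^ N * L * (q 0 * ∏ i : Fin N, q i.succ) * c =
        L * (q 0 * (L ^ N * (∏ i : Fin N, q i.succ) * c)) := by ring
    rw [h2]
    have hP : 0 ≤ ∏ i : Fin N, q i.succ := Finset.prod_nonneg fun i _ => hq _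
    refine hA 0 _ _ _ (by have := hq 0; positivity) fun a _ => ?_
    refine hX 0 _ _ (by positivity) ?_
    exact ih (fun i => A i.succ) (fun i => X i.succ) L (fun i => q i.succ) hL (fun i => hq _)
      (fun i => hA _) (fun i => hX _) (T' a) (fun l => z (Fin.cons a l)) (fun l => hz _) c u hc hu

/-- phases -/
theorem exists_phase (w : ℂ) : ∃ z : ℂ, ‖z‖ ≤ 1 ∧ z * w = (‖w‖ : ℂ) := by
  by_cases h : w = 0
  · exact ⟨0, by simp, by simp [h]⟩
  · have hw : ‖w‖ ≠ 0 := norm_ne_zero_iff.2 h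
    refine ⟨(‖w‖ : ℂ) / w, ?_, div_mul_cancel₀ _ h⟩
    rw [norm_div, Complex.norm_real, norm_norm, div_self hw]

theorem Sup.nest_sum (S : Sup H) {N : ℕ} {A : Fin N → Λ → H →L[ℂ] H} {X : Fin N → H →L[ℂ] H}
    {L : ℝ} {q : Fin N → ℝ} (hL : 0 ≤ L) (hq : ∀ i, 0 ≤ q i) (hA : ∀ i, S.Row (A i) L)
    (hX : ∀ i, S.Op (X i) (q i)) (T : Finset (Fin N → Λ)) {c d : ℝ} {u v : H} (hc : 0 ≤ c)
    (hu : S.SB c u) (hv : S.PB d v) :
    ∑ l ∈ T, ‖⟪v, word A X l u⟫_ℂ‖ ≤ L ^ N * (∏ i, q i) * (c * d) := by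
  choose z hz1 hz2 using fun l : Fin N → Λ => exists_phase ⟪v, word A X l u⟫_ℂ
  have h1 := hv _ _ (mul_nonneg (mul_nonneg (pow_nonneg hL N) (Finset.prod_nonneg fun i _ => hq i))
    hc) (S.nest N A X L q hL hq hA hX T z hz1 c u hc hu)
  have h2 : ⟪v, ∑ l ∈ T, z l • word A X l u⟫_ℂ =
      ((∑ l ∈ T, ‖⟪v, word A X l u⟫_ℂ‖ : ℝ) : ℂ) := by
    rw [inner_sum, Complex.ofReal_sum]
    refine Finset.sum_congr rfl fun l _ => ?_
    rw [inner_smul_right, hz2]
  rw [h2, Complex.norm_real, Real.norm_of_nonneg (Finset.sum_nonneg fun _ _ => norm_nonneg _)] at h1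
  linarith

/-- nuclear operators between the `L¹` norm and the sup norm -/
def Sup.NB (S : Sup H) (tr : (H →L[ℂ] H) → ℂ) (D : H →L[ℂ] H) (C : ℝ) : Prop :=
  ∀ (κ : Type) (T : Finset κ) (F : κ → H →L[ℂ] H) (R : ℝ), 0 ≤ R →
    (∀ c d u v, 0 ≤ c → 0 ≤ d → S.SB c u → S.PB d v →
      ∑ k ∈ T, ‖⟪v, F k u⟫_ℂ‖ ≤ R * (c * d)) → ∑ k ∈ T, ‖tr (F k * D)‖ ≤ C * R

theorem rotate_ofFn {B : Type} {n : ℕ} (f : Fin (n + 1) → B) (k : Fin (n + 1)) :
    (List.ofFn f).rotate k = List.ofFn fun i => f (i + k) := by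
  refine List.ext_getElem (by simp) fun i h1 h2 => ?_
  rw [List.getElem_rotate]
  simp only [List.getElem_ofFn, List.length_ofFn]
  congr 1

/-- the ideal of nuclear operators with its trace -/
structure TrI (B : Type) [Monoid B] where
  nuc : B → Prop
  tr : B → ℂ
  left : ∀ S T, nuc T → nuc (S * T)
  right : ∀ S T, nuc T → nuc (T * S)
  comm : ∀ S T, nuc T → tr (S * T) = tr (T * S)

theorem TrI.prod_mem {B : Type} [Monoid B] (R : TrI B) {L : List B} {x : B} (h : x ∈ L)
    (hx : R.nuc x) : R.nuc L.prod := by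
  induction L with
  | nil => simp at h
  | cons y L ih =>
    rw [List.prod_cons]
    rcases List.mem_cons.1 h with rfl | h
    · exact R.right _ _ hx
    · exact R.left _ _ (ih h)

/-- conjugation of a word -/
theorem prod_conj {B : Type} [Monoid B] {t t' : B} (h : t * t' = 1) (h' : t' * t = 1) :
    ∀ {N : ℕ} (f : Fin N → B), (List.ofFn fun i => t * f i * t').prod = t * (List.ofFn f).prod * t' := by
  intro N
  induction N with
  | zero => intro f; simp [h]
  | succ N ih =>
    intro f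
    rw [List.ofFn_succ, List.ofFn_succ, List.prod_cons, List.prod_cons, ih]
    calc t * f 0 * t' * (t * (List.ofFn fun i => f i.succ).prod * t')
        = t * f 0 * (t' * t) * (List.ofFn fun i => f i.succ).prod * t' := by
          simp only [mul_assoc]
      _ = _ := by rw [h', mul_one]; simp only [mul_assoc]

/-- rotation of a word -/
theorem TrI.rot {B : Type} [Monoid B] (R : TrI B) {n : ℕ} (f : Fin (n + 1) → B)
    (p : Fin (n + 1)) (hp : R.nuc (f p)) :
    R.nuc (List.ofFn fun i => f (i + (p + 1))).prod ∧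
    R.tr (List.ofFn f).prod = R.tr (List.ofFn fun i => f (i + (p + 1))).prod := by
  rw [← rotate_ofFn]
  have hlen : (List.ofFn f).length = n + 1 := List.length_ofFn
  by_cases hpn : (p : ℕ) + 1 = n + 1
  · have hp' : p = Fin.last n := Fin.ext (by simpa using hpn)
    have h0 : p + 1 = 0 := by rw [hp']; exact Fin.last_add_one n
    rw [h0]
    have h1 : (List.ofFn f).rotate ((0 : Fin (n + 1)) : ℕ) = List.ofFn f := by simp
    rw [h1]
    refine ⟨?_, rfl⟩
    rw [List.ofFn_succ']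
    subst hp'
    simp only [List.concat_eq_append, List.prod_append, List.prod_singleton]
    exact R.left _ _ hp
  · have hlt : (p : ℕ) + 1 < n + 1 := by omega
    have hv : ((p + 1 : Fin (n + 1)) : ℕ) = (p : ℕ) + 1 := by
      rw [Fin.val_add_one_of_lt]
      exact Fin.lt_def.2 (by simp only [Fin.val_last]; omega)
    rw [hv]
    have h2 := List.rotate_eq_drop_append_take (l := List.ofFn f) (n := (p : ℕ) + 1)
      (by rw [hlen]; omega)
    rw [h2, List.prod_append]
    have h3 : R.nuc ((List.ofFn f).take ((p : ℕ) + 1)).prod := by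
      rw [List.take_add_one, List.prod_append]
      refine R.left _ _ ?_
      rw [List.getElem?_eq_getElem (by rw [hlen]; exact p.2)]
      simp only [Option.toList_some, List.prod_singleton, List.getElem_ofFn]
      exact hp
    refine ⟨R.left _ _ h3, ?_⟩
    rw [R.comm _ _ h3, ← List.prod_append, List.take_append_drop]

end

end Vale.Agent.P223.H391
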