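import Vale.Agent.P223.H391.Rows
import Vale.Agent.P223.X.NormX

/-! Sup bounds for the operators of a partition of unity, the volume element and the resolvent. -/

namespace Vale.Agent.P223.H391

open scoped ContDiff InnerProductSpace Topology
open MeasureTheory Vale.Agent.P223.H Vale.Agent.P223.X Vale.Agent.P223.H566

section
variable {n : ℕ} {M X Γ I : Type} [TopologicalSpace M] [TopologicalSpace X] [Group Γ]
    [MulAction Γ X] {V : Type} [NormedAddCommGroup V] [InnerProductSpace ℂ V]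
    {C : Cov n M X Γ I} {G : I → E n → Matrix (Fin n) (Fin n) ℝ} {K : Cliff n V}
    [MeasurableSpace X] {S : SpX C G K} {μ : Measure X} {H : Type} [NormedAddCommGroup H]
    [InnerProductSpace ℂ H] [T2Space X]

omit [MeasurableSpace X] [T2Space X] in
theorem ck_fn {ι : Type} [Fintype ι] {P : PUX C ι} (h : ∀ i, C.Ck ∞ (P.φ i)) (l : Γ × ι) :
    C.Ck ∞ (P.fn l) := Ck_smul C (h l.2) l.1⁻¹

omit [MeasurableSpace X] in
theorem fn_bdd [Finite I] {ι : Type} [Fintype ι] (P : PUX C ι) (h : ∀ i, C.Ck ∞ (P.φ i)) :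
    ∃ L : ℝ, 0 ≤ L ∧ ∀ (T : Finset (Γ × ι)) x, ∑ l ∈ T, |P.fn l x| ≤ L :=
  sum_bdd C P.φ (fun i => Ck_continuous C fun γ j => (h i γ j).of_le (by simp)) P.supp

omit [MeasurableSpace X] in
theorem dfn_bdd [Finite I] (hG : MetX C G) {ι : Type} [Fintype ι] (P : PUX C ι)
    (h : ∀ i, C.Ck ∞ (P.φ i)) :
    ∃ L : ℝ, 0 ≤ L ∧ ∀ (T : Finset (Γ × ι)) x, ∑ l ∈ T, √(gsX C G (P.fn l) x) ≤ L := by
  obtain ⟨L, hL, h1⟩ := sum_bdd C (fun i x => √(gsX C G (P.φ i) x)) (fun i => by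
      refine Continuous.sqrt (Ck_continuous C ?_)
      have := Ck_gsX hG (f := P.φ i) fun γ j => (h i γ j).of_le (WithTop.coe_le_coe.2 le_top)
      exact fun γ j => (this γ j).of_le (by simp))
    (fun i => by
      refine HasCompactSupport.intro (P.supp i) fun x hx => ?_
      rw [NormX.gsX_supp hG hx, Real.sqrt_zero])
  refine ⟨L, hL, fun T x => le_trans (le_of_eq (Finset.sum_congr rfl fun l _ => ?_)) (h1 T x)⟩
  rw [abs_of_nonneg (Real.sqrt_nonneg _), ← gsX_smul hG]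
  rfl

variable [FiniteDimensional ℂ V] [Fintype I] [ConnectedSpace X] [T2Space M] [BorelSpace X]

theorem row_a (hI : SpecIntS) (hn : 1 ≤ n) (hV : VolX C G μ) (E : Emb S μ H) {w : X → ℝ}
    (hwc : Continuous w) (hw : ∀ x, 0 < w x) {ι : Type} [Fintype ι] {P : PUX C ι}
    {a h : Γ × ι → H →L[ℂ] H} {W : H →L[ℂ] H} (hO : OpA E P a h W) :
    ∃ L : ℝ, 0 ≤ L ∧ (supW E w hw).Row a L := by
  obtain ⟨L, hL0, hL⟩ := fn_bdd P hO.sm
  refine ⟨L, hL0, ?_⟩
  refine row_core hI hn hV E hwc hw (A' := fun l => S.mC (P.fn l) (ck_fn hO.sm l))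
    (fun l φ => hO.a_e l _ φ) 1 (by simp) (fun l φ ψ => ?_) (b := fun l x => |P.fn l x|)
    (fun l φ x => le_of_eq (nm_mul _ _ _)) hL
  rw [one_mul]
  exact integral_congr_ae (Filter.Eventually.of_forall fun x => hp_mul _ _ _ x)

theorem row_h (hI : SpecIntS) (hL' : SpecLocal) (hn : 1 ≤ n) (hV : VolX C G μ) (E : Emb S μ H)
    {w : X → ℝ} (hwc : Continuous w) (hw : ∀ x, 0 < w x) {ι : Type} [Fintype ι] {P : PUX C ι}
    {a h : Γ × ι → H →L[ℂ] H} {W : H →L[ℂ] H} (hO : OpA E P a h W) :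
    ∃ L : ℝ, 0 ≤ L ∧ (supW E w hw).Row h L := by
  obtain ⟨L, hL0, hL⟩ := dfn_bdd S.met P hO.sm
  refine ⟨L, hL0, ?_⟩
  refine row_core hI hn hV E hwc hw (A' := fun l => S.cC (P.fn l) (ck_fn hO.sm l))
    (fun l φ => hO.h_e l _ φ) 1 (by simp) (fun l φ ψ => ?_)
    (b := fun l x => √(gsX C G (P.fn l) x)) (fun l φ x => le_of_eq (nm_cl hL' _ _ _)) hL
  rw [one_mul]
  exact integral_congr_ae (Filter.Eventually.of_forall fun x => hp_cl hL' _ _ _ x)

omit [Fintype I] [ConnectedSpace X] [T2Space M] [BorelSpace X] in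
theorem op_W (hL' : SpecLocal) (E : Emb S μ H) {w : X → ℝ}
    (hw : ∀ x, 0 < w x) {ι : Type} [Fintype ι] {P : PUX C ι}
    {a h : Γ × ι → H →L[ℂ] H} {W : H →L[ℂ] H} (hO : OpA E P a h W) :
    (supW E w hw).Op W 1 := by
  intro c u hc hu φ
  obtain ⟨s, hs, hs'⟩ := hp_vol hL' S
  have h1 := sym_core E (A := W) (A' := S.vC) (fun φ => hO.W_e φ) (s := (s : ℂ))
    (fun φ ψ => by
      unfold ipr
      rw [← integral_const_mul]
      exact integral_congr_ae (Filter.Eventually.of_forall fun x => hs' _ _ x)) u φ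
  have h2 : ‖((s : ℤ) : ℂ)‖ = 1 := by rcases hs with rfl | rfl <;> simp
  rw [h1, norm_mul, h2, one_mul, one_mul]
  refine (hu (S.vC φ)).trans (le_of_eq ?_)
  congr 1
  exact integral_congr_ae (Filter.Eventually.of_forall fun x => by
    change w x * nm C (volR K (φ : Raw Γ I n V)) x = _
    rw [nm_vol hL' S])

/-- the resolvent -/
theorem op_g [CompleteSpace H] (hS : SpecSup) (c : Ctx n M X Γ I V H) (hn : 1 ≤ n) {s : ℝ} {w : X → ℝ}
    (hw : Gst c.C c.G s w) {m : ℝ} (hm : 0 < m) (hms : 0 < m ^ 2 + s) {g p : H →L[ℂ] H}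
    (hR : Rsv c.E m g p) : (supW c.E w hw.pos).Op g (m ^ 2 + s)⁻¹ := by
  intro b u hb hu
  refine hS n M X Γ I V H c s w m g p hn hm hw hms hR _ u (by positivity) ?_
  rw [mul_inv_cancel_left₀ hms.ne']
  exact hu

end

end Vale.Agent.P223.H391
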