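import Vale.Agent.P223.H391.End
import Vale.Agent.P223.H566.Spec
import Vale.Agent.P223.X.Vol

/-! The pairing of the fundamental class with bounded cocycles vanishes. -/

namespace Vale.Agent.P223.H391

open scoped ContDiff InnerProductSpace Topology
open MeasureTheory Filter Vale.Agent.P223.H Vale.Agent.P223.X Vale.Agent.P223.H566

/-- BLOCK K5, the threshold depends only on `n` -/
def SpecRecU : Prop := ∀ n : ℕ, ∃ k₀ : ℕ, ∀ (Γ ι H : Type) [Group Γ] [Countable Γ] [Fintype ι]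
  [NormedAddCommGroup H]
  [InnerProductSpace ℂ H] [CompleteSpace H] (a h k : Γ × ι → H →L[ℂ] H) (W g p : H →L[ℂ] H)
  (m : ℝ) (w : Γ → ℝ) (A : ℕ → ℝ) (F : (Fin (n + 1) → Γ) → ℝ), 1 ≤ n → 0 < m →
  (∀ γ, 0 ≤ w γ) → Summable w → Alg n m a h W g p → Dec n m a h g p k w A → Coc F →
  ∀ k, k₀ ≤ k →
    Summable (fun l : {l : Fin (n + 1) → Γ × ι // (l 0).1 = 1} =>
      (F (fun i => (l.1 i).1) : ℂ) *
        ∑ j ∈ Finset.Nat.antidiagonalTuple (n + 1) k, trH (W * wrd a h g j l.1)) ∧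
    ((k : ℂ) + 1) * (m : ℂ) ^ 2 * rK a h W g F (k + 1) = ((n : ℂ) / 2 + 1 + k) * rK a h W g F k

/-- growth from some point on is enough -/
theorem zero_of_growth' {r : ℕ → ℂ} {lam s : ℝ} (hl : 0 < lam) (hs : 0 < s) (n K₀ K₁ N : ℕ)
    (hrec : ∀ K, K₀ ≤ K → ((n : ℂ) + 2 + 2 * K) * r K = 2 * lam * (K + 1) * r (K + 1)) (C : ℝ)
    (hgr : ∀ K, K₁ ≤ K → ‖r K‖ ≤ C * ((K : ℝ) + 1) ^ N * ((lam + s)⁻¹) ^ K) :
    ∀ K, K₀ ≤ K → r K = 0 := by
  have h1 : ∀ K, K₀ ≤ K → K₁ ≤ K → r K = 0 := fun K h0 h1 =>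
    zero_of_growth hl hs n K N (fun K' h => hrec K' (h0.trans h)) C fun K' h => hgr K' (h1.trans h)
  have h2 : ∀ j K, K₀ ≤ K → K₁ ≤ K + j → r K = 0 := by
    intro j
    induction j with
    | zero => exact fun K h0 hK => h1 K h0 hK
    | succ j ih =>
      intro K h0 hK
      have h3 := ih (K + 1) (by omega) (by omega)
      have h4 := hrec K h0
      rw [h3, mul_zero] at h4
      refine (mul_eq_zero.1 h4).resolve_left ?_
      have : ((n : ℂ) + 2 + 2 * K) = ((n + 2 + 2 * K : ℕ) : ℂ) := by push_cast; ring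
      rw [this]
      exact Nat.cast_ne_zero.2 (by omega)
  exact fun K h0 => h2 K₁ K h0 (by omega)

/-- BLOCK PAIR -/
theorem specPair (hEmb : SpecEmb) (hOps : SpecOps) (hAlg : SpecAlg) (hDec : SpecDec)
    (hRec : SpecRecU) (hGrow : SpecGrow) (hAsy : SpecAsy) : SpecPair := by
  intro n M X Γ I V _ _ _ _ _ _ _ _ _ _ _ _ _ C G K S ι _ P χ s w F hn hV hP hχ hs hw hF
  have : Countable Γ := Vol.countable_group C
  let : MeasurableSpace M := borel M
  have : BorelSpace M := ⟨rfl⟩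
  obtain ⟨μ, hμ⟩ := (Vol.main n M X Γ I C G S.met).2.1
  obtain ⟨H, _, _, _, ⟨E⟩⟩ := hEmb n M X Γ I V C G K S μ hμ
  let c : Ctx n M X Γ I V H := ⟨C, G, K, S, μ, hμ, E⟩
  obtain ⟨hR, hO⟩ := hOps n M X Γ I V H c
  obtain ⟨a, h, W, hO⟩ := hO ι P hP
  obtain ⟨k, wt, A, m₀, hm₀, hwt, hsum, hD⟩ := hDec n M X Γ I V H c ι P a h W hn hO
  obtain ⟨k₀, hRec⟩ := hRec n
  obtain ⟨m₁, hm₁, hG⟩ := hGrow n M X Γ I V H c ι P a h W s w F hn hO hw hF
  choose g p hgp using fun m : Set.Ioi (0 : ℝ) => hR m.1 m.2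
  let g' : ℝ → H →L[ℂ] H := fun m => if hm : 0 < m then g ⟨m, hm⟩ else 0
  let p' : ℝ → H →L[ℂ] H := fun m => if hm : 0 < m then p ⟨m, hm⟩ else 0
  have hgp' : ∀ m, 0 < m → Rsv c.E m (g' m) (p' m) := by
    intro m hm
    simp only [g', p', dif_pos hm]
    exact hgp ⟨m, hm⟩
  -- all coefficients vanish
  have hz : ∀ m, max m₀ m₁ ≤ m → ∀ K, k₀ ≤ K → rK a h W (g' m) F K = 0 := by
    intro m hm
    have hmp : 0 < m := hm₀.trans_le ((le_max_left _ _).trans hm)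
    have hR' := hgp' m hmp
    have hA := hAlg n M X Γ I V H c ι P a h W (g' m) (p' m) m hn hmp hO hR'
    have hD' := hD m ((le_max_left _ _).trans hm) (g' m) (p' m) hR'
    obtain ⟨B, k₁, hB⟩ := hG m (g' m) (p' m) ((le_max_right _ _).trans hm) (by positivity) hR'
    refine zero_of_growth' (lam := m ^ 2) (s := s) (by positivity) hs n k₀ k₁ (n + 1)
      (fun K hK => ?_) B fun K hK => ?_
    · have h1 := (hRec Γ ι H a h k W (g' m) (p' m) m wt A F hn hmp hwt hsum hA hD' hF K hK).2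
      push_cast
      linear_combination (-2 : ℂ) * h1
    · have h1 := hB K hK
      rwa [inv_pow, ← div_eq_mul_inv]
  obtain ⟨k₂, hAsy⟩ := hAsy n M X Γ I V H c ι P a h W g' p' χ F (max m₀ m₁) hn hV hO hχ hF
    fun m hm => hgp' m (hm₀.trans_le ((le_max_left _ _).trans hm))
  obtain ⟨b, hb, hT⟩ := hAsy (max k₀ k₂) (le_max_right _ _)
  have hT' : Tendsto (fun m : ℝ => (m : ℂ) ^ (n + 2 + 2 * max k₀ k₂) *
      rK a h W (g' m) F (max k₀ k₂)) atTop (𝓝 0) := by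
    refine tendsto_const_nhds.congr' ?_
    filter_upwards [eventually_ge_atTop (max m₀ m₁)] with m hm
    rw [hz m hm _ (le_max_left _ _), mul_zero]
  have h1 := tendsto_nhds_unique hT hT'
  have h2 := (mul_eq_zero.1 h1).resolve_left hb
  exact_mod_cast h2

end Vale.Agent.P223.H391
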