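import Vale.Agent.P223.H391.End
import Vale.Agent.P223.H566.Spec
import Vale.Agent.P223.H441.Cl

/-! Sup bounds for multiplication by partitions of unity and their differentials. -/

namespace Vale.Agent.P223.H391

open scoped ContDiff InnerProductSpace Topology
open MeasureTheory Vale.Agent.P223.H Vale.Agent.P223.X Vale.Agent.P223.H566

section meas
variable {n : ℕ} {M X Γ I : Type} [TopologicalSpace M] [TopologicalSpace X] [Group Γ]
    [MulAction Γ X] {C : Cov n M X Γ I} {G : I → E n → Matrix (Fin n) (Fin n) ℝ}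

theorem pg_spec (C : Cov n M X Γ I) (x : X) : C.pg x • C.ψ (C.pi x) (C.py x) = x :=
  (C.cover x).choose_spec.choose_spec.choose_spec.2

theorem finX [MeasurableSpace X] [BorelSpace X] {μ : Measure X} (hG : MetX C G)
    (hV : VolX C G μ) : IsFiniteMeasureOnCompacts μ := by
  refine ⟨fun K hK => ?_⟩
  obtain ⟨s, hs⟩ := Bas3.finite_cover C hK
  refine (measure_mono hs).trans_lt ((measure_biUnion_finset_le s _).trans_lt ?_)
  refine ENNReal.sum_lt_top.2 fun p _ => ?_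
  rw [hV p.1 p.2 _ measurableSet_ball]
  refine lt_of_le_of_lt (lintegral_mono_set Metric.ball_subset_closedBall) ?_
  have hc : Continuous (dens (G p.2)) := Int.cont_dens hG p.2
  have h1 : IntegrableOn (dens (G p.2)) (Metric.closedBall (0 : E n) 1) :=
    hc.continuousOn.integrableOn_compact (isCompact_closedBall _ _)
  exact h1.lintegral_lt_top

/-- sums of translates of a compactly supported function are bounded -/
theorem sum_bdd [Finite I] [T2Space X] (C : Cov n M X Γ I) {ι : Type} [Fintype ι]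
    (f : ι → X → ℝ) (hc : ∀ i, Continuous (f i)) (hs : ∀ i, HasCompactSupport (f i)) :
    ∃ L : ℝ, 0 ≤ L ∧ ∀ (T : Finset (Γ × ι)) (x : X), ∑ l ∈ T, |f l.2 (l.1⁻¹ • x)| ≤ L := by
  classical
  choose B hB using fun i => (hc i).bounded_above_of_compact_support (hs i)
  set K : Set X := ⋃ i, tsupport (f i) with hK
  have hKc : IsCompact K := isCompact_iUnion fun i => hs i
  have hfin := properX C (isCompact_core C 1) hKc
  set N : ℕ := hfin.toFinset.card with hN
  refine ⟨N * ∑ i, |B i|, by positivity, fun T x => ?_⟩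
  obtain ⟨γ₀, i₀, y, hy, rfl⟩ := Vale.Agent.P223.X.exists_chart C x
  have hB0 : ∀ i x, |f i x| ≤ |B i| := fun i x => by
    have := hB i x
    rw [Real.norm_eq_abs] at this
    exact this.trans (le_abs_self _)
  -- only finitely many translates
  have h1 : ∀ l : Γ × ι, f l.2 (l.1⁻¹ • γ₀ • C.ψ i₀ y) ≠ 0 → l.1⁻¹ * γ₀ ∈ hfin.toFinset := by
    intro l hl
    rw [Set.Finite.mem_toFinset]
    refine ⟨C.ψ i₀ y, Set.mem_iUnion.2 ⟨i₀, y, hy.le, rfl⟩, ?_⟩
    rw [mul_smul]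
    exact Set.mem_iUnion.2 ⟨l.2, subset_tsupport _ hl⟩
  calc ∑ l ∈ T, |f l.2 (l.1⁻¹ • γ₀ • C.ψ i₀ y)|
      ≤ ∑ l ∈ T with l.1⁻¹ * γ₀ ∈ hfin.toFinset, |f l.2 (l.1⁻¹ • γ₀ • C.ψ i₀ y)| := by
        rw [Finset.sum_filter]
        refine Finset.sum_le_sum fun l _ => ?_
        split_ifs with h
        · exact le_rfl
        · by_contra hne
          push Not at hne
          exact h (h1 l (by intro h0; rw [h0, abs_zero] at hne; exact lt_irrefl _ hne))
    _ ≤ ∑ l ∈ T with l.1⁻¹ * γ₀ ∈ hfin.toFinset, |B l.2| := Finset.sum_le_sum fun l _ => hB0 _ _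
    _ ≤ ∑ l ∈ hfin.toFinset ×ˢ (Finset.univ : Finset ι), |B l.2| := by
        have hinj : Set.InjOn (fun l : Γ × ι => (l.1⁻¹ * γ₀, l.2))
            (T.filter fun l => l.1⁻¹ * γ₀ ∈ hfin.toFinset) := by
          intro l _ l' _ h
          simp only [Prod.mk.injEq, mul_left_inj, inv_inj] at h
          exact Prod.ext h.1 h.2
        rw [← Finset.sum_image (g := fun l : Γ × ι => (l.1⁻¹ * γ₀, l.2))
          (f := fun l : Γ × ι => |B l.2|) hinj]
        refine Finset.sum_le_sum_of_subset_of_nonneg ?_ fun _ _ _ => abs_nonneg _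
        intro p hp
        obtain ⟨l, hl, rfl⟩ := Finset.mem_image.1 hp
        exact Finset.mem_product.2 ⟨(Finset.mem_filter.1 hl).2, Finset.mem_univ _⟩
    _ = N * ∑ i, |B i| := by
        rw [Finset.sum_product]
        simp only [Finset.sum_const, nsmul_eq_mul]
        rfl

end meas

section core
variable {n : ℕ} {M X Γ I : Type} [TopologicalSpace M] [TopologicalSpace X] [Group Γ]
    [MulAction Γ X] {V : Type} [NormedAddCommGroup V] [InnerProductSpace ℂ V]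
    {C : Cov n M X Γ I} {G : I → E n → Matrix (Fin n) (Fin n) ℝ} {K : Cliff n V}
    {S : SpX C G K}

omit [InnerProductSpace ℂ V] in
theorem nm_nonneg (φ : Raw Γ I n V) (x : X) : 0 ≤ nm C φ x := norm_nonneg _

theorem nm_sq (φ : Raw Γ I n V) (x : X) : nm C φ x ^ 2 = (hp C φ φ x).re := by
  unfold nm hp
  exact (inner_self_eq_norm_sq (𝕜 := ℂ) _).symm

theorem nm_eq_sqrt (φ : Raw Γ I n V) (x : X) : nm C φ x = √((hp C φ φ x).re) := by
  rw [← nm_sq, Real.sqrt_sq (nm_nonneg _ _)]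

theorem nm_mul (f : X → ℝ) (φ : Raw Γ I n V) (x : X) :
    nm C (mulR C f φ) x = |f x| * nm C φ x := by
  unfold nm mulR
  rw [norm_smul, Complex.norm_real, Real.norm_eq_abs, pg_spec]

theorem hp_mul (f : X → ℝ) (φ ψ : Raw Γ I n V) (x : X) :
    hp C (mulR C f φ) ψ x = hp C φ (mulR C f ψ) x := by
  unfold hp mulR
  rw [inner_smul_left, inner_smul_right, Complex.conj_ofReal]

variable [FiniteDimensional ℂ V]

theorem hp_cl (hL : SpecLocal) (f : X → ℝ) (φ ψ : Raw Γ I n V) (x : X) :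
    hp C (S.clR f φ) ψ x = hp C φ (S.clR f ψ) x := by
  unfold hp SpX.clR
  obtain ⟨-, -, -, -, h, -⟩ := hL n V K (G (C.pi x)) (S.β (C.pi x)) (S.met.smooth _)
    (S.met.pos _) (S.fr _)
  exact (h _ _ _ _).1

theorem nm_cl (hL : SpecLocal) (f : X → ℝ) (φ : Raw Γ I n V) (x : X) :
    nm C (S.clR f φ) x = √(gsX C G f x) * nm C φ x := by
  obtain ⟨-, -, -, -, h, -⟩ := hL n V K (G (C.pi x)) (S.β (C.pi x)) (S.met.smooth _)
    (S.met.pos _) (S.fr _)
  have h1 := (h (C.rep f (C.pg x) (C.pi x)) (C.py x) (φ (C.pg x) (C.pi x) (C.py x)) 0).2.1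
  have h2 : nm C (S.clR f φ) x ^ 2 = gsX C G f x * nm C φ x ^ 2 := h1
  have h3 : 0 ≤ gsX C G f x := gsX_nonneg S.met f x
  rw [← Real.sqrt_sq (nm_nonneg (C := C) (S.clR f φ) x), h2, Real.sqrt_mul h3,
    Real.sqrt_sq (nm_nonneg _ _)]

theorem nm_vol (hL : SpecLocal) (S : SpX C G K) (φ : Raw Γ I n V) (x : X) :
    nm C (volR K φ) x = nm C φ x := by
  obtain ⟨-, -, -, -, -, h, -⟩ := hL n V K (G (C.pi x)) (S.β (C.pi x)) (S.met.smooth _)
    (S.met.pos _) (S.fr _)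
  unfold nm volR
  rw [@norm_eq_sqrt_re_inner ℂ, @norm_eq_sqrt_re_inner ℂ, h]

omit [FiniteDimensional ℂ V] in
theorem vol_sq (K : Cliff n V) : ∃ s : ℤ, (s = 1 ∨ s = -1) ∧ K.vol * K.vol = s • 1 := by
  rw [H441.vol_eq, ← H441.wd_append]
  refine H441.wd_even K _ _ rfl fun a => ?_
  rw [List.count_append]
  exact ⟨_, rfl⟩

theorem hp_vol (hL : SpecLocal) (S : SpX C G K) : ∃ s : ℤ, (s = 1 ∨ s = -1) ∧
    ∀ (φ ψ : Raw Γ I n V) (x : X), hp C (volR K φ) ψ x = s * hp C φ (volR K ψ) x := by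
  obtain ⟨s, hs, h2⟩ := vol_sq K
  refine ⟨s, hs, fun φ ψ x => ?_⟩
  obtain ⟨-, -, -, -, -, h, -⟩ := hL n V K (G (C.pi x)) (S.β (C.pi x)) (S.met.smooth _)
    (S.met.pos _) (S.fr _)
  unfold hp volR
  set v := φ (C.pg x) (C.pi x) (C.py x)
  set w := ψ (C.pg x) (C.pi x) (C.py x)
  have h3 : w = (s : ℂ) • K.vol (K.vol w) := by
    have h4 : K.vol (K.vol w) = (s : ℂ) • w := by
      have := congrArg (fun L : V →L[ℂ] V => L w) h2
      simp only [mul_apply_eq_comp] at this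
      rw [this, ← Int.cast_smul_eq_zsmul ℂ]
      rfl
    rw [h4, smul_smul]
    rcases hs with rfl | rfl <;> simp
  conv_lhs => rw [h3, inner_smul_right, h]

end core

/-! ### the sup norm -/

section sup
variable {n : ℕ} {M X Γ I : Type} [TopologicalSpace M] [TopologicalSpace X] [Group Γ]
    [MulAction Γ X] {V : Type} [NormedAddCommGroup V] [InnerProductSpace ℂ V]
    {C : Cov n M X Γ I} {G : I → E n → Matrix (Fin n) (Fin n) ℝ} {K : Cliff n V}
    [MeasurableSpace X] {S : SpX C G K} {μ : Measure X} {H : Type} [NormedAddCommGroup H]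
    [InnerProductSpace ℂ H]

omit [InnerProductSpace ℂ V] in
theorem int_nonneg {w : X → ℝ} (hw : ∀ x, 0 < w x) (φ : Raw Γ I n V) :
    0 ≤ ∫ x, w x * nm C φ x ∂μ :=
  integral_nonneg fun x => mul_nonneg (hw x).le (nm_nonneg φ x)

/-- sup bounds relative to the positive function `w` -/
def supW (E : Emb S μ H) (w : X → ℝ) (hw : ∀ x, 0 < w x) : Sup H where
  SB b u := WB E w b u
  zero b hb φ := by
    rw [inner_zero_left, norm_zero]
    exact mul_nonneg hb (int_nonneg hw _)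
  smul b u z hb hz h φ := by
    rw [inner_smul_left, norm_mul, RCLike.norm_conj]
    calc ‖z‖ * ‖⟪u, E.e φ⟫_ℂ‖ ≤ 1 * ‖⟪u, E.e φ⟫_ℂ‖ :=
          mul_le_mul_of_nonneg_right hz (norm_nonneg _)
      _ ≤ _ := by rw [one_mul]; exact h φ
  mono b b' u hb h φ := (h φ).trans (mul_le_mul_of_nonneg_right hb (int_nonneg hw _))

/-- `L¹` norm of the elements of `Core` -/
theorem pb_core (E : Emb S μ H) (w : X → ℝ) (hw : ∀ x, 0 < w x) (φ : Core S) :
    (supW E w hw).PB (∫ x, w x * nm C (φ : Raw Γ I n V) x ∂μ) (E.e φ) := by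
  intro c u hc hu
  rw [← inner_conj_symm, RCLike.norm_conj]
  exact hu φ

/-- symmetric operators on `Core` -/
theorem sym_core (E : Emb S μ H) {A : H →L[ℂ] H} {A' : Core S →ₗ[ℂ] Core S}
    (hA : ∀ φ, A (E.e φ) = E.e (A' φ)) {s : ℂ} (hs : ∀ φ ψ : Core S,
      ipr C μ (A' φ : Raw Γ I n V) (ψ : Raw Γ I n V) =
        s * ipr C μ (φ : Raw Γ I n V) (A' ψ : Raw Γ I n V)) (u : H) (φ : Core S) :
    ⟪A u, E.e φ⟫_ℂ = s * ⟪u, E.e (A' φ)⟫_ℂ := by
  have h1 : Continuous fun u : H => ⟪A u, E.e φ⟫_ℂ := A.continuous.inner continuous_const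
  have h2 : Continuous fun u : H => s * ⟪u, E.e (A' φ)⟫_ℂ :=
    continuous_const.mul (continuous_id.inner continuous_const)
  refine congrFun (E.dense.equalizer h1 h2 (funext fun ψ => ?_)) u
  simp only [Function.comp_apply]
  rw [hA, E.ip, E.ip, hs]

theorem nm_continuous [FiniteDimensional ℂ V] [Fintype I] [T2Space X] [ConnectedSpace X]
    [T2Space M] [BorelSpace X] (hI : SpecIntS) (hn : 1 ≤ n) (hV : VolX C G μ)
    (φ : Core S) : Continuous (nm C (φ : Raw Γ I n V)) ∧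
      HasCompactSupport (nm C (φ : Raw Γ I n V)) := by
  obtain ⟨-, h, -⟩ := hI n M X Γ I V C G K S μ hn hV
  obtain ⟨h1, h2, -⟩ := h φ φ
  have e : nm C (φ : Raw Γ I n V) = fun x => √((hp C (φ : Raw Γ I n V) (φ : Raw Γ I n V) x).re) :=
    funext fun x => nm_eq_sqrt _ _
  rw [e]
  exact ⟨(Complex.continuous_re.comp h1).sqrt, h2.comp_left (g := fun z : ℂ => √z.re) (by simp)⟩

theorem integrable_nm [FiniteDimensional ℂ V] [Fintype I] [T2Space X] [ConnectedSpace X]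
    [T2Space M] [BorelSpace X] (hI : SpecIntS) (hn : 1 ≤ n) (hV : VolX C G μ) {w : X → ℝ}
    (hw : Continuous w) (φ : Core S) :
    Integrable (fun x => w x * nm C (φ : Raw Γ I n V) x) μ := by
  have := finX S.met hV
  obtain ⟨h1, h2⟩ := nm_continuous hI hn hV φ
  exact (hw.mul h1).integrable_of_hasCompactSupport h2.mul_left

/-- row bounds -/
theorem row_core [FiniteDimensional ℂ V] [Fintype I] [T2Space X] [ConnectedSpace X]
    [T2Space M] [BorelSpace X] (hI : SpecIntS) (hn : 1 ≤ n) (hV : VolX C G μ)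
    (E : Emb S μ H) {w : X → ℝ} (hwc : Continuous w) (hw : ∀ x, 0 < w x) {Λ : Type}
    {A : Λ → H →L[ℂ] H} {A' : Λ → Core S →ₗ[ℂ] Core S}
    (hA : ∀ l φ, A l (E.e φ) = E.e (A' l φ)) (s : ℂ) (hs1 : ‖s‖ ≤ 1) (hs : ∀ l (φ ψ : Core S),
      ipr C μ (A' l φ : Raw Γ I n V) (ψ : Raw Γ I n V) =
        s * ipr C μ (φ : Raw Γ I n V) (A' l ψ : Raw Γ I n V)) {b : Λ → X → ℝ}
    (hb : ∀ l (φ : Core S) x, nm C (A' l φ : Raw Γ I n V) x ≤ b l x * nm C (φ : Raw Γ I n V) x)
    {L : ℝ} (hL : ∀ (T : Finset Λ) x, ∑ l ∈ T, b l x ≤ L) : (supW E w hw).Row A L := by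
  intro T c u hc hu φ
  rw [sum_inner]
  have h1 : ∀ l ∈ T, ‖⟪A l (u l), E.e φ⟫_ℂ‖ ≤
      c * ∫ x, w x * nm C (A' l φ : Raw Γ I n V) x ∂μ := by
    intro l hl
    rw [sym_core E (hA l) (hs l), norm_mul]
    calc ‖s‖ * ‖⟪u l, E.e (A' l φ)⟫_ℂ‖ ≤ 1 * ‖⟪u l, E.e (A' l φ)⟫_ℂ‖ :=
          mul_le_mul_of_nonneg_right hs1 (norm_nonneg _)
      _ ≤ _ := by rw [one_mul]; exact hu l hl _
  calc ‖∑ l ∈ T, ⟪A l (u l), E.e φ⟫_ℂ‖ ≤ ∑ l ∈ T, ‖⟪A l (u l), E.e φ⟫_ℂ‖ := norm_sum_le _ _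
    _ ≤ ∑ l ∈ T, c * ∫ x, w x * nm C (A' l φ : Raw Γ I n V) x ∂μ := Finset.sum_le_sum h1
    _ = c * ∫ x, ∑ l ∈ T, w x * nm C (A' l φ : Raw Γ I n V) x ∂μ := by
        rw [← Finset.mul_sum, integral_finsetSum _ fun l _ => integrable_nm hI hn hV hwc _]
    _ ≤ c * ∫ x, L * (w x * nm C (φ : Raw Γ I n V) x) ∂μ := by
        refine mul_le_mul_of_nonneg_left (integral_mono
          (integrable_finsetSum _ fun l _ => integrable_nm hI hn hV hwc _)
          ((integrable_nm hI hn hV hwc φ).const_mul L) fun x => ?_) hc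
        simp only
        calc ∑ l ∈ T, w x * nm C (A' l φ : Raw Γ I n V) x
            ≤ ∑ l ∈ T, w x * (b l x * nm C (φ : Raw Γ I n V) x) :=
              Finset.sum_le_sum fun l _ => mul_le_mul_of_nonneg_left (hb l φ x) (hw x).le
          _ = (∑ l ∈ T, b l x) * (w x * nm C (φ : Raw Γ I n V) x) := by
              rw [Finset.sum_mul]; exact Finset.sum_congr rfl fun l _ => by ring
          _ ≤ L * (w x * nm C (φ : Raw Γ I n V) x) :=
              mul_le_mul_of_nonneg_right (hL T x) (mul_nonneg (hw x).le (nm_nonneg _ _))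
    _ = L * c * ∫ x, w x * nm C (φ : Raw Γ I n V) x ∂μ := by
        rw [integral_const_mul]; ring

end sup

end Vale.Agent.P223.H391
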