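import Vale.Agent.P223.H391.SupPL
import Vale.Agent.P223.H620.SupB
import Vale.Agent.P223.H391.Rows

/-! Sup bound for `p = D g`: integral inequalities. -/

namespace Vale.Agent.P223.H391

open scoped ContDiff InnerProductSpace Topology
open MeasureTheory Vale.Agent.P223.H Vale.Agent.P223.X Vale.Agent.P223.H566

theorem int_lin {X : Type} [MeasurableSpace X] {μ : Measure X} {f1 f2 f3 f4 f5 l : X → ℝ}
    (h1 : Integrable f1 μ) (h2 : Integrable f2 μ) (h3 : Integrable f3 μ) (h4 : Integrable f4 μ)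
    (h5 : Integrable f5 μ) (hl : Integrable l μ) (A B a : ℝ) :
    Integrable (fun x => A * f1 x - f2 x + a * (B * f3 x - f4 x) - a * f5 x + 1 / 2 * l x) μ ∧
    ∫ x, (A * f1 x - f2 x + a * (B * f3 x - f4 x) - a * f5 x + 1 / 2 * l x) ∂μ =
      A * ∫ x, f1 x ∂μ - ∫ x, f2 x ∂μ + a * (B * ∫ x, f3 x ∂μ - ∫ x, f4 x ∂μ) -
        a * ∫ x, f5 x ∂μ + 1 / 2 * ∫ x, l x ∂μ := by
  have a1 : Integrable (fun x => A * f1 x - f2 x) μ := (h1.const_mul _).sub h2
  have a2 : Integrable (fun x => B * f3 x - f4 x) μ := (h3.const_mul _).sub h4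
  have a2' : Integrable (fun x => a * (B * f3 x - f4 x)) μ := a2.const_mul _
  have a3 : Integrable (fun x => a * f5 x) μ := h5.const_mul _
  have a4 : Integrable (fun x => 1 / 2 * l x) μ := hl.const_mul _
  have a12 : Integrable (fun x => A * f1 x - f2 x + a * (B * f3 x - f4 x)) μ := a1.add a2'
  have a123 : Integrable (fun x => A * f1 x - f2 x + a * (B * f3 x - f4 x) - a * f5 x) μ :=
    a12.sub a3
  refine ⟨a123.add a4, ?_⟩
  rw [integral_add a123 a4, integral_sub a12 a3, integral_add a1 a2',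
    integral_sub (h1.const_mul _) h2, integral_const_mul, integral_const_mul,
    integral_sub (h3.const_mul _) h4, integral_const_mul, integral_const_mul,
    integral_const_mul]

section
variable {n : ℕ} {M X Γ I V H : Type} [TopologicalSpace M] [TopologicalSpace X]
  [Group Γ] [MulAction Γ X] [Fintype I] [T2Space X] [ConnectedSpace X] [T2Space M]
  [MeasurableSpace X] [BorelSpace X] [NormedAddCommGroup V] [InnerProductSpace ℂ V]
  [FiniteDimensional ℂ V] [NormedAddCommGroup H] [InnerProductSpace ℂ H] [CompleteSpace H]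
  (c : Ctx n M X Γ I V H)

/-- `|φ|² + a |η|²` -/
noncomputable def pf (C : Cov n M X Γ I) (a : ℝ) (φ η : Raw Γ I n V) (x : X) : ℝ :=
  nm C φ x ^ 2 + a * nm C η x ^ 2

omit [Fintype I] [ConnectedSpace X] [T2Space M] [FiniteDimensional ℂ V] [CompleteSpace H] in
theorem re_mC {g : X → ℝ} (hg : c.C.Ck ∞ g) (φ ψ : Core c.S) :
    (⟪c.E.e φ, c.E.e (c.S.mC g hg ψ)⟫_ℂ).re =
      ∫ x, g x * (hp c.C (φ : Raw Γ I n V) (ψ : Raw Γ I n V) x).re ∂c.μ := by
  rw [c.E.ip]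
  unfold ipr
  have h2 := Complex.reCLM.integral_comp_comm (φ.2.integrable_hp (c.S.mC g hg ψ).2 c.vol)
  simp only [Complex.reCLM_apply] at h2
  rw [← h2]
  congr 1
  funext x
  change (⟪_, (g (c.C.pg x • c.C.ψ (c.C.pi x) (c.C.py x)) : ℂ) • _⟫_ℂ).re = _
  rw [inner_smul_right, pg_spec c.C x, Complex.re_ofReal_mul]
  rfl

omit [ConnectedSpace X] [T2Space M] [CompleteSpace H] in
theorem re_DmC (hL : SpecLocal) {g : X → ℝ} (hg : c.C.Ck ∞ g) (φ ψ : Core c.S) :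
    (⟪c.E.e (c.S.DC φ), c.E.e (c.S.DC (c.S.mC g hg ψ))⟫_ℂ).re =
      -∫ x, g x * (hp c.C (c.S.DC (c.S.DC φ) : Raw Γ I n V) (ψ : Raw Γ I n V) x).re ∂c.μ := by
  have h0 := e_skew c.E hL c.vol (c.S.DC φ) (c.S.mC _ hg ψ)
  have h1 : ⟪c.E.e (c.S.DC φ), c.E.e (c.S.DC (c.S.mC _ hg ψ))⟫_ℂ =
      -⟪c.E.e (c.S.DC (c.S.DC φ)), c.E.e (c.S.mC _ hg ψ)⟫_ℂ := by rw [h0, neg_neg]
  rw [h1, Complex.neg_re, re_mC c hg]

omit [Fintype I] [ConnectedSpace X] [T2Space M] [FiniteDimensional ℂ V] [CompleteSpace H] in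
theorem int_g_hp {g : X → ℝ} (hg : Continuous g) (φ ψ : Core c.S) :
    Integrable (fun x => g x * (hp c.C (φ : Raw Γ I n V) (ψ : Raw Γ I n V) x).re) c.μ := by
  have := finComp c.S.met c.vol
  refine (hg.mul (Complex.continuous_re.comp
    (φ.2.continuous_hp ψ.2))).integrable_of_hasCompactSupport ?_
  refine HasCompactSupport.intro (φ.2.hp_supp (ψ := (ψ : Raw Γ I n V)) (C := c.C)).isCompact
    fun x hx => ?_
  simp [image_eq_zero_of_notMem_tsupport hx]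

omit [Fintype I] [ConnectedSpace X] [T2Space M] [FiniteDimensional ℂ V] [CompleteSpace H]
  [T2Space X] [MeasurableSpace X] [BorelSpace X] [NormedAddCommGroup H]
  [InnerProductSpace ℂ H] in
theorem Ck_pf {C : Cov n M X Γ I} {G : I → E n → Matrix (Fin n) (Fin n) ℝ} {K : Cliff n V}
    {S : SpX C G K} (a : ℝ) (φ η : Core S) :
    C.Ck ∞ (pf C a (φ : Raw Γ I n V) (η : Raw Γ I n V)) := fun γ i =>
  (H620.Ck_nmsq φ γ i).add (contDiff_const.mul (H620.Ck_nmsq η γ i))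

omit [Fintype I] [ConnectedSpace X] [T2Space M] [FiniteDimensional ℂ V] [CompleteSpace H]
  [T2Space X] [MeasurableSpace X] [BorelSpace X] [NormedAddCommGroup H]
  [InnerProductSpace ℂ H] in
theorem Ck_comp_pf {C : Cov n M X Γ I} {G : I → E n → Matrix (Fin n) (Fin n) ℝ} {K : Cliff n V}
    {S : SpX C G K} (a : ℝ) (φ η : Core S) {F : ℝ → ℝ} (hF : ContDiff ℝ ∞ F) :
    C.Ck ∞ (fun x => F (pf C a (φ : Raw Γ I n V) (η : Raw Γ I n V) x)) := fun γ i =>
  hF.comp (Ck_pf a φ η γ i)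

omit [Fintype I] [ConnectedSpace X] [T2Space M] [FiniteDimensional ℂ V] [CompleteSpace H]
  [MeasurableSpace X] [BorelSpace X] [NormedAddCommGroup H] [InnerProductSpace ℂ H] in
theorem pf_supp {C : Cov n M X Γ I} {G : I → E n → Matrix (Fin n) (Fin n) ℝ} {K : Cliff n V}
    {S : SpX C G K} (a : ℝ) (φ η : Core S) :
    HasCompactSupport (pf C a (φ : Raw Γ I n V) (η : Raw Γ I n V)) := by
  refine HasCompactSupport.intro (K := tsupport (nm C (φ : Raw Γ I n V)) ∪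
    tsupport (nm C (η : Raw Γ I n V))) (φ.2.nm_supp.isCompact.union η.2.nm_supp.isCompact)
    fun x hx => ?_
  rw [Set.mem_union, not_or] at hx
  unfold pf
  rw [image_eq_zero_of_notMem_tsupport hx.1, image_eq_zero_of_notMem_tsupport hx.2]
  simp

omit [Fintype I] [ConnectedSpace X] [T2Space M] [MeasurableSpace X] [BorelSpace X]
  [NormedAddCommGroup H] [InnerProductSpace ℂ H] [CompleteSpace H] in
/-- pointwise inequality on `X` -/
theorem supPA_pt (hL : SpecLocal) {C : Cov n M X Γ I} {G : I → E n → Matrix (Fin n) (Fin n) ℝ}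
    {K : Cliff n V} {S : SpX C G K} {κ m m' δ a : ℝ} {F : ℝ → ℝ} (ha : 0 ≤ a)
    (hs : ∀ i y, -κ ≤ Vale.Agent.P223.H.scal (G i) y) (hF : Tst δ F) (φ η : Core S) (x : X) :
    F (pf C a (φ : Raw Γ I n V) (η : Raw Γ I n V) x) *
      ((m' ^ 2 - κ / 4) * nm C (φ : Raw Γ I n V) x ^ 2 +
        a * ((m ^ 2 - κ / 4 - a * n / 4) * nm C (η : Raw Γ I n V) x ^ 2)) ≤
      F (pf C a (φ : Raw Γ I n V) (η : Raw Γ I n V) x) *
        (m' ^ 2 * (hp C (φ : Raw Γ I n V) (φ : Raw Γ I n V) x).re -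
        (hp C (S.DC (S.DC φ) : Raw Γ I n V) (φ : Raw Γ I n V) x).re +
      a * (m ^ 2 * (hp C (η : Raw Γ I n V) (η : Raw Γ I n V) x).re -
        (hp C (S.DC (S.DC η) : Raw Γ I n V) (η : Raw Γ I n V) x).re) -
      a * (hp C (S.DC φ : Raw Γ I n V) (η : Raw Γ I n V) x).re) +
      1 / 2 * lapX C G (fun x => prim F (pf C a (φ : Raw Γ I n V) (η : Raw Γ I n V) x)) x := by
  have hG := S.met
  have hPs : C.Ck ∞ (fun x => prim F (pf C a (φ : Raw Γ I n V) (η : Raw Γ I n V) x)) :=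
    Ck_comp_pf a φ η (prim_smooth hF.smooth)
  rw [← H566.pg_spec C x]
  set γ := C.pg x
  set i := C.pi x
  set y := C.py x
  rw [lapX_eq hG (fun γ i => contDiff_infty.1 (hPs γ i) 2)]
  have g1 : ∀ z, pf C a (φ : Raw Γ I n V) (η : Raw Γ I n V) (γ • C.ψ i z) =
      ‖(φ : Raw Γ I n V) γ i z‖ ^ 2 + a * ‖(η : Raw Γ I n V) γ i z‖ ^ 2 := fun z => by
    unfold pf
    rw [φ.2.nm_chart, η.2.nm_chart]
  have g2 : C.rep (fun x => prim F (pf C a (φ : Raw Γ I n V) (η : Raw Γ I n V) x)) γ i = fun z =>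
      prim F (‖(φ : Raw Γ I n V) γ i z‖ ^ 2 + a * ‖(η : Raw Γ I n V) γ i z‖ ^ 2) := by
    funext z
    exact congrArg (prim F) (g1 z)
  have hsq : ∀ v : V, (⟪v, v⟫_ℂ).re = ‖v‖ ^ 2 := fun v =>
    (norm_sq_eq_re_inner (𝕜 := ℂ) v).symm
  rw [g2, g1, φ.2.nm_chart, η.2.nm_chart, φ.2.hp_chart φ.2, η.2.hp_chart η.2,
    (S.DC (S.DC φ)).2.hp_chart φ.2, (S.DC (S.DC η)).2.hp_chart η.2,
    (S.DC φ).2.hp_chart η.2, hsq, hsq]
  exact locP K hL (hG.smooth i) (hG.pos i) (S.fr i) (φ.2.smooth γ i) (η.2.smooth γ i)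
    (M := m') (m := m) ha hF y (hs i y)

omit [ConnectedSpace X] [T2Space M] [CompleteSpace H] [Fintype I] [FiniteDimensional ℂ V] in
theorem int_lap [Fintype I] {g : X → ℝ} (hg : c.C.Ck ∞ g) (hc : HasCompactSupport g) :
    Integrable (lapX c.C c.G g) c.μ ∧ ∫ x, lapX c.C c.G g x ∂c.μ = 0 := by
  have hfin := finComp c.S.met c.vol
  have hG := c.S.met
  have h1s : c.C.Ck ∞ (fun _ => (1 : ℝ)) := fun γ i => contDiff_const
  have hck2 : ∀ {g : X → ℝ}, c.C.Ck ∞ g → c.C.Ck 2 g := fun hg γ i => contDiff_infty.1 (hg γ i) 2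
  constructor
  · refine Continuous.integrable_of_hasCompactSupport ?_ ?_
    · exact Ck_continuous c.C fun γ i => (Ck_lapX hG (fun γ i => contDiff_infty.1 (hg γ i) 4)
        γ i).of_le (by norm_num)
    · exact HasCompactSupport.intro hc.isCompact fun x hx => lapX_zero hG hg hx
  · have := greenX hG c.vol hg h1s hc
    have e : ∀ x, lapX c.C c.G (fun _ => (1 : ℝ)) x = 0 := fun x => by
      rw [← H566.pg_spec c.C x, lapX_eq hG (hck2 h1s)]
      have : c.C.rep (fun _ => (1 : ℝ)) (c.C.pg x) (c.C.pi x) = fun _ => 1 := rfl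
      rw [this]
      unfold lap Vale.Agent.P223.H.pd
      simp
    simp only [e, mul_zero, integral_zero, mul_one] at this
    exact this.symm

theorem supPA (hL : SpecLocal) {κ m m' δ a : ℝ} {F : ℝ → ℝ} (ha : 0 ≤ a)
    (hs : ∀ i y, -κ ≤ Vale.Agent.P223.H.scal (c.G i) y) (hF : Tst δ F) (φ η : Core c.S)
    (hf : c.C.Ck ∞ (fun x => F (pf c.C a (φ : Raw Γ I n V) (η : Raw Γ I n V) x))) :
    ∫ x, F (pf c.C a (φ : Raw Γ I n V) (η : Raw Γ I n V) x) *
      ((m' ^ 2 - κ / 4) * nm c.C (φ : Raw Γ I n V) x ^ 2 +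
        a * ((m ^ 2 - κ / 4 - a * n / 4) * nm c.C (η : Raw Γ I n V) x ^ 2)) ∂c.μ ≤
      m' ^ 2 * (⟪c.E.e φ, c.E.e (c.S.mC _ hf φ)⟫_ℂ).re +
        (⟪c.E.e (c.S.DC φ), c.E.e (c.S.DC (c.S.mC _ hf φ))⟫_ℂ).re +
      a * (m ^ 2 * (⟪c.E.e η, c.E.e (c.S.mC _ hf η)⟫_ℂ).re +
        (⟪c.E.e (c.S.DC η), c.E.e (c.S.DC (c.S.mC _ hf η))⟫_ℂ).re) -
      a * (⟪c.E.e (c.S.DC φ), c.E.e (c.S.mC _ hf η)⟫_ℂ).re := by
  have hPs : c.C.Ck ∞ (fun x => prim F (pf c.C a (φ : Raw Γ I n V) (η : Raw Γ I n V) x)) :=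
    Ck_comp_pf a φ η (prim_smooth hF.smooth)
  have hP0 : prim F 0 = 0 := prim_zero hF.pos.le hF.zero hF.pos.le
  have hPc : HasCompactSupport
      (fun x => prim F (pf c.C a (φ : Raw Γ I n V) (η : Raw Γ I n V) x)) :=
    HasCompactSupport.comp_left (g := prim F) (pf_supp a φ η) hP0
  obtain ⟨n1, i1⟩ := int_lap c hPs hPc
  have hpt := supPA_pt (m := m) (m' := m') hL ha hs hF φ η
  rw [re_DmC c hL, re_DmC c hL, re_mC, re_mC, re_mC]
  set f : X → ℝ := pf c.C a (φ : Raw Γ I n V) (η : Raw Γ I n V) with hfd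
  have hFc : Continuous (fun x => F (f x)) :=
    Ck_continuous c.C fun γ i => contDiff_infty.1 (hf γ i) 0
  have m1 := int_g_hp c hFc φ φ
  have m2 := int_g_hp c hFc (c.S.DC (c.S.DC φ)) φ
  have m3 := int_g_hp c hFc η η
  have m4 := int_g_hp c hFc (c.S.DC (c.S.DC η)) η
  have m5 := int_g_hp c hFc (c.S.DC φ) η
  set lp : X → ℝ := lapX c.C c.G (fun x => prim F (f x)) with hlp
  have q1 : ∀ x, nm c.C (φ : Raw Γ I n V) x ^ 2 =
    (hp c.C (φ : Raw Γ I n V) (φ : Raw Γ I n V) x).re := fun x => H391.nm_sq _ _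
  have q3 : ∀ x, nm c.C (η : Raw Γ I n V) x ^ 2 =
    (hp c.C (η : Raw Γ I n V) (η : Raw Γ I n V) x).re := fun x => H391.nm_sq _ _
  have hl : Integrable (fun x => F (f x) * ((m' ^ 2 - κ / 4) * nm c.C (φ : Raw Γ I n V) x ^ 2 +
        a * ((m ^ 2 - κ / 4 - a * n / 4) * nm c.C (η : Raw Γ I n V) x ^ 2))) c.μ := by
    refine ((m1.const_mul (m' ^ 2 - κ / 4)).add
      (m3.const_mul (a * (m ^ 2 - κ / 4 - a * n / 4)))).congr
      (Filter.Eventually.of_forall fun x => ?_)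
    simp only [Pi.add_apply]
    rw [q1, q3]
    ring
  obtain ⟨n2, j⟩ := int_lin m1 m2 m3 m4 m5 n1 (m' ^ 2) (m ^ 2) a
  rw [i1] at j
  refine (integral_mono hl n2 fun x => (hpt x).trans (le_of_eq ?_)).trans (le_of_eq ?_)
  · ring
  · rw [j]; ring

end

end Vale.Agent.P223.H391
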