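import Vale.Agent.P223.H391.SupPA

/-! Sup bound for `p = D g`: bounds for the test functions. -/

namespace Vale.Agent.P223.H391

open scoped ContDiff InnerProductSpace Topology
open MeasureTheory Vale.Agent.P223.H Vale.Agent.P223.X Vale.Agent.P223.H566

theorem gs_pf {n : ℕ} {G : E n → Matrix (Fin n) (Fin n) ℝ} {y : E n} (hG : (G y).PosDef)
    {u v : E n → ℝ} {F : ℝ → ℝ} {a C1 N1 N2 : ℝ} (hu : DifferentiableAt ℝ u y)
    (hv : DifferentiableAt ℝ v y) (hu0 : 0 ≤ u y) (hv0 : 0 ≤ v y) (ha : 0 ≤ a)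
    (hN1 : 0 ≤ N1) (hN2 : 0 ≤ N2) (hF : Differentiable ℝ F)
    (h1 : gradSq G u y ≤ 4 * u y * N1) (h2 : gradSq G v y ≤ 4 * v y * N2)
    (h3 : ∀ t, |t * deriv F t| ≤ C1) :
    gradSq G (fun z => F (u z + a * v z)) y * (u y + a * v y) ≤ 8 * C1 ^ 2 * (N1 + a * N2) := by
  have hav : DifferentiableAt ℝ (fun z => a * v z) y := hv.const_mul a
  have hf : DifferentiableAt ℝ (fun z => u z + a * v z) y := hu.add hav
  have e1 : gradSq G (fun z => F (u z + a * v z)) y =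
      (deriv F (u y + a * v y)) ^ 2 * gradSq G (fun z => u z + a * v z) y :=
    Grad.gradSq_comp_real (φ := F) (f := fun z => u z + a * v z) (hF _).hasDerivAt hf
  have g1 := Grad.gradSq_nonneg' hG u
  have g2 := Grad.gradSq_nonneg' hG v
  have g3 := Grad.gradSq_nonneg' hG (fun z => u z + a * v z)
  have e2 : gradSq G (fun z => u z + a * v z) y ≤ 8 * (u y + a * v y) * (N1 + a * N2) := by
    have s1 := Grad.sqrt_gradSq_add_le hG hu hav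
    rw [Grad.sqrt_gradSq_mul (f := v) a hv, abs_of_nonneg ha] at s1
    have s2 : gradSq G (fun z => u z + a * v z) y ≤ (√(gradSq G u y) + a * √(gradSq G v y)) ^ 2 := by
      calc _ = √(gradSq G (fun z => u z + a * v z) y) ^ 2 := (Real.sq_sqrt g3).symm
        _ ≤ _ := pow_le_pow_left₀ (Real.sqrt_nonneg _) s1 2
    have q1 := Real.sq_sqrt g1
    have q2 := Real.sq_sqrt g2
    have s3 : (√(gradSq G u y) + a * √(gradSq G v y)) ^ 2 ≤
        2 * gradSq G u y + 2 * a ^ 2 * gradSq G v y := by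
      nlinarith [sq_nonneg (√(gradSq G u y) - a * √(gradSq G v y))]
    have s4 : 2 * gradSq G u y + 2 * a ^ 2 * gradSq G v y ≤
        8 * (u y * N1) + 8 * (a * v y * (a * N2)) := by
      have := mul_le_mul_of_nonneg_left h2 (by positivity : 0 ≤ 2 * a ^ 2)
      nlinarith
    have s5 : 0 ≤ u y * (a * N2) := by positivity
    have s6 : 0 ≤ a * v y * N1 := by positivity
    nlinarith
  rw [e1]
  set f := u y + a * v y with hfd
  have hf0 : 0 ≤ f := by positivity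
  have hC := h3 f
  have hC1 : (f * deriv F f) ^ 2 ≤ C1 ^ 2 := by
    rw [← sq_abs]
    exact pow_le_pow_left₀ (abs_nonneg _) hC 2
  calc deriv F f ^ 2 * gradSq G (fun z => u z + a * v z) y * f
      ≤ deriv F f ^ 2 * (8 * f * (N1 + a * N2)) * f := by gcongr
    _ = 8 * (f * deriv F f) ^ 2 * (N1 + a * N2) := by ring
    _ ≤ _ := by gcongr

section
variable {n : ℕ} {M X Γ I V H : Type} [TopologicalSpace M] [TopologicalSpace X]
  [Group Γ] [MulAction Γ X] [Fintype I] [T2Space X] [ConnectedSpace X] [T2Space M]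
  [MeasurableSpace X] [BorelSpace X] [NormedAddCommGroup V] [InnerProductSpace ℂ V]
  [FiniteDimensional ℂ V] [NormedAddCommGroup H] [InnerProductSpace ℂ H] [CompleteSpace H]
  (c : Ctx n M X Γ I V H)

/-- an integrable majorant of `|∇φ|²` -/
theorem exists_maj (hL : SpecLocal) {κ : ℝ}
    (hs : ∀ i y, -κ ≤ Vale.Agent.P223.H.scal (c.G i) y) (φ : Core c.S) :
    ∃ N : X → ℝ, Integrable N c.μ ∧
    (∀ x, nsq c.K (c.G (c.C.pi x)) (c.S.β (c.C.pi x))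
      ((φ : Raw Γ I n V) (c.C.pg x) (c.C.pi x)) (c.C.py x) ≤ N x) ∧
    ∫ x, N x ∂c.μ = ‖c.E.e (c.S.DC φ)‖ ^ 2 + κ / 4 * ‖c.E.e φ‖ ^ 2 := by
  set u : X → ℝ := fun x => nm c.C (φ : Raw Γ I n V) x ^ 2 with hu
  have hus : c.C.Ck ∞ u := H620.Ck_nmsq φ
  have hcs : HasCompactSupport u := by
    refine HasCompactSupport.intro (φ.2.nm_supp (C := c.C)).isCompact fun x hx => ?_
    have := image_eq_zero_of_notMem_tsupport hx
    rw [hu]
    simp only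
    rw [this]
    norm_num
  obtain ⟨i3, z1⟩ := int_lap c hus hcs
  have i1 : Integrable u c.μ := (H620.norm_sq_e c.E c.vol φ).1
  have i2 : Integrable (hp c.C (c.S.DC (c.S.DC φ) : Raw Γ I n V) (φ : Raw Γ I n V)) c.μ :=
    IsCore.integrable_hp (c.S.DC (c.S.DC φ)).2 φ.2 c.vol
  have z3 : ∫ x, (hp c.C (c.S.DC (c.S.DC φ) : Raw Γ I n V) (φ : Raw Γ I n V) x).re ∂c.μ =
      -‖c.E.e (c.S.DC φ)‖ ^ 2 := by
    have h3 := integral_re i2
    have h4 := c.E.ip (c.S.DC (c.S.DC φ)) φ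
    rw [e_skew c.E hL c.vol, inner_self_eq_norm_sq_to_K] at h4
    unfold ipr at h4
    have h5 : ∫ x, (hp c.C (c.S.DC (c.S.DC φ) : Raw Γ I n V) (φ : Raw Γ I n V) x).re ∂c.μ =
      (∫ x, hp c.C (c.S.DC (c.S.DC φ) : Raw Γ I n V) (φ : Raw Γ I n V) x ∂c.μ).re := h3
    rw [h5, ← h4]
    norm_cast
  have i2' : Integrable (fun x => -(hp c.C (c.S.DC (c.S.DC φ) : Raw Γ I n V)
    (φ : Raw Γ I n V) x).re) c.μ := i2.re.neg
  have i3' : Integrable (fun x => 1 / 2 * lapX c.C c.G u x) c.μ := i3.const_mul _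
  have i1' : Integrable (fun x => κ / 4 * u x) c.μ := i1.const_mul _
  have i23 : Integrable (fun x => -(hp c.C (c.S.DC (c.S.DC φ) : Raw Γ I n V)
    (φ : Raw Γ I n V) x).re + 1 / 2 * lapX c.C c.G u x) c.μ := i2'.add i3'
  refine ⟨fun x => -(hp c.C (c.S.DC (c.S.DC φ) : Raw Γ I n V) (φ : Raw Γ I n V) x).re +
    1 / 2 * lapX c.C c.G u x + κ / 4 * u x, i23.add i1', fun x => ?_, ?_⟩
  · obtain ⟨-, l2, l3, -⟩ := hL n V c.K (c.G (c.C.pi x)) (c.S.β (c.C.pi x)) (c.S.met.smooth _)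
      (c.S.met.pos _) (c.S.fr _)
    have hφs := φ.2.smooth (c.C.pg x) (c.C.pi x)
    have b1 := l2 _ hφs (c.C.py x)
    have e2 : c.C.rep u (c.C.pg x) (c.C.pi x) =
        fun y => ‖(φ : Raw Γ I n V) (c.C.pg x) (c.C.pi x) y‖ ^ 2 := by
      funext y
      unfold Cov.rep
      rw [hu]
      simp only
      rw [φ.2.nm_chart]
    have e7 : lapX c.C c.G u x = lap (c.G (c.C.pi x))
      (fun y => ‖(φ : Raw Γ I n V) (c.C.pg x) (c.C.pi x) y‖ ^ 2) (c.C.py x) := by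
      rw [← e2]; rfl
    have e8 : u x = ‖(φ : Raw Γ I n V) (c.C.pg x) (c.C.pi x) (c.C.py x)‖ ^ 2 := rfl
    have e9 : hp c.C (c.S.DC (c.S.DC φ) : Raw Γ I n V) (φ : Raw Γ I n V) x =
        ⟪dir c.K (c.G (c.C.pi x)) (c.S.β (c.C.pi x)) (dir c.K (c.G (c.C.pi x))
          (c.S.β (c.C.pi x)) ((φ : Raw Γ I n V) (c.C.pg x) (c.C.pi x))) (c.C.py x),
          (φ : Raw Γ I n V) (c.C.pg x) (c.C.pi x) (c.C.py x)⟫_ℂ := rfl
    have h3 := hs (c.C.pi x) (c.C.py x)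
    have h4 : 0 ≤ u x := by rw [e8]; positivity
    change _ ≤ -(hp c.C (c.S.DC (c.S.DC φ) : Raw Γ I n V) (φ : Raw Γ I n V) x).re +
      1 / 2 * lapX c.C c.G u x + κ / 4 * u x
    rw [e9, e7]
    rw [← e8] at b1
    nlinarith
  · rw [integral_add i23 i1', integral_add i2' i3', integral_neg, z3, integral_const_mul, z1,
      integral_const_mul, ← (H620.norm_sq_e c.E c.vol φ).2]
    ring

theorem supPB (hL : SpecLocal) {κ δ a : ℝ} {F : ℝ → ℝ} (ha : 0 < a)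
    (hs : ∀ i y, -κ ≤ Vale.Agent.P223.H.scal (c.G i) y) (hF : Tst δ F) :
    ∃ B : ℝ, 0 ≤ B ∧ ∀ (φ η : Core c.S)
    (hf : c.C.Ck ∞ (fun x => F (pf c.C a (φ : Raw Γ I n V) (η : Raw Γ I n V) x))),
    ‖c.E.e (c.S.DC (c.S.mC _ hf φ))‖ ^ 2 ≤ B * (‖c.E.e φ‖ ^ 2 + ‖c.E.e (c.S.DC φ)‖ ^ 2 +
      (‖c.E.e η‖ ^ 2 + ‖c.E.e (c.S.DC η)‖ ^ 2)) ∧
    ‖c.E.e (c.S.DC (c.S.mC _ hf η))‖ ^ 2 ≤ B * (‖c.E.e φ‖ ^ 2 + ‖c.E.e (c.S.DC φ)‖ ^ 2 +
      (‖c.E.e η‖ ^ 2 + ‖c.E.e (c.S.DC η)‖ ^ 2)) := by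
  obtain ⟨C1, hC1, h1⟩ := H620.bdd_tderiv hF
  -- the pointwise estimate
  have pt : ∀ (φ η : Core c.S) (x : X),
      gsX c.C c.G (fun x => F (pf c.C a (φ : Raw Γ I n V) (η : Raw Γ I n V) x)) x *
        pf c.C a (φ : Raw Γ I n V) (η : Raw Γ I n V) x ≤ 8 * C1 ^ 2 *
      (nsq c.K (c.G (c.C.pi x)) (c.S.β (c.C.pi x))
        ((φ : Raw Γ I n V) (c.C.pg x) (c.C.pi x)) (c.C.py x) +
       a * nsq c.K (c.G (c.C.pi x)) (c.S.β (c.C.pi x))
        ((η : Raw Γ I n V) (c.C.pg x) (c.C.pi x)) (c.C.py x)) := by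
    intro φ η x
    obtain ⟨-, -, l3, -⟩ := hL n V c.K (c.G (c.C.pi x)) (c.S.β (c.C.pi x)) (c.S.met.smooth _)
      (c.S.met.pos _) (c.S.fr _)
    have hφs := φ.2.smooth (c.C.pg x) (c.C.pi x)
    have hηs := η.2.smooth (c.C.pg x) (c.C.pi x)
    obtain ⟨b1, b2⟩ := l3 _ hφs (c.C.py x)
    obtain ⟨b3, b4⟩ := l3 _ hηs (c.C.py x)
    have := gs_pf (a := a) (F := F) (c.S.met.pos (c.C.pi x) (c.C.py x))
      (((hφs.norm_sq ℂ).differentiable (by simp)) _)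
      (((hηs.norm_sq ℂ).differentiable (by simp)) _) (by positivity) (by positivity) ha.le b1 b3
      (hF.smooth.differentiable (by simp)) b2 b4 h1
    refine le_trans (le_of_eq ?_) this
    congr 1
    have e2 : c.C.rep (fun x => F (pf c.C a (φ : Raw Γ I n V) (η : Raw Γ I n V) x))
        (c.C.pg x) (c.C.pi x) = fun y => F (‖(φ : Raw Γ I n V) (c.C.pg x) (c.C.pi x) y‖ ^ 2 +
          a * ‖(η : Raw Γ I n V) (c.C.pg x) (c.C.pi x) y‖ ^ 2) := by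
      funext y
      change F (nm c.C (φ : Raw Γ I n V) _ ^ 2 + a * nm c.C (η : Raw Γ I n V) _ ^ 2) = _
      rw [φ.2.nm_chart, η.2.nm_chart]
    change gradSq _ (c.C.rep (fun x => F (pf c.C a (φ : Raw Γ I n V) (η : Raw Γ I n V) x))
      (c.C.pg x) (c.C.pi x)) _ = _
    rw [e2]
  -- Clifford multiplication by `d F(f)`
  have cl : ∀ (φ η ψ : Core c.S)
      (hf : c.C.Ck ∞ (fun x => F (pf c.C a (φ : Raw Γ I n V) (η : Raw Γ I n V) x))) (t : ℝ),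
      0 ≤ t → (∀ x, nm c.C (ψ : Raw Γ I n V) x ^ 2 ≤
        t * pf c.C a (φ : Raw Γ I n V) (η : Raw Γ I n V) x) →
      ‖c.E.e (c.S.cC _ hf ψ)‖ ^ 2 ≤ t * (8 * C1 ^ 2 * ((1 + a) * (1 + |κ|))) *
        (‖c.E.e φ‖ ^ 2 + ‖c.E.e (c.S.DC φ)‖ ^ 2 + (‖c.E.e η‖ ^ 2 + ‖c.E.e (c.S.DC η)‖ ^ 2)) := by
    intro φ η ψ hf t ht hψ
    obtain ⟨N1, j1, j2, j3⟩ := exists_maj c hL hs φ
    obtain ⟨N2, k1, k2, k3⟩ := exists_maj c hL hs η
    rw [(H620.norm_sq_e c.E c.vol _).2]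
    have hi : Integrable (fun x => t * (8 * C1 ^ 2 * (N1 x + a * N2 x))) c.μ :=
      ((j1.add (k1.const_mul a)).const_mul _).const_mul _
    have hle : ∀ x, nm c.C (c.S.cC _ hf ψ : Raw Γ I n V) x ^ 2 ≤
        t * (8 * C1 ^ 2 * (N1 x + a * N2 x)) := by
      intro x
      have e1 : nm c.C (c.S.cC _ hf ψ : Raw Γ I n V) x ^ 2 =
          gsX c.C c.G (fun x => F (pf c.C a (φ : Raw Γ I n V) (η : Raw Γ I n V) x)) x *
            nm c.C (ψ : Raw Γ I n V) x ^ 2 := by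
        have := H620.nm_cl (S := c.S) hL
          (fun x => F (pf c.C a (φ : Raw Γ I n V) (η : Raw Γ I n V) x)) (ψ : Raw Γ I n V) x
        change nm c.C (c.S.clR _ _) x ^ 2 = _
        rw [this, mul_pow, Real.sq_sqrt (gsX_nonneg c.S.met _ x)]
      rw [e1]
      have h0 := gsX_nonneg c.S.met
        (fun x => F (pf c.C a (φ : Raw Γ I n V) (η : Raw Γ I n V) x)) x
      calc _ ≤ gsX c.C c.G (fun x => F (pf c.C a (φ : Raw Γ I n V) (η : Raw Γ I n V) x)) x *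
            (t * pf c.C a (φ : Raw Γ I n V) (η : Raw Γ I n V) x) :=
            mul_le_mul_of_nonneg_left (hψ x) h0
        _ = t * (gsX c.C c.G (fun x => F (pf c.C a (φ : Raw Γ I n V) (η : Raw Γ I n V) x)) x *
            pf c.C a (φ : Raw Γ I n V) (η : Raw Γ I n V) x) := by ring
        _ ≤ t * (8 * C1 ^ 2 * (N1 x + a * N2 x)) := by
            refine mul_le_mul_of_nonneg_left ((pt φ η x).trans ?_) ht
            have := j2 x
            have := k2 x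
            gcongr
    refine (integral_mono (H620.norm_sq_e c.E c.vol _).1 hi hle).trans ?_
    rw [integral_const_mul, integral_const_mul, integral_add j1 (k1.const_mul a), j3,
      integral_const_mul, k3, mul_assoc t]
    refine mul_le_mul_of_nonneg_left ?_ ht
    rw [mul_assoc (8 * C1 ^ 2)]
    refine mul_le_mul_of_nonneg_left ?_ (by positivity)
    have p1 := sq_nonneg ‖c.E.e φ‖
    have p2 := sq_nonneg ‖c.E.e (c.S.DC φ)‖
    have p3 := sq_nonneg ‖c.E.e η‖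
    have p4 := sq_nonneg ‖c.E.e (c.S.DC η)‖
    generalize ‖c.E.e φ‖ ^ 2 = A1 at *
    generalize ‖c.E.e (c.S.DC φ)‖ ^ 2 = A2 at *
    generalize ‖c.E.e η‖ ^ 2 = A3 at *
    generalize ‖c.E.e (c.S.DC η)‖ ^ 2 = A4 at *
    have hk := le_abs_self κ
    have hk0 := abs_nonneg κ
    have q1 : A2 + κ / 4 * A1 ≤ (1 + |κ|) * (A1 + A2) := by nlinarith
    have q2 : A4 + κ / 4 * A3 ≤ (1 + |κ|) * (A3 + A4) := by nlinarith
    have q3 : a * (A4 + κ / 4 * A3) ≤ a * ((1 + |κ|) * (A3 + A4)) :=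
      mul_le_mul_of_nonneg_left q2 ha.le
    have q4 : 0 ≤ a * ((1 + |κ|) * (A1 + A2)) := by positivity
    have q5 : 0 ≤ (1 + |κ|) * (A3 + A4) := by positivity
    nlinarith
  have mul : ∀ (φ η ψ : Core c.S)
      (hf : c.C.Ck ∞ (fun x => F (pf c.C a (φ : Raw Γ I n V) (η : Raw Γ I n V) x))),
      ‖c.E.e (c.S.DC (c.S.mC _ hf ψ))‖ ^ 2 ≤ 2 * ‖c.E.e (c.S.DC ψ)‖ ^ 2 +
        2 * ‖c.E.e (c.S.cC _ hf ψ)‖ ^ 2 := by
    intro φ η ψ hf
    have e1 : c.S.DC (c.S.mC _ hf ψ) = c.S.mC _ hf (c.S.DC ψ) + c.S.cC _ hf ψ := c.S.DC_mC hf ψ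
    have h2 : ‖c.E.e (c.S.mC _ hf (c.S.DC ψ))‖ ≤ 1 * ‖c.E.e (c.S.DC ψ)‖ := by
      refine H620.norm_e_le c.E c.vol zero_le_one fun x => ?_
      rw [nm_mC]
      refine mul_le_mul_of_nonneg_right ?_ (norm_nonneg _)
      rw [abs_of_nonneg (hF.nonneg _)]
      exact hF.le _
    rw [one_mul] at h2
    rw [e1, map_add]
    have h3 : ‖c.E.e (c.S.mC _ hf (c.S.DC ψ)) + c.E.e (c.S.cC _ hf ψ)‖ ≤
        ‖c.E.e (c.S.DC ψ)‖ + ‖c.E.e (c.S.cC _ hf ψ)‖ :=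
      (norm_add_le _ _).trans (add_le_add h2 le_rfl)
    have h4 := pow_le_pow_left₀ (norm_nonneg _) h3 2
    nlinarith [sq_nonneg (‖c.E.e (c.S.DC ψ)‖ - ‖c.E.e (c.S.cC _ hf ψ)‖)]
  have hainv : 0 ≤ a⁻¹ := (inv_pos.2 ha).le
  refine ⟨2 + 2 * ((1 + a⁻¹) * (8 * C1 ^ 2 * ((1 + a) * (1 + |κ|)))), by positivity,
    fun φ η hf => ⟨?_, ?_⟩⟩
  · have h2 := cl φ η φ hf 1 zero_le_one fun x => by
      unfold pf
      have := mul_nonneg ha.le (sq_nonneg (nm c.C (η : Raw Γ I n V) x))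
      linarith
    have h3 := mul φ η φ hf
    have p1 := sq_nonneg ‖c.E.e φ‖
    have p2 := sq_nonneg ‖c.E.e (c.S.DC φ)‖
    have p3 := sq_nonneg ‖c.E.e η‖
    have p4 := sq_nonneg ‖c.E.e (c.S.DC η)‖
    set A := ‖c.E.e φ‖ ^ 2 + ‖c.E.e (c.S.DC φ)‖ ^ 2 +
      (‖c.E.e η‖ ^ 2 + ‖c.E.e (c.S.DC η)‖ ^ 2) with hA
    have q1 : 0 ≤ a⁻¹ * (8 * C1 ^ 2 * ((1 + a) * (1 + |κ|))) * A := by positivity
    have q2 : ‖c.E.e (c.S.DC φ)‖ ^ 2 ≤ A := by linarith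
    nlinarith
  · have h2 := cl φ η η hf a⁻¹ hainv fun x => by
      unfold pf
      rw [mul_add, ← mul_assoc, inv_mul_cancel₀ ha.ne', one_mul]
      have := mul_nonneg hainv (sq_nonneg (nm c.C (φ : Raw Γ I n V) x))
      linarith
    have h3 := mul φ η η hf
    have p1 := sq_nonneg ‖c.E.e φ‖
    have p2 := sq_nonneg ‖c.E.e (c.S.DC φ)‖
    have p3 := sq_nonneg ‖c.E.e η‖
    have p4 := sq_nonneg ‖c.E.e (c.S.DC η)‖
    set A := ‖c.E.e φ‖ ^ 2 + ‖c.E.e (c.S.DC φ)‖ ^ 2 +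
      (‖c.E.e η‖ ^ 2 + ‖c.E.e (c.S.DC η)‖ ^ 2) with hA
    have q1 : 0 ≤ 1 * (8 * C1 ^ 2 * ((1 + a) * (1 + |κ|))) * A := by positivity
    have q2 : ‖c.E.e (c.S.DC η)‖ ^ 2 ≤ A := by linarith
    nlinarith

end

end Vale.Agent.P223.H391
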