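import Vale.Agent.P223.H391.SupPB

/-! Sup bound for `p = D g`: the limit. -/

namespace Vale.Agent.P223.H391

open scoped ContDiff InnerProductSpace Topology
open MeasureTheory Vale.Agent.P223.H Vale.Agent.P223.X Vale.Agent.P223.H566

section
variable {n : ℕ} {M X Γ I V H : Type} [TopologicalSpace M] [TopologicalSpace X]
  [Group Γ] [MulAction Γ X] [Fintype I] [T2Space X] [ConnectedSpace X] [T2Space M]
  [MeasurableSpace X] [BorelSpace X] [NormedAddCommGroup V] [InnerProductSpace ℂ V]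
  [FiniteDimensional ℂ V] [NormedAddCommGroup H] [InnerProductSpace ℂ H] [CompleteSpace H]
  {c : Ctx n M X Γ I V H}

/-- linear combinations -/
theorem gr_lin {v w v' w' : H} (a b : ℂ) (h : Gr c.E v w) (h' : Gr c.E v' w') :
    Gr c.E (a • v + b • v') (a • w + b • w') := by
  have hc1 : ∀ φ' : Core c.S, Gr c.E (a • v + b • c.E.e φ') (a • w + b • c.E.e (c.S.DC φ')) := by
    intro φ'
    refine h.ind (P := {q : H × H | (a • q.1 + b • c.E.e φ', a • q.2 + b • c.E.e (c.S.DC φ')) ∈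
      closure (Set.range fun φ : Core c.S => (c.E.e φ, c.E.e (c.S.DC φ)))})
      (isClosed_closure.preimage (((continuous_fst.const_smul a).add continuous_const).prodMk
        ((continuous_snd.const_smul a).add continuous_const))) fun φ => ?_
    have := Gr.core c.E (a • φ + b • φ')
    rw [map_add, map_add, map_smul, map_smul, map_add, map_smul, map_smul, map_smul,
      map_smul] at this
    exact this
  exact h'.ind (P := {q : H × H | (a • v + b • q.1, a • w + b • q.2) ∈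
      closure (Set.range fun φ : Core c.S => (c.E.e φ, c.E.e (c.S.DC φ)))})
      (isClosed_closure.preimage ((continuous_const.add (continuous_fst.const_smul b)).prodMk
        (continuous_const.add (continuous_snd.const_smul b)))) hc1

/-- Uniqueness for the equation `(m² - D²) v = y`. -/
theorem rsv_unique {m : ℝ} (hm : 0 < m) {g p : H →L[ℂ] H} (hR : Rsv c.E m g p) {v w z : H}
    (h1 : Gr c.E v w) (h2 : Gr c.E w z) :
    g ((m : ℂ) ^ 2 • v - z) = v ∧ p ((m : ℂ) ^ 2 • v - z) = w := by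
  obtain ⟨sp, sm, e1, e2, -, -, hg, hp⟩ := hR.ex
  have a1 := h1.sp (r := (m : ℂ)) e1
  have a2 := h2.sp (r := (m : ℂ)) e1
  have b1 := h1.sm (r := (m : ℂ)) e2
  have b2 := h2.sm (r := (m : ℂ)) e2
  have c1 : sp ((m : ℂ) ^ 2 • v - z) = (m : ℂ) • v - w := by
    have : (m : ℂ) ^ 2 • v - z = (m : ℂ) • ((m : ℂ) • v + w) - ((m : ℂ) • w + z) := by module
    rw [this, map_sub, map_smul, a1, a2]
  have c2 : sm ((m : ℂ) ^ 2 • v - z) = (m : ℂ) • v + w := by
    have : (m : ℂ) ^ 2 • v - z = (m : ℂ) • ((m : ℂ) • v - w) + ((m : ℂ) • w - z) := by module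
    rw [this, map_add, map_smul, b1, b2]
  have hm2 : ((1 / (2 * m) : ℝ) : ℂ) * (2 * m) = 1 := by
    push_cast
    have : (m : ℂ) ≠ 0 := by exact_mod_cast hm.ne'
    field_simp
  constructor
  · rw [hg, smul_apply, add_apply, c1, c2]
    have : (m : ℂ) • v - w + ((m : ℂ) • v + w) = (2 * (m : ℂ)) • v := by module
    rw [this, smul_smul, hm2, one_smul]
  · rw [hp, smul_apply, sub_apply, c1, c2]
    have : (m : ℂ) • v + w - ((m : ℂ) • v - w) = (2 : ℂ) • w := by module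
    rw [this, smul_smul]
    norm_num

/-- resolvent identities -/
theorem res_id (hD : SpecDense) {m m' : ℝ} (hm : 0 < m) (hm' : 0 < m') {g p g' p' : H →L[ℂ] H}
    (hR : Rsv c.E m g p) (hR' : Rsv c.E m' g' p') (x : H) :
    g x = g' x + ((m' : ℂ) ^ 2 - (m : ℂ) ^ 2) • g (g' x) ∧
      p x = p' x + ((m' : ℂ) ^ 2 - (m : ℂ) ^ 2) • p (g' x) := by
  obtain ⟨h1, h2⟩ := gr_gp hD hm' hR' x
  obtain ⟨e1, e2⟩ := rsv_unique hm hR h1 h2
  have e3 : (m : ℂ) ^ 2 • g' x - ((m' : ℂ) ^ 2 • g' x - x) =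
      x - ((m' : ℂ) ^ 2 - (m : ℂ) ^ 2) • g' x := by module
  rw [e3, map_sub, map_smul] at e1 e2
  constructor
  · exact sub_eq_iff_eq_add.1 e1
  · exact sub_eq_iff_eq_add.1 e2

/-- weak equation -/
theorem weak_gr (hL : SpecLocal) {m : ℝ} {v w z : H} (h : Gr c.E w z) (ψ : Core c.S) :
    (m : ℂ) ^ 2 * ⟪v, c.E.e ψ⟫_ℂ + ⟪w, c.E.e (c.S.DC ψ)⟫_ℂ =
      ⟪(m : ℂ) ^ 2 • v - z, c.E.e ψ⟫_ℂ := by
  have h := gr_skew hL h ψ
  rw [inner_sub_left, inner_smul_left]
  simp only [map_pow, Complex.conj_ofReal]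
  linear_combination h

/-- conclusion: if `F(f_j)` is small in the mean then the limit is bounded -/
theorem wb_of_lim {t c' δ : ℝ} (hc' : 0 < c') (ht : 0 ≤ t) {F : ℝ → ℝ} (hF : Tst δ F)
    (hF1 : ∀ s, c' ^ 2 ≤ s → F s = 1) {v : H} {ψ : ℕ → Core c.S} {f : ℕ → X → ℝ}
    (hf : ∀ j, Continuous (f j))
    (hψ : ∀ j x, nm c.C (ψ j : Raw Γ I n V) x ^ 2 ≤ t ^ 2 * f j x)
    (hlim : Filter.Tendsto (fun j => c.E.e (ψ j)) Filter.atTop (𝓝 v))
    (hJ : Filter.Tendsto (fun j => ∫ x, F (f j x) * nm c.C (ψ j : Raw Γ I n V) x ^ 2 ∂c.μ)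
      Filter.atTop (𝓝 0)) : WB c.E (fun _ => 1) (t * c') v := by
  intro θ
  suffices hε : ∀ ε : ℝ, 0 < ε → ‖⟪v, c.E.e θ⟫_ℂ‖ ≤
      t * c' * (∫ x, 1 * nm c.C (θ : Raw Γ I n V) x ∂c.μ) + ε / 2 * ‖c.E.e θ‖ ^ 2 by
    have hlim : Filter.Tendsto (fun ε : ℝ => t * c' * (∫ x, 1 * nm c.C (θ : Raw Γ I n V) x ∂c.μ) +
        ε / 2 * ‖c.E.e θ‖ ^ 2) (𝓝[>] 0)
        (𝓝 (t * c' * (∫ x, 1 * nm c.C (θ : Raw Γ I n V) x ∂c.μ) + 0 / 2 * ‖c.E.e θ‖ ^ 2)) :=
      ((continuous_const.add ((continuous_id.div_const 2).mul continuous_const)).tendsto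
        0).mono_left nhdsWithin_le_nhds
    rw [zero_div, zero_mul, add_zero] at hlim
    refine ge_of_tendsto hlim ?_
    filter_upwards [self_mem_nhdsWithin] with ε hε' using hε ε hε'
  intro ε hε
  have hfin := finComp c.S.met c.vol
  have i1 : Integrable (fun x => 1 * nm c.C (θ : Raw Γ I n V) x) c.μ :=
    integrable_f θ continuous_const
  have i2 : Integrable (fun x => nm c.C (θ : Raw Γ I n V) x ^ 2) c.μ :=
    (H620.norm_sq_e c.E c.vol θ).1
  have hint : ∀ j, Integrable (fun x => F (f j x) * nm c.C (ψ j : Raw Γ I n V) x ^ 2) c.μ := by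
    intro j
    have := integrable_f (c := c) (ψ j) ((hF.smooth.continuous.comp (hf j)).mul
      (ψ j).2.continuous_nm)
    refine this.congr (Filter.Eventually.of_forall fun x => ?_)
    simp only [Pi.mul_apply, Function.comp_apply]
    ring
  have hbound : ∀ j, ‖⟪c.E.e (ψ j), c.E.e θ⟫_ℂ‖ ≤
      t * c' * (∫ x, 1 * nm c.C (θ : Raw Γ I n V) x ∂c.μ) +
      1 / (2 * ε) * (∫ x, F (f j x) * nm c.C (ψ j : Raw Γ I n V) x ^ 2 ∂c.μ) +
        ε / 2 * ‖c.E.e θ‖ ^ 2 := by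
    intro j
    rw [c.E.ip, norm_e_sq c.E]
    unfold ipr
    refine (norm_integral_le_integral_norm _).trans ?_
    have i3 : Integrable (fun x => t * c' * (1 * nm c.C (θ : Raw Γ I n V) x) + 1 / (2 * ε) *
        (F (f j x) * nm c.C (ψ j : Raw Γ I n V) x ^ 2)) c.μ :=
      (i1.const_mul _).add ((hint j).const_mul _)
    rw [← integral_const_mul, ← integral_const_mul, ← integral_const_mul,
      ← integral_add (i1.const_mul _) ((hint j).const_mul _),
      ← integral_add i3 (i2.const_mul _)]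
    refine integral_mono (((ψ j).2.integrable_hp θ.2 c.vol).norm)
      (i3.add (i2.const_mul _)) fun x => ?_
    simp only
    have h5 : ‖hp c.C (ψ j : Raw Γ I n V) (θ : Raw Γ I n V) x‖ ≤
      nm c.C (ψ j : Raw Γ I n V) x * nm c.C (θ : Raw Γ I n V) x := norm_inner_le_norm _ _
    refine h5.trans ?_
    have h4 := hψ j x
    have hN0 : 0 ≤ nm c.C (ψ j : Raw Γ I n V) x := norm_nonneg _
    have hT0 : 0 ≤ nm c.C (θ : Raw Γ I n V) x := norm_nonneg _
    generalize nm c.C (ψ j : Raw Γ I n V) x = N at *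
    generalize nm c.C (θ : Raw Γ I n V) x = T at *
    have hf0 := hF.nonneg (f j x)
    by_cases hq : c' ^ 2 ≤ f j x
    · rw [hF1 _ hq]
      have h6 : N * T ≤ 1 / (2 * ε) * (1 * N ^ 2) + ε / 2 * T ^ 2 := by
        have h7 : 1 / (2 * ε) * (1 * N ^ 2) + ε / 2 * T ^ 2 - N * T =
            (N - ε * T) ^ 2 / (2 * ε) := by field_simp; ring
        have h8 : 0 ≤ (N - ε * T) ^ 2 / (2 * ε) := by positivity
        linarith
      have h9 : 0 ≤ t * c' * (1 * T) := by positivity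
      linarith
    · push Not at hq
      have hNw : N ≤ t * c' := by
        refine (abs_le_of_sq_le_sq' (h4.trans ?_) (by positivity)).2
        rw [mul_pow]
        exact mul_le_mul_of_nonneg_left hq.le (by positivity)
      have h6 : N * T ≤ t * c' * (1 * T) := by
        rw [one_mul]
        exact mul_le_mul_of_nonneg_right hNw hT0
      have h7 : 0 ≤ 1 / (2 * ε) * (F (f j x) * N ^ 2) := by positivity
      have h8 : 0 ≤ ε / 2 * T ^ 2 := by positivity
      linarith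
  have t1 : Filter.Tendsto (fun j => ‖⟪c.E.e (ψ j), c.E.e θ⟫_ℂ‖) Filter.atTop
      (𝓝 ‖⟪v, c.E.e θ⟫_ℂ‖) := (hlim.inner tendsto_const_nhds).norm
  have t2 : Filter.Tendsto (fun j => t * c' * (∫ x, 1 * nm c.C (θ : Raw Γ I n V) x ∂c.μ) +
      1 / (2 * ε) * (∫ x, F (f j x) * nm c.C (ψ j : Raw Γ I n V) x ^ 2 ∂c.μ) +
        ε / 2 * ‖c.E.e θ‖ ^ 2) Filter.atTop
      (𝓝 (t * c' * (∫ x, 1 * nm c.C (θ : Raw Γ I n V) x ∂c.μ) + 1 / (2 * ε) * 0 +
        ε / 2 * ‖c.E.e θ‖ ^ 2)) :=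
    ((hJ.const_mul _).const_add _).add_const _
  rw [mul_zero, add_zero] at t2
  exact le_of_tendsto_of_tendsto' t1 t2 hbound

end

end Vale.Agent.P223.H391
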