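import Vale.Agent.P223.H391.SupPC

/-! Sup bound for `p = D g`: the estimate for `p g'`. -/

namespace Vale.Agent.P223.H391

open scoped ContDiff InnerProductSpace Topology
open MeasureTheory Vale.Agent.P223.H Vale.Agent.P223.X Vale.Agent.P223.H566

section
variable {n : ℕ} {M X Γ I V H : Type} [TopologicalSpace M] [TopologicalSpace X]
  [Group Γ] [MulAction Γ X] [Fintype I] [T2Space X] [ConnectedSpace X] [T2Space M]
  [MeasurableSpace X] [BorelSpace X] [NormedAddCommGroup V] [InnerProductSpace ℂ V]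
  [FiniteDimensional ℂ V] [NormedAddCommGroup H] [InnerProductSpace ℂ H] [CompleteSpace H]
  {c : Ctx n M X Γ I V H}

/-- one step -/
theorem pg_step (hL : SpecLocal) {κ m m' : ℝ}
    (hs : ∀ i y, -κ ≤ Vale.Agent.P223.H.scal (c.G i) y) {σ a : ℝ} (ha : 0 < a)
    (h1 : σ ≤ m' ^ 2 - κ / 4) (h2 : σ ≤ m ^ 2 - κ / 4 - a * n / 4) {b c₀ : ℝ} (hb : 0 ≤ b)
    (hc₀ : 0 < c₀) {u v w v₂ w₂ : H} (hu : WB c.E (fun _ => 1) b u)
    (e1 : ∀ ψ : Core c.S, (m' : ℂ) ^ 2 * ⟪v, c.E.e ψ⟫_ℂ + ⟪w, c.E.e (c.S.DC ψ)⟫_ℂ =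
      ⟪u, c.E.e ψ⟫_ℂ)
    (e2 : ∀ ψ : Core c.S, (m : ℂ) ^ 2 * ⟪v₂, c.E.e ψ⟫_ℂ + ⟪w₂, c.E.e (c.S.DC ψ)⟫_ℂ =
      ⟪w, c.E.e ψ⟫_ℂ) {F : ℝ → ℝ} (hF : Tst (c₀ ^ 2) F) (φ η : Core c.S)
    (hf : c.C.Ck ∞ (fun x => F (pf c.C a (φ : Raw Γ I n V) (η : Raw Γ I n V) x))) :
    (σ - b / c₀) * ∫ x, F (pf c.C a (φ : Raw Γ I n V) (η : Raw Γ I n V) x) *
        pf c.C a (φ : Raw Γ I n V) (η : Raw Γ I n V) x ∂c.μ ≤
      m' ^ 2 * (‖c.E.e φ - v‖ * ‖c.E.e φ‖) +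
        ‖c.E.e (c.S.DC φ) - w‖ * ‖c.E.e (c.S.DC (c.S.mC _ hf φ))‖ +
      a * (m ^ 2 * (‖c.E.e η - v₂‖ * ‖c.E.e η‖) +
        ‖c.E.e (c.S.DC η) - w₂‖ * ‖c.E.e (c.S.DC (c.S.mC _ hf η))‖) +
      a * (‖c.E.e (c.S.DC φ) - w‖ * ‖c.E.e η‖) := by
  have hA := supPA c (m := m) (m' := m') hL ha.le hs hF φ η hf
  -- norms
  have nrm : ∀ ψ : Core c.S, ‖c.E.e (c.S.mC _ hf ψ)‖ ≤ ‖c.E.e ψ‖ := by
    intro ψ
    have := H620.norm_e_le c.E c.vol (φ := c.S.mC _ hf ψ) (ψ := ψ) zero_le_one fun x => by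
      rw [nm_mC]
      refine mul_le_mul_of_nonneg_right ?_ (norm_nonneg _)
      rw [abs_of_nonneg (hF.nonneg _)]
      exact hF.le _
    rwa [one_mul] at this
  set f : X → ℝ := pf c.C a (φ : Raw Γ I n V) (η : Raw Γ I n V) with hfd
  set ψ₁ := c.S.mC _ hf φ with hψ₁
  set ψ₂ := c.S.mC _ hf η with hψ₂
  have hFc : Continuous (fun x => F (f x)) :=
    Ck_continuous c.C fun γ i => contDiff_infty.1 (hf γ i) 0
  have i1 := int_g_hp c hFc φ φ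
  have i3 := int_g_hp c hFc η η
  have q1 : ∀ x, nm c.C (φ : Raw Γ I n V) x ^ 2 =
    (hp c.C (φ : Raw Γ I n V) (φ : Raw Γ I n V) x).re := fun x => H391.nm_sq _ _
  have q3 : ∀ x, nm c.C (η : Raw Γ I n V) x ^ 2 =
    (hp c.C (η : Raw Γ I n V) (η : Raw Γ I n V) x).re := fun x => H391.nm_sq _ _
  simp only [← q1] at i1
  simp only [← q3] at i3
  have iS : Integrable (fun x => F (f x) * f x) c.μ := by
    refine (i1.add (i3.const_mul a)).congr (Filter.Eventually.of_forall fun x => ?_)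
    simp only [Pi.add_apply]
    rw [hfd]
    unfold pf
    ring
  -- left hand side
  have l1 : σ * ∫ x, F (f x) * f x ∂c.μ ≤
      ∫ x, F (f x) * ((m' ^ 2 - κ / 4) * nm c.C (φ : Raw Γ I n V) x ^ 2 +
        a * ((m ^ 2 - κ / 4 - a * n / 4) * nm c.C (η : Raw Γ I n V) x ^ 2)) ∂c.μ := by
    rw [← integral_const_mul]
    have hi : Integrable (fun x => F (f x) * ((m' ^ 2 - κ / 4) *
        nm c.C (φ : Raw Γ I n V) x ^ 2 +
        a * ((m ^ 2 - κ / 4 - a * n / 4) * nm c.C (η : Raw Γ I n V) x ^ 2))) c.μ := by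
      refine ((i1.const_mul (m' ^ 2 - κ / 4)).add
        (i3.const_mul (a * (m ^ 2 - κ / 4 - a * n / 4)))).congr
        (Filter.Eventually.of_forall fun x => ?_)
      simp only [Pi.add_apply]
      ring
    refine integral_mono (iS.const_mul _) hi fun x => ?_
    have hF0 := hF.nonneg (f x)
    have hx : f x = nm c.C (φ : Raw Γ I n V) x ^ 2 + a * nm c.C (η : Raw Γ I n V) x ^ 2 := rfl
    simp only
    rw [mul_left_comm]
    refine mul_le_mul_of_nonneg_left ?_ hF0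
    rw [hx]
    have r1 := mul_le_mul_of_nonneg_right h1 (sq_nonneg (nm c.C (φ : Raw Γ I n V) x))
    have r2 := mul_le_mul_of_nonneg_left (mul_le_mul_of_nonneg_right h2
      (sq_nonneg (nm c.C (η : Raw Γ I n V) x))) ha.le
    linarith
  -- the main term
  have l2 : (⟪u, c.E.e ψ₁⟫_ℂ).re ≤ b / c₀ * ∫ x, F (f x) * f x ∂c.μ := by
    have s1 : (⟪u, c.E.e ψ₁⟫_ℂ).re ≤ b * ∫ x, 1 * nm c.C (ψ₁ : Raw Γ I n V) x ∂c.μ :=
      (Complex.re_le_norm _).trans (hu ψ₁)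
    refine s1.trans ?_
    rw [← integral_const_mul, ← integral_const_mul]
    refine integral_mono ((integrable_f ψ₁ continuous_const).const_mul b) (iS.const_mul _)
      fun x => ?_
    simp only
    rw [hψ₁, nm_mC, abs_of_nonneg (hF.nonneg _), one_mul]
    have hN0 : 0 ≤ nm c.C (φ : Raw Γ I n V) x := norm_nonneg _
    have hx : f x = nm c.C (φ : Raw Γ I n V) x ^ 2 + a * nm c.C (η : Raw Γ I n V) x ^ 2 := rfl
    by_cases hq : f x ≤ c₀ ^ 2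
    · change b * (F (f x) * _) ≤ b / c₀ * (F (f x) * f x)
      rw [hF.zero _ hq]; simp
    · push Not at hq
      have hf0 : 0 ≤ f x := (sq_nonneg _).trans hq.le
      have s2 : c₀ * nm c.C (φ : Raw Γ I n V) x ≤ f x := by
        have s3 : nm c.C (φ : Raw Γ I n V) x ^ 2 ≤ f x := by
          rw [hx]
          have := mul_nonneg ha.le (sq_nonneg (nm c.C (η : Raw Γ I n V) x))
          linarith
        have s4 : c₀ ≤ √(f x) := Real.le_sqrt_of_sq_le hq.le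
        have s5 : nm c.C (φ : Raw Γ I n V) x ≤ √(f x) := Real.le_sqrt_of_sq_le s3
        calc c₀ * nm c.C (φ : Raw Γ I n V) x ≤ √(f x) * √(f x) :=
              mul_le_mul s4 s5 hN0 (Real.sqrt_nonneg _)
          _ = f x := Real.mul_self_sqrt hf0
      have hF0 := hF.nonneg (f x)
      change b * (F (f x) * _) ≤ b / c₀ * (F (f x) * f x)
      have s6 : b * (F (f x) * nm c.C (φ : Raw Γ I n V) x) =
          b / c₀ * F (f x) * (c₀ * nm c.C (φ : Raw Γ I n V) x) := by field_simp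
      rw [s6]
      calc b / c₀ * F (f x) * (c₀ * nm c.C (φ : Raw Γ I n V) x) ≤ b / c₀ * F (f x) * f x :=
            mul_le_mul_of_nonneg_left s2 (by positivity)
        _ = _ := by ring
  -- the errors
  have w1 : m' ^ 2 * (⟪c.E.e φ, c.E.e ψ₁⟫_ℂ).re + (⟪c.E.e (c.S.DC φ), c.E.e (c.S.DC ψ₁)⟫_ℂ).re =
      (⟪u, c.E.e ψ₁⟫_ℂ).re + (m' ^ 2 * (⟪c.E.e φ - v, c.E.e ψ₁⟫_ℂ).re +
        (⟪c.E.e (c.S.DC φ) - w, c.E.e (c.S.DC ψ₁)⟫_ℂ).re) := by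
    have := congrArg Complex.re (e1 ψ₁)
    rw [Complex.add_re, ← Complex.ofReal_pow, Complex.re_ofReal_mul] at this
    rw [inner_sub_left, inner_sub_left, Complex.sub_re, Complex.sub_re]
    linear_combination this
  have w2 : m ^ 2 * (⟪c.E.e η, c.E.e ψ₂⟫_ℂ).re + (⟪c.E.e (c.S.DC η), c.E.e (c.S.DC ψ₂)⟫_ℂ).re =
      (⟪w, c.E.e ψ₂⟫_ℂ).re + (m ^ 2 * (⟪c.E.e η - v₂, c.E.e ψ₂⟫_ℂ).re +
        (⟪c.E.e (c.S.DC η) - w₂, c.E.e (c.S.DC ψ₂)⟫_ℂ).re) := by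
    have := congrArg Complex.re (e2 ψ₂)
    rw [Complex.add_re, ← Complex.ofReal_pow, Complex.re_ofReal_mul] at this
    rw [inner_sub_left, inner_sub_left, Complex.sub_re, Complex.sub_re]
    linear_combination this
  have cs : ∀ x y : H, (⟪x, y⟫_ℂ).re ≤ ‖x‖ * ‖y‖ := fun x y =>
    (Complex.re_le_norm _).trans (norm_inner_le_norm _ _)
  have z1 : (⟪c.E.e φ - v, c.E.e ψ₁⟫_ℂ).re ≤ ‖c.E.e φ - v‖ * ‖c.E.e φ‖ :=
    (cs _ _).trans (mul_le_mul_of_nonneg_left (nrm φ) (norm_nonneg _))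
  have z2 := cs (c.E.e (c.S.DC φ) - w) (c.E.e (c.S.DC ψ₁))
  have z3 : (⟪c.E.e η - v₂, c.E.e ψ₂⟫_ℂ).re ≤ ‖c.E.e η - v₂‖ * ‖c.E.e η‖ :=
    (cs _ _).trans (mul_le_mul_of_nonneg_left (nrm η) (norm_nonneg _))
  have z4 := cs (c.E.e (c.S.DC η) - w₂) (c.E.e (c.S.DC ψ₂))
  have z5 : (⟪w, c.E.e ψ₂⟫_ℂ).re - (⟪c.E.e (c.S.DC φ), c.E.e ψ₂⟫_ℂ).re ≤
      ‖c.E.e (c.S.DC φ) - w‖ * ‖c.E.e η‖ := by
    rw [← Complex.sub_re, ← inner_sub_left, norm_sub_rev]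
    exact (cs _ _).trans (mul_le_mul_of_nonneg_left (nrm η) (norm_nonneg _))
  have y1 := mul_le_mul_of_nonneg_left z1 (sq_nonneg m')
  have y3 := mul_le_mul_of_nonneg_left z3 (sq_nonneg m)
  have y4 : a * (m ^ 2 * (⟪c.E.e η - v₂, c.E.e ψ₂⟫_ℂ).re +
      (⟪c.E.e (c.S.DC η) - w₂, c.E.e (c.S.DC ψ₂)⟫_ℂ).re) ≤ a * (m ^ 2 * (‖c.E.e η - v₂‖ *
      ‖c.E.e η‖) + ‖c.E.e (c.S.DC η) - w₂‖ * ‖c.E.e (c.S.DC ψ₂)‖) :=
    mul_le_mul_of_nonneg_left (add_le_add y3 z4) ha.le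
  have y5 := mul_le_mul_of_nonneg_left z5 ha.le
  rw [w1, w2] at hA
  rw [sub_mul]
  linarith

theorem pg_bound (hL : SpecLocal) (hD : SpecDense) {κ m m' : ℝ} (hm : 0 < m) (hm' : 0 < m')
    {g p g' p' : H →L[ℂ] H} (hR : Rsv c.E m g p) (hR' : Rsv c.E m' g' p')
    (hs : ∀ i y, -κ ≤ Vale.Agent.P223.H.scal (c.G i) y) {σ t : ℝ} (ht : 0 < t) (hσ : 0 < σ)
    (h1 : σ ≤ m' ^ 2 - κ / 4) (h2 : σ ≤ m ^ 2 - κ / 4 - (t⁻¹) ^ 2 * n / 4) {b : ℝ} (hb : 0 ≤ b)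
    {u : H} (hu : WB c.E (fun _ => 1) b u) :
    WB c.E (fun _ => 1) (t * (b / σ)) (p (g' u)) := by
  have hti : 0 < t⁻¹ := inv_pos.2 ht
  set a : ℝ := (t⁻¹) ^ 2 with ha'
  have ha : 0 < a := by positivity
  have hta : t ^ 2 * a = 1 := by rw [ha', ← mul_pow, mul_inv_cancel₀ ht.ne', one_pow]
  -- reduction
  suffices key : ∀ c' : ℝ, b / σ < c' → WB c.E (fun _ => 1) (t * c') (p (g' u)) by
    intro φ
    have hlim : Filter.Tendsto (fun c' : ℝ => t * c' * ∫ x, 1 * nm c.C (φ : Raw Γ I n V) x ∂c.μ)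
        (𝓝[>] (b / σ)) (𝓝 (t * (b / σ) * ∫ x, 1 * nm c.C (φ : Raw Γ I n V) x ∂c.μ)) :=
      (((continuous_const.mul continuous_id).mul continuous_const).tendsto (b / σ)).mono_left
        nhdsWithin_le_nhds
    refine ge_of_tendsto hlim ?_
    filter_upwards [self_mem_nhdsWithin] with c' hc' using key c' hc' φ
  intro c' hc'
  have hbσ : 0 ≤ b / σ := by positivity
  set c₀ : ℝ := (b / σ + c') / 2 with hc₀
  have k1 : b / σ < c₀ := by rw [hc₀]; linarith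
  have k2 : c₀ < c' := by rw [hc₀]; linarith
  have k3 : 0 < c₀ := lt_of_le_of_lt hbσ k1
  obtain ⟨F, hF, hF1⟩ := exists_Tst (a := c₀ ^ 2) (b := c' ^ 2) (by positivity)
    (pow_lt_pow_left₀ k2 k3.le two_ne_zero)
  obtain ⟨B, hB0, hB⟩ := supPB c hL ha hs hF
  -- the equations
  obtain ⟨g1, g2⟩ := gr_gp hD hm' hR' u
  obtain ⟨g3, g4⟩ := gr_gp hD hm hR (g' u)
  have g5 : Gr c.E ((m : ℂ) ^ 2 • g (g' u) - g' u) ((m : ℂ) ^ 2 • p (g' u) - p' u) := by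
    have := gr_lin ((m : ℂ) ^ 2) (-1) g3 g1
    convert this using 1 <;> module
  have e1 : ∀ ψ : Core c.S, (m' : ℂ) ^ 2 * ⟪g' u, c.E.e ψ⟫_ℂ + ⟪p' u, c.E.e (c.S.DC ψ)⟫_ℂ =
      ⟪u, c.E.e ψ⟫_ℂ := fun ψ => weak_eq hL hD hm' hR' u ψ
  have e2 : ∀ ψ : Core c.S, (m : ℂ) ^ 2 * ⟪p (g' u), c.E.e ψ⟫_ℂ +
      ⟪(m : ℂ) ^ 2 • g (g' u) - g' u, c.E.e (c.S.DC ψ)⟫_ℂ = ⟪p' u, c.E.e ψ⟫_ℂ := fun ψ => by
    rw [weak_gr hL g5 ψ, sub_sub_cancel]
  obtain ⟨φ, l1, l2⟩ := gr_seq g1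
  obtain ⟨η, l3, l4⟩ := gr_seq g4
  have hsm : ∀ j, c.C.Ck ∞ (fun x => F (pf c.C a (φ j : Raw Γ I n V)
    (η j : Raw Γ I n V) x)) := fun j => Ck_comp_pf a (φ j) (η j) hF.smooth
  set f : ℕ → X → ℝ := fun j => pf c.C a (φ j : Raw Γ I n V) (η j : Raw Γ I n V) with hf
  have hfc : ∀ j, Continuous (f j) := fun j =>
    Ck_continuous c.C fun γ i => contDiff_infty.1 (Ck_pf a (φ j) (η j) γ i) 0
  -- bounds for the test functions
  set R : ℕ → ℝ := fun j => √(B * (‖c.E.e (φ j)‖ ^ 2 + ‖c.E.e (c.S.DC (φ j))‖ ^ 2 +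
      (‖c.E.e (η j)‖ ^ 2 + ‖c.E.e (c.S.DC (η j))‖ ^ 2))) with hR
  have n1 : ∀ j, ‖c.E.e (c.S.DC (c.S.mC _ (hsm j) (φ j)))‖ ≤ R j := fun j =>
    Real.le_sqrt_of_sq_le (hB (φ j) (η j) (hsm j)).1
  have n2 : ∀ j, ‖c.E.e (c.S.DC (c.S.mC _ (hsm j) (η j)))‖ ≤ R j := fun j =>
    Real.le_sqrt_of_sq_le (hB (φ j) (η j) (hsm j)).2
  have tR : Filter.Tendsto R Filter.atTop (𝓝 (√(B * (‖g' u‖ ^ 2 + ‖p' u‖ ^ 2 +
      (‖p (g' u)‖ ^ 2 + ‖(m : ℂ) ^ 2 • g (g' u) - g' u‖ ^ 2))))) :=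
    ((((l1.norm.pow 2).add (l2.norm.pow 2)).add
      ((l3.norm.pow 2).add (l4.norm.pow 2))).const_mul B).sqrt
  set err : ℕ → ℝ := fun j => m' ^ 2 * (‖c.E.e (φ j) - g' u‖ * ‖c.E.e (φ j)‖) +
        ‖c.E.e (c.S.DC (φ j)) - p' u‖ * R j +
      a * (m ^ 2 * (‖c.E.e (η j) - p (g' u)‖ * ‖c.E.e (η j)‖) +
        ‖c.E.e (c.S.DC (η j)) - ((m : ℂ) ^ 2 • g (g' u) - g' u)‖ * R j) +
      a * (‖c.E.e (c.S.DC (φ j)) - p' u‖ * ‖c.E.e (η j)‖) with herr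
  have herr0 : Filter.Tendsto err Filter.atTop (𝓝 0) := by
    have t1 := tendsto_iff_norm_sub_tendsto_zero.1 l1
    have t2 := tendsto_iff_norm_sub_tendsto_zero.1 l2
    have t3 := tendsto_iff_norm_sub_tendsto_zero.1 l3
    have t4 := tendsto_iff_norm_sub_tendsto_zero.1 l4
    have t5 := ((((t1.mul l1.norm).const_mul (m' ^ 2)).add (t2.mul tR)).add
      ((((t3.mul l3.norm).const_mul (m ^ 2)).add (t4.mul tR)).const_mul a)).add
      ((t2.mul l3.norm).const_mul a)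
    simp only [zero_mul, mul_zero, add_zero] at t5
    exact t5
  set J : ℕ → ℝ := fun j => ∫ x, F (f j x) * f j x ∂c.μ with hJ
  have hfin := finComp c.S.met c.vol
  have hJ0 : ∀ j x, 0 ≤ F (f j x) * f j x := fun j x => by
    have h5 : 0 ≤ f j x := by
      change 0 ≤ nm c.C (φ j : Raw Γ I n V) x ^ 2 + a * nm c.C (η j : Raw Γ I n V) x ^ 2
      positivity
    exact mul_nonneg (hF.nonneg _) h5
  have hpos : 0 < σ - b / c₀ := by
    rw [sub_pos, div_lt_iff₀ k3]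
    rw [div_lt_iff₀ hσ] at k1
    linarith
  have main : ∀ j, (σ - b / c₀) * J j ≤ err j := by
    intro j
    refine (pg_step (m := m) (m' := m') hL hs ha h1 h2 hb k3 hu e1 e2 hF (φ j) (η j)
      (hsm j)).trans ?_
    have m1 := mul_le_mul_of_nonneg_left (n1 j) (norm_nonneg (c.E.e (c.S.DC (φ j)) - p' u))
    have m2 := mul_le_mul_of_nonneg_left (mul_le_mul_of_nonneg_left (n2 j)
      (norm_nonneg (c.E.e (c.S.DC (η j)) - ((m : ℂ) ^ 2 • g (g' u) - g' u)))) ha.le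
    rw [herr]
    simp only
    rw [mul_add a, mul_add a]
    linarith
  have hJlim : Filter.Tendsto J Filter.atTop (𝓝 0) := by
    refine squeeze_zero (fun j => integral_nonneg (hJ0 j))
      (g := fun j => (σ - b / c₀)⁻¹ * err j) (fun j => ?_) ?_
    · rw [inv_mul_eq_div, le_div_iff₀ hpos, mul_comm]
      exact main j
    · have := herr0.const_mul ((σ - b / c₀)⁻¹)
      rw [mul_zero] at this
      exact this
  have hη : ∀ j x, nm c.C (η j : Raw Γ I n V) x ^ 2 ≤ t ^ 2 * f j x := by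
    intro j x
    change _ ≤ t ^ 2 * (nm c.C (φ j : Raw Γ I n V) x ^ 2 + a * nm c.C (η j : Raw Γ I n V) x ^ 2)
    have : t ^ 2 * (nm c.C (φ j : Raw Γ I n V) x ^ 2 + a * nm c.C (η j : Raw Γ I n V) x ^ 2) =
        t ^ 2 * nm c.C (φ j : Raw Γ I n V) x ^ 2 +
          (t ^ 2 * a) * nm c.C (η j : Raw Γ I n V) x ^ 2 := by ring
    rw [this, hta, one_mul]
    have := mul_nonneg (sq_nonneg t) (sq_nonneg (nm c.C (φ j : Raw Γ I n V) x))
    linarith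
  refine wb_of_lim (k3.trans k2) ht.le hF hF1 hfc hη l3 ?_
  have hint : ∀ j, Integrable (fun x => F (f j x) * f j x) c.μ := by
    intro j
    refine ((hF.smooth.continuous.comp (hfc j)).mul (hfc j)).integrable_of_hasCompactSupport ?_
    exact (pf_supp a (φ j) (η j)).mul_left
  refine squeeze_zero (fun j => integral_nonneg fun x => mul_nonneg (hF.nonneg _) (sq_nonneg _))
    (g := fun j => t ^ 2 * J j) (fun j => ?_) ?_
  · rw [hJ, ← integral_const_mul]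
    refine integral_mono_of_nonneg (Filter.Eventually.of_forall fun x =>
      mul_nonneg (hF.nonneg _) (sq_nonneg _)) ((hint j).const_mul _)
      (Filter.Eventually.of_forall fun x => ?_)
    simp only
    rw [mul_left_comm]
    exact mul_le_mul_of_nonneg_left (hη j x) (hF.nonneg _)
  · have := hJlim.const_mul (t ^ 2)
    rw [mul_zero] at this
    exact this

end

end Vale.Agent.P223.H391
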