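import Vale.Agent.P223.H566.SupA
import Vale.Agent.P223.H66.LocD
import Mathlib.Algebra.Order.Chebyshev

/-! Sup bound for `p = D g`: local inequalities. -/

namespace Vale.Agent.P223.H391

open scoped ContDiff InnerProductSpace Topology
open MeasureTheory Vale.Agent.P223.H Vale.Agent.P223.X Vale.Agent.P223.H566

section
variable {n : ℕ} {V : Type} [NormedAddCommGroup V] [InnerProductSpace ℂ V] (K : Cliff n V)
  {G β : E n → Matrix (Fin n) (Fin n) ℝ}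

theorem norm_c (a : Fin n) (v : V) : ‖K.c a v‖ = ‖v‖ := by
  have h1 := congrArg (fun A : V →L[ℂ] V => A v) (H66.c_sq K a)
  simp only [mul_apply_eq_comp, one_apply_eq_self] at h1
  have h2 : ‖K.c a v‖ ^ 2 = ‖v‖ ^ 2 := by
    rw [norm_sq_eq_re_inner (𝕜 := ℂ), K.symm, h1, ← norm_sq_eq_re_inner (𝕜 := ℂ)]
  exact (sq_eq_sq₀ (norm_nonneg _) (norm_nonneg _)).1 h2

/-- `|Dφ|² ≤ n |∇φ|²` -/
theorem norm_dir_sq_le (hF : Fr G β) (φ : E n → V) (y : E n) :
    ‖dir K G β φ y‖ ^ 2 ≤ n * nsq K G β φ y := by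
  have e1 : dir K G β φ y = ∑ a, K.c a (∑ k, β y a k • nab K G β k φ y) := by
    unfold dir
    simp only [H66.cl_eq, sum_apply, smul_apply, map_sum, ContinuousLinearMap.map_smul_of_tower]
    exact Finset.sum_comm
  rw [H66.nsq_eq K hF, e1]
  calc ‖∑ a, K.c a (∑ k, β y a k • nab K G β k φ y)‖ ^ 2
      ≤ (∑ a, ‖∑ k, β y a k • nab K G β k φ y‖) ^ 2 := by
        refine pow_le_pow_left₀ (norm_nonneg _) ((norm_sum_le _ _).trans_eq ?_) 2
        exact Finset.sum_congr rfl fun a _ => norm_c K a _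
    _ ≤ _ := by
        have := sq_sum_le_card_mul_sum_sq (s := (Finset.univ : Finset (Fin n)))
          (f := fun a => ‖∑ k, β y a k • nab K G β k φ y‖)
        simpa using this

variable [FiniteDimensional ℂ V]

/-- the pointwise inequality for `f = |φ|² + a |η|²` -/
theorem locP (hL : SpecLocal) (h1 : ∀ i j, ContDiff ℝ ∞ (fun x => G x i j))
    (h2 : ∀ x, (G x).PosDef) (hβ : Fr G β) {φ η : E n → V} (hφ : ContDiff ℝ ∞ φ)
    (hη : ContDiff ℝ ∞ η) {a κ M m δ : ℝ} (ha : 0 ≤ a) {F : ℝ → ℝ} (hF : Tst δ F) (y : E n)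
    (hs : -κ ≤ H.scal G y) :
    F (‖φ y‖ ^ 2 + a * ‖η y‖ ^ 2) * ((M ^ 2 - κ / 4) * ‖φ y‖ ^ 2 +
        a * ((m ^ 2 - κ / 4 - a * n / 4) * ‖η y‖ ^ 2)) ≤
      F (‖φ y‖ ^ 2 + a * ‖η y‖ ^ 2) * (M ^ 2 * ‖φ y‖ ^ 2 -
        (⟪dir K G β (dir K G β φ) y, φ y⟫_ℂ).re + a * (m ^ 2 * ‖η y‖ ^ 2 -
        (⟪dir K G β (dir K G β η) y, η y⟫_ℂ).re) - a * (⟪dir K G β φ y, η y⟫_ℂ).re) +
      1 / 2 * lap G (fun z => prim F (‖φ z‖ ^ 2 + a * ‖η z‖ ^ 2)) y := by
  obtain ⟨-, hlich, hkato, -⟩ := hL n V K G β h1 h2 hβ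
  have hφ2 : ContDiff ℝ ∞ (fun z => ‖φ z‖ ^ 2) := hφ.norm_sq ℂ
  have hη2 : ContDiff ℝ ∞ (fun z => ‖η z‖ ^ 2) := hη.norm_sq ℂ
  have haη : ContDiff ℝ ∞ (fun z => a * ‖η z‖ ^ 2) := contDiff_const.mul hη2
  set f : E n → ℝ := fun z => ‖φ z‖ ^ 2 + a * ‖η z‖ ^ 2 with hf
  have hfs : ContDiff ℝ ∞ f := hφ2.add haη
  have hdf : ∀ t, HasDerivAt F (deriv F t) t := fun t =>
    (hF.smooth.differentiable (by simp) t).hasDerivAt
  have e1 : lap G (fun z => prim F (f z)) y = F (f y) * lap G f y +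
      deriv F (f y) * gradSq G f y :=
    B25c.lap_comp (contDiff_infty.1 hfs 2) (fun t => prim_deriv hF.smooth.continuous t) hdf y
  have e2 : lap G f y = lap G (fun z => ‖φ z‖ ^ 2) y + a * lap G (fun z => ‖η z‖ ^ 2) y := by
    rw [hf, lap_add' hφ2 haη, lap_mul' h2 contDiff_const hη2]
    have z1 : lap G (fun _ => a) y = 0 := by unfold lap Vale.Agent.P223.H.pd; simp
    have z2 : gradIp G (fun _ => a) (fun z => ‖η z‖ ^ 2) y = 0 := by
      unfold gradIp Vale.Agent.P223.H.pd; simp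
    rw [z1, z2]; ring
  have l1 := hlich φ hφ y
  have l2 := hlich η hη y
  have k1 := (hkato φ hφ y).1
  have k2 := (hkato η hη y).1
  have d1 := norm_dir_sq_le K hβ φ y
  have c1 : (⟪dir K G β φ y, η y⟫_ℂ).re ≤ ‖dir K G β φ y‖ * ‖η y‖ :=
    (Complex.re_le_norm _).trans (norm_inner_le_norm _ _)
  have hg : 0 ≤ gradSq G f y := Grad.gradSq_nonneg' (h2 y) f
  have hF0 := hF.nonneg (f y)
  have hF' := hF.mono (f y)
  change F (f y) * _ ≤ F (f y) * _ + 1 / 2 * lap G (fun z => prim F (f z)) y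
  rw [e1, e2]
  generalize lap G (fun z => ‖φ z‖ ^ 2) y = L1 at *
  generalize lap G (fun z => ‖η z‖ ^ 2) y = L2 at *
  generalize nsq K G β φ y = N1 at *
  generalize nsq K G β η y = N2 at *
  generalize (⟪dir K G β (dir K G β φ) y, φ y⟫_ℂ).re = R1 at *
  generalize (⟪dir K G β (dir K G β η) y, η y⟫_ℂ).re = R2 at *
  generalize (⟪dir K G β φ y, η y⟫_ℂ).re = R3 at *
  generalize gradSq G f y = g at *
  generalize deriv F (f y) = F' at *
  generalize F (f y) = f0 at *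
  generalize H.scal G y = Sc at *
  have n1 := norm_nonneg (dir K G β φ y)
  generalize ‖dir K G β φ y‖ = d at *
  have n2 := norm_nonneg (η y)
  have n3 := norm_nonneg (φ y)
  generalize ‖η y‖ = t at *
  generalize ‖φ y‖ = u at *
  -- `a d t ≤ N1 + a² n t² / 4`
  have key : a * R3 ≤ N1 + a ^ 2 * n / 4 * t ^ 2 := by
    have q1 : a * R3 ≤ a * (d * t) := mul_le_mul_of_nonneg_left c1 ha
    by_cases hn : (n : ℝ) = 0
    · rw [hn] at d1 ⊢
      have : d = 0 := by nlinarith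
      rw [this] at q1
      nlinarith
    · have hn0 : (0 : ℝ) < n := lt_of_le_of_ne (Nat.cast_nonneg n) (Ne.symm hn)
      have q2 : a * (d * t) ≤ d ^ 2 / n + a ^ 2 * n / 4 * t ^ 2 := by
        have : d ^ 2 / n + a ^ 2 * n / 4 * t ^ 2 - a * (d * t) = (d - a * n * t / 2) ^ 2 / n := by
          field_simp; ring
        have h : 0 ≤ (d - a * n * t / 2) ^ 2 / n := by positivity
        linarith
      have q3 : d ^ 2 / n ≤ N1 := by
        rw [div_le_iff₀ hn0]; linarith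
      linarith
  have s1 : 0 ≤ f0 * ((Sc + κ) / 4 * u ^ 2) := by
    have : 0 ≤ Sc + κ := by linarith
    positivity
  have s2 : 0 ≤ f0 * (a * ((Sc + κ) / 4 * t ^ 2)) := by
    have : 0 ≤ Sc + κ := by linarith
    positivity
  have s3 : 0 ≤ f0 * (N1 + a ^ 2 * n / 4 * t ^ 2 - a * R3) := mul_nonneg hF0 (by linarith)
  have s4 : 0 ≤ 1 / 2 * (F' * g) := by positivity
  have s5 : 0 ≤ f0 * (a * N2) := by positivity
  have e : f0 * (M ^ 2 * u ^ 2 - R1 + a * (m ^ 2 * t ^ 2 - R2) - a * R3) +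
      1 / 2 * (f0 * (L1 + a * L2) + F' * g) -
      f0 * ((M ^ 2 - κ / 4) * u ^ 2 + a * ((m ^ 2 - κ / 4 - a * n / 4) * t ^ 2)) =
      f0 * ((Sc + κ) / 4 * u ^ 2) + f0 * (a * ((Sc + κ) / 4 * t ^ 2)) +
      f0 * (N1 + a ^ 2 * n / 4 * t ^ 2 - a * R3) + 1 / 2 * (F' * g) + f0 * (a * N2) := by
    linear_combination (f0 / 2) * l1 + (f0 * a / 2) * l2
  linarith

end

end Vale.Agent.P223.H391
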