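import Vale.Agent.P223.X.IntM
import Vale.Agent.P223.X.Avg
import Vale.Agent.P223.X.Int
import Vale.Agent.P223.X.IBPX
import Vale.Agent.P223.H566.IntS

/-! Unfolding: the integral over `M` of the average over the group. -/

namespace Vale.Agent.P223.H391

open scoped ContDiff Topology
open MeasureTheory Vale.Agent.P223.H Vale.Agent.P223.X Vale.Agent.P223.X.Avg

section
variable {n : ℕ} {M X Γ I : Type} [TopologicalSpace M] [TopologicalSpace X] [Group Γ]
    [MulAction Γ X] [Fintype I] [T2Space X] [MeasurableSpace X] [BorelSpace X]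
    [MeasurableSpace M] [BorelSpace M] [T2Space M] [ConnectedSpace X] {C : Cov n M X Γ I}
    {G : I → E n → Matrix (Fin n) (Fin n) ℝ} {μ : Measure X} {ν : Measure M}
    {χ : I → E n → ℝ}

omit [ConnectedSpace X] [T2Space M] in
theorem unfold_M (hG : MetX C G) (hV : VolX C G μ) (hM : VolM C G ν) (hχ : Part C χ)
    {φ : X → ℝ} (hφ : Continuous φ) (hs : HasCompactSupport φ) :
    ∫ m, C.dn (gav (fun _ : Γ => (1 : ℝ)) φ) m ∂ν = ∫ x, φ x ∂μ := by
  classical
  set K' : Set X := ⋃ i, C.ψ i '' Metric.closedBall (0 : E n) 2 with hK'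
  have hK'c : IsCompact K' := isCompact_iUnion fun i =>
    (isCompact_closedBall 0 2).image (C.emb i).continuous
  have hfin : {γ : Γ | ∃ x ∈ tsupport φ, γ • x ∈ K'}.Finite := properX' C hs hK'c
  set F : Finset Γ := hfin.toFinset with hF
  have hmem : ∀ γ : Γ, γ ∈ F ↔ ∃ x ∈ tsupport φ, γ • x ∈ K' := fun γ => by
    rw [hF, Set.Finite.mem_toFinset]; rfl
  have hχc : ∀ i, HasCompactSupport (χ i) := fun i => IBPX.hasCompactSupport_χ hχ i
  have hexc : ∀ i, Continuous (C.ex i (χ i)) := fun i =>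
    Vale.Agent.P223.X.Ck_continuous C fun γ j =>
      (Vale.Agent.P223.X.Ck_ex C (hχ.smooth i) (hχc i) γ j).of_le (by simp)
  have hK2 : ∀ i y, χ i y ≠ 0 → C.ψ i y ∈ K' := fun i y hy => by
    refine Set.mem_iUnion.2 ⟨i, y, ?_, rfl⟩
    rw [mem_closedBall_zero_iff]
    by_contra hcon
    exact hy (hχ.supp i y (not_le.1 hcon).le)
  -- the decomposition of `φ`
  have e1 : ∀ x, φ x = ∑ i, ∑ γ ∈ F, C.ex i (χ i) (γ • x) * φ x := by
    intro x
    by_cases hx : φ x = 0
    · simp [hx]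
    · have h1 : ∀ i, ∑ᶠ γ : Γ, C.ex i (χ i) (γ • x) = ∑ γ ∈ F, C.ex i (χ i) (γ • x) := by
        intro i
        refine finsum_eq_sum_of_support_subset _ fun γ hγ => ?_
        refine (hmem γ).2 ⟨x, subset_tsupport _ hx, ?_⟩
        have h2 : C.ex i (χ i) (γ • x) ≠ 0 := hγ
        have h3 : γ • x ∈ Set.range (C.ψ i) := by
          by_contra hcon
          refine h2 ?_
          unfold Cov.ex
          rw [if_neg hcon]
        obtain ⟨y, hy⟩ := h3
        rw [← hy] at h2 ⊢
        rw [ex_ψ] at h2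
        exact hK2 i y h2
      have h2 := hχ.sum x
      simp only [h1] at h2
      simp only [← Finset.sum_mul]
      rw [h2, one_mul]
  have hcs : ∀ i (γ : Γ), Continuous (fun x => C.ex i (χ i) (γ • x) * φ x) := fun i γ =>
    ((hexc i).comp (C.cont γ)).mul hφ
  have hfinX := H566.finComp hG hV
  have hint : ∀ i (γ : Γ), Integrable (fun x => C.ex i (χ i) (γ • x) * φ x) μ := fun i γ =>
    (hcs i γ).integrable_of_hasCompactSupport hs.mul_left
  have e2 : ∀ i (γ : Γ), ∫ x, C.ex i (χ i) (γ • x) * φ x ∂μ =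
      ∫ y, χ i y * φ (γ⁻¹ • C.ψ i y) * H.dens (G i) y := by
    intro i γ
    rw [Int.integral_chart hG hV γ⁻¹ i _ fun x hx => ?_]
    · refine integral_congr_ae (Filter.Eventually.of_forall fun y => ?_)
      simp only
      rw [smul_inv_smul, ex_ψ]
    · have : γ • x ∉ Set.range (C.ψ i) := by
        rintro ⟨y, hy⟩
        refine hx ⟨y, ?_⟩
        simp only
        rw [hy, inv_smul_smul]
      unfold Cov.ex
      rw [if_neg this, zero_mul]
  have e3 : ∀ i (γ : Γ), Integrable (fun y => χ i y * φ (γ⁻¹ • C.ψ i y) * H.dens (G i) y) := by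
    intro i γ
    have h1 : Continuous (fun y => χ i y * φ (γ⁻¹ • C.ψ i y) * H.dens (G i) y) :=
      ((hχ.smooth i).continuous.mul (hφ.comp ((C.cont γ⁻¹).comp (C.emb i).continuous))).mul
        (Int.cont_dens hG i)
    exact h1.integrable_of_hasCompactSupport (hχc i).mul_right.mul_right
  have hinv : ∀ (γ : Γ) x, gav (fun _ : Γ => (1 : ℝ)) φ (γ • x) =
      gav (fun _ : Γ => (1 : ℝ)) φ x := fun γ x => gav_one_inv φ γ x
  -- continuity of the average
  have hav : Continuous (gav (fun _ : Γ => (1 : ℝ)) φ) :=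
    Vale.Agent.P223.X.Ck_continuous C
      (Ck_gav C (fun _ => 1) φ hs ((Vale.Agent.P223.X.Ck_zero_iff C).2 hφ))
  rw [IntM.integral_eq hG hM hχ fun i => (IntM.continuous_dn C hinv hav).comp
    (IntM.β_emb C i).continuous]
  have e4 : ∀ i, ∫ y, χ i y * C.dn (gav (fun _ : Γ => (1 : ℝ)) φ) (IntM.β C i y) *
      H.dens (G i) y = ∑ γ ∈ F, ∫ y, χ i y * φ (γ⁻¹ • C.ψ i y) * H.dens (G i) y := by
    intro i
    rw [← integral_finsetSum _ fun γ _ => e3 i γ]
    refine integral_congr_ae (Filter.Eventually.of_forall fun y => ?_)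
    simp only
    rw [IntM.dn_β C hinv]
    by_cases hy : χ i y = 0
    · simp [hy]
    · have h1 : gav (fun _ : Γ => (1 : ℝ)) φ (C.ψ i y) = ∑ γ ∈ F, φ (γ⁻¹ • C.ψ i y) := by
        unfold gav
        simp only [one_smul]
        refine finsum_eq_sum_of_support_subset _ fun γ hγ => ?_
        refine (hmem γ).2 ⟨γ⁻¹ • C.ψ i y, subset_tsupport _ hγ, ?_⟩
        rw [smul_inv_smul]
        exact hK2 i y hy
      rw [h1, Finset.mul_sum, Finset.sum_mul]
  rw [Finset.sum_congr rfl fun i _ => e4 i]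
  calc _ = ∑ i, ∑ γ ∈ F, ∫ x, C.ex i (χ i) (γ • x) * φ x ∂μ :=
        Finset.sum_congr rfl fun i _ => Finset.sum_congr rfl fun γ _ => (e2 i γ).symm
    _ = ∫ x, ∑ i, ∑ γ ∈ F, C.ex i (χ i) (γ • x) * φ x ∂μ := by
        rw [integral_finsetSum _ fun i _ => integrable_finsetSum _ fun γ _ => hint i γ]
        exact Finset.sum_congr rfl fun i _ => (integral_finsetSum _ fun γ _ => hint i γ).symm
    _ = _ := integral_congr_ae (Filter.Eventually.of_forall fun x => (e1 x).symm)

end

end Vale.Agent.P223.H391
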