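import Mathlib

/-! From the isoperimetric inequality with a potential to the Sobolev inequality. -/

namespace Vale.Agent.P223.H391.V7

open MeasureTheory Filter Set
open scoped ENNReal NNReal Topology

/-- the pointwise bound -/
theorem pt_le {m : ℝ → ℝ≥0∞} (hm : Antitone m) {α b : ℝ} (hα : 1 ≤ α) (hb : 0 ≤ b) {t : ℝ}
    (ht : 0 < t) : ENNReal.ofReal (t ^ α) * m t ^ b ≤
      ENNReal.ofReal (2 ^ α) * ∫⁻ s in Ioi (0 : ℝ), ENNReal.ofReal (s ^ (α - 1)) * m s ^ b := by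
  have ht2 : 0 < t / 2 := by positivity
  have h1 : ENNReal.ofReal ((t / 2) ^ α) * m t ^ b ≤
      ∫⁻ s in Ioi (0 : ℝ), ENNReal.ofReal (s ^ (α - 1)) * m s ^ b := by
    calc ENNReal.ofReal ((t / 2) ^ α) * m t ^ b
        = ∫⁻ _ in Ioc (t / 2) t, ENNReal.ofReal ((t / 2) ^ (α - 1)) * m t ^ b := by
          rw [setLIntegral_const, Real.volume_Ioc, mul_right_comm, ← ENNReal.ofReal_mul
            (Real.rpow_nonneg ht2.le _)]
          congr 2
          rw [show t - t / 2 = t / 2 by ring]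
          nth_rw 3 [← Real.rpow_one (t / 2)]
          rw [← Real.rpow_add ht2]
          congr 1
          ring
      _ ≤ ∫⁻ s in Ioc (t / 2) t, ENNReal.ofReal (s ^ (α - 1)) * m s ^ b := by
          refine setLIntegral_mono' measurableSet_Ioc fun s hs => ?_
          refine mul_le_mul' (ENNReal.ofReal_le_ofReal ?_) (ENNReal.rpow_le_rpow (hm hs.2) hb)
          exact Real.rpow_le_rpow ht2.le hs.1.le (by linarith)
      _ ≤ _ := lintegral_mono_set fun s hs => ht2.trans hs.1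
  have e : (t : ℝ) ^ α = 2 ^ α * (t / 2) ^ α := by
    rw [← Real.mul_rpow (by norm_num) ht2.le]
    congr 1
    ring
  rw [e, ENNReal.ofReal_mul (by positivity), mul_assoc]
  exact mul_le_mul_right h1 _

/-- the distribution function -/
theorem dist_int {m : ℝ → ℝ≥0∞} (hm : Antitone m) {α b p q : ℝ} (hα : 1 ≤ α)
    (hb : 0 < b) (hq : 1 ≤ q) (hbq : b * q = 1) (hp : α * q = p) :
    ∫⁻ t in Ioi (0 : ℝ), ENNReal.ofReal (t ^ (p - 1)) * m t ≤
      (ENNReal.ofReal (2 ^ α) * ∫⁻ s in Ioi (0 : ℝ), ENNReal.ofReal (s ^ (α - 1)) * m s ^ b) ^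
        (q - 1) * ∫⁻ s in Ioi (0 : ℝ), ENNReal.ofReal (s ^ (α - 1)) * m s ^ b := by
  set J := ∫⁻ s in Ioi (0 : ℝ), ENNReal.ofReal (s ^ (α - 1)) * m s ^ b with hJ
  have hmm : Measurable m := hm.measurable
  have hmeas : Measurable fun s : ℝ => ENNReal.ofReal (s ^ (α - 1)) * m s ^ b :=
    (ENNReal.measurable_ofReal.comp (measurable_id.pow_const _)).mul (hmm.pow_const _)
  rw [hJ, ← lintegral_const_mul _ hmeas]
  refine setLIntegral_mono' measurableSet_Ioi fun t ht => ?_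
  rw [← hJ]
  have ht0 : (0 : ℝ) < t := ht
  have e1 : ENNReal.ofReal (t ^ (p - 1)) * m t =
      (ENNReal.ofReal (t ^ α) * m t ^ b) ^ (q - 1) * (ENNReal.ofReal (t ^ (α - 1)) * m t ^ b) := by
    have hq1 : 0 ≤ q - 1 := by linarith
    rw [ENNReal.mul_rpow_of_nonneg _ _ hq1, ENNReal.ofReal_rpow_of_pos (by positivity),
      ← ENNReal.rpow_mul, ← Real.rpow_mul ht0.le]
    have e2 : ENNReal.ofReal (t ^ (p - 1)) = ENNReal.ofReal (t ^ (α * (q - 1))) *
        ENNReal.ofReal (t ^ (α - 1)) := by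
      rw [← ENNReal.ofReal_mul (by positivity), ← Real.rpow_add ht0]
      congr 2
      rw [← hp]; ring
    have e3 : m t = m t ^ (b * (q - 1)) * m t ^ b := by
      rw [← ENNReal.rpow_add_of_nonneg _ _ (mul_nonneg hb.le hq1) hb.le,
        show b * (q - 1) + b = 1 by linear_combination hbq, ENNReal.rpow_one]
    conv_lhs => rw [e2, e3]
    ring
  rw [e1]
  exact mul_le_mul_left (ENNReal.rpow_le_rpow (pt_le hm hα hb.le ht0) (by linarith)) _

section
variable {X : Type*} [MeasurableSpace X] {μ : Measure X}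

/-- integration of the perimeter -/
theorem int_per [SFinite μ] {α : ℝ} (hα : 1 ≤ α) {u : X → ℝ} (hu : Measurable u)
    {D : X → ℝ≥0∞} (hD : Measurable D) :
    ∫⁻ t in Ioi (0 : ℝ), ENNReal.ofReal (t ^ (α - 1)) *
      liminf (fun ε : ℝ => ∫⁻ x in {x | t < |u x| ∧ |u x| ≤ t + ε}, D x / ENNReal.ofReal ε ∂μ)
        (𝓝[>] 0) ≤ ∫⁻ x, ENNReal.ofReal (|u x| ^ (α - 1)) * D x ∂μ := by
  set e : ℕ → ℝ := fun k => 1 / ((k : ℝ) + 1) with he
  have he0 : ∀ k, 0 < e k := fun k => by positivity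
  have hlim : Tendsto e atTop (𝓝[>] 0) :=
    tendsto_nhdsWithin_iff.2 ⟨tendsto_one_div_add_atTop_nhds_zero_nat,
      Eventually.of_forall fun k => he0 k⟩
  set F : ℕ → ℝ → ℝ≥0∞ := fun k t =>
    ∫⁻ x in {x | t < |u x| ∧ |u x| ≤ t + e k}, D x / ENNReal.ofReal (e k) ∂μ with hF
  have hset : ∀ k, MeasurableSet {z : ℝ × X | z.1 < |u z.2| ∧ |u z.2| ≤ z.1 + e k} := fun k => by
    have h1 : Measurable fun z : ℝ × X => |u z.2| := (hu.comp measurable_snd).abs
    exact (measurableSet_lt measurable_fst h1).inter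
      (measurableSet_le h1 (measurable_fst.add_const _))
  have hst : ∀ k t, MeasurableSet {x : X | t < |u x| ∧ |u x| ≤ t + e k} := fun k t =>
    (measurableSet_lt measurable_const hu.abs).inter (measurableSet_le hu.abs measurable_const)
  have hjm : ∀ k, Measurable fun z : ℝ × X =>
      {z : ℝ × X | z.1 < |u z.2| ∧ |u z.2| ≤ z.1 + e k}.indicator
        (fun z => D z.2 / ENNReal.ofReal (e k)) z := fun k =>
    ((hD.comp measurable_snd).div_const _).indicator (hset k)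
  have hFe : ∀ k t, F k t = ∫⁻ x, {z : ℝ × X | z.1 < |u z.2| ∧ |u z.2| ≤ z.1 + e k}.indicator
      (fun z => D z.2 / ENNReal.ofReal (e k)) (t, x) ∂μ := fun k t => by
    rw [hF]
    simp only
    rw [← lintegral_indicator (hst k t)]
    rfl
  have hFm : ∀ k, Measurable (F k) := fun k => by
    have h1 : F k = fun t => ∫⁻ x, {z : ℝ × X | z.1 < |u z.2| ∧ |u z.2| ≤ z.1 + e k}.indicator
      (fun z => D z.2 / ENNReal.ofReal (e k)) (t, x) ∂μ := funext fun t => hFe k t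
    rw [h1]
    exact (hjm k).lintegral_prod_right'
  have hpm : Measurable fun t : ℝ => ENNReal.ofReal (t ^ (α - 1)) :=
    ENNReal.measurable_ofReal.comp (measurable_id.pow_const _)
  -- the bound for each `k`
  have key : ∀ k, ∫⁻ t in Ioi (0 : ℝ), ENNReal.ofReal (t ^ (α - 1)) * F k t ≤
      ∫⁻ x, ENNReal.ofReal (|u x| ^ (α - 1)) * D x ∂μ := by
    intro k
    have h1 : ∫⁻ t in Ioi (0 : ℝ), ENNReal.ofReal (t ^ (α - 1)) * F k t =
        ∫⁻ x, (∫⁻ t in Ioi (0 : ℝ), ENNReal.ofReal (t ^ (α - 1)) *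
          {z : ℝ × X | z.1 < |u z.2| ∧ |u z.2| ≤ z.1 + e k}.indicator
            (fun z => D z.2 / ENNReal.ofReal (e k)) (t, x)) ∂μ := by
      rw [lintegral_lintegral_swap]
      · refine lintegral_congr fun t => ?_
        rw [hFe]
        exact (lintegral_const_mul _ ((hjm k).comp measurable_prodMk_left)).symm
      · exact (((hpm.comp measurable_snd).mul ((hjm k).comp measurable_swap))).aemeasurable
    rw [h1]
    refine lintegral_mono fun x => ?_
    have h2 : ∀ t ∈ Ioi (0 : ℝ), ENNReal.ofReal (t ^ (α - 1)) *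
          {z : ℝ × X | z.1 < |u z.2| ∧ |u z.2| ≤ z.1 + e k}.indicator
            (fun z => D z.2 / ENNReal.ofReal (e k)) (t, x) ≤
        (Ico (|u x| - e k) |u x|).indicator (fun _ => ENNReal.ofReal (|u x| ^ (α - 1)) *
          (D x / ENNReal.ofReal (e k))) t := by
      intro t ht
      by_cases h3 : t < |u x| ∧ |u x| ≤ t + e k
      · rw [indicator_of_mem (show (t, x) ∈ {z : ℝ × X | z.1 < |u z.2| ∧ |u z.2| ≤ z.1 + e k}
          from h3), indicator_of_mem (show t ∈ Ico (|u x| - e k) |u x| from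
          ⟨by linarith [h3.2], h3.1⟩)]
        refine mul_le_mul_left (ENNReal.ofReal_le_ofReal ?_) _
        exact Real.rpow_le_rpow (le_of_lt ht) h3.1.le (by linarith)
      · rw [indicator_of_notMem (show (t, x) ∉ {z : ℝ × X | z.1 < |u z.2| ∧ |u z.2| ≤ z.1 + e k}
          from h3), mul_zero]
        exact zero_le
    refine (setLIntegral_mono' measurableSet_Ioi h2).trans ?_
    refine (setLIntegral_le_lintegral _ _).trans ?_
    rw [lintegral_indicator measurableSet_Ico, setLIntegral_const, Real.volume_Ico,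
      show |u x| - (|u x| - e k) = e k by ring, mul_assoc]
    refine mul_le_mul_right ?_ _
    rw [ENNReal.div_mul_cancel (by simpa using he0 k) ENNReal.ofReal_ne_top]
  calc _ ≤ ∫⁻ t in Ioi (0 : ℝ), liminf (fun k => ENNReal.ofReal (t ^ (α - 1)) * F k t) atTop := by
        refine setLIntegral_mono' measurableSet_Ioi fun t _ => ?_
        have h3 : liminf (fun ε : ℝ => ∫⁻ x in {x | t < |u x| ∧ |u x| ≤ t + ε},
            D x / ENNReal.ofReal ε ∂μ) (𝓝[>] 0) ≤ liminf (fun k => F k t) atTop := by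
          have h4 := liminf_le_liminf_of_le (f := 𝓝[>] (0 : ℝ)) (g := map e atTop)
            (u := fun ε : ℝ => ∫⁻ x in {x | t < |u x| ∧ |u x| ≤ t + ε},
              D x / ENNReal.ofReal ε ∂μ) hlim
          exact h4
        refine (mul_le_mul_right h3 _).trans ?_
        rw [← ENNReal.liminf_const_mul_of_ne_top ENNReal.ofReal_ne_top]
    _ ≤ liminf (fun k => ∫⁻ t in Ioi (0 : ℝ), ENNReal.ofReal (t ^ (α - 1)) * F k t) atTop :=
        lintegral_liminf_le fun k => hpm.mul (hFm k)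
    _ ≤ _ := by
        refine liminf_le_of_le (by isBoundedDefault) fun b hb => ?_
        obtain ⟨k, hk⟩ := hb.exists
        exact hk.trans (key k)

/-- integration of the potential -/
theorem int_pot [SFinite μ] {α : ℝ} (hα : 1 ≤ α) {u : X → ℝ} (hu : Measurable u)
    {w : X → ℝ≥0∞} (hw : Measurable w) :
    ∫⁻ t in Ioi (0 : ℝ), ENNReal.ofReal (t ^ (α - 1)) * ∫⁻ x in {x | t < |u x|}, w x ∂μ ≤
      ∫⁻ x, ENNReal.ofReal (|u x| ^ α) * w x ∂μ := by
  have hset : MeasurableSet {z : ℝ × X | z.1 < |u z.2|} :=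
    measurableSet_lt measurable_fst (hu.comp measurable_snd).abs
  have hst : ∀ t, MeasurableSet {x : X | t < |u x|} := fun t =>
    measurableSet_lt measurable_const hu.abs
  have hjm : Measurable fun z : ℝ × X => {z : ℝ × X | z.1 < |u z.2|}.indicator
      (fun z => w z.2) z := (hw.comp measurable_snd).indicator hset
  have hpm : Measurable fun t : ℝ => ENNReal.ofReal (t ^ (α - 1)) :=
    ENNReal.measurable_ofReal.comp (measurable_id.pow_const _)
  have h1 : ∫⁻ t in Ioi (0 : ℝ), ENNReal.ofReal (t ^ (α - 1)) *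
      ∫⁻ x in {x | t < |u x|}, w x ∂μ = ∫⁻ x, (∫⁻ t in Ioi (0 : ℝ),
        ENNReal.ofReal (t ^ (α - 1)) *
          {z : ℝ × X | z.1 < |u z.2|}.indicator (fun z => w z.2) (t, x)) ∂μ := by
    rw [lintegral_lintegral_swap]
    · refine lintegral_congr fun t => ?_
      rw [← lintegral_indicator (hst t)]
      exact (lintegral_const_mul _ (hjm.comp measurable_prodMk_left)).symm
    · exact (((hpm.comp measurable_snd).mul (hjm.comp measurable_swap))).aemeasurable
  rw [h1]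
  refine lintegral_mono fun x => ?_
  have h2 : ∀ t ∈ Ioi (0 : ℝ), ENNReal.ofReal (t ^ (α - 1)) *
        {z : ℝ × X | z.1 < |u z.2|}.indicator (fun z => w z.2) (t, x) ≤
      (Ico 0 |u x|).indicator (fun _ => ENNReal.ofReal (|u x| ^ (α - 1)) * w x) t := by
    intro t ht
    by_cases h3 : t < |u x|
    · rw [indicator_of_mem (show (t, x) ∈ {z : ℝ × X | z.1 < |u z.2|} from h3),
        indicator_of_mem (show t ∈ Ico 0 |u x| from ⟨le_of_lt ht, h3⟩)]
      refine mul_le_mul_left (ENNReal.ofReal_le_ofReal ?_) _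
      exact Real.rpow_le_rpow (le_of_lt ht) h3.le (by linarith)
    · rw [indicator_of_notMem (show (t, x) ∉ {z : ℝ × X | z.1 < |u z.2|} from h3), mul_zero]
      exact zero_le
  refine (setLIntegral_mono' measurableSet_Ioi h2).trans ?_
  refine (setLIntegral_le_lintegral _ _).trans ?_
  rw [lintegral_indicator measurableSet_Ico, setLIntegral_const, Real.volume_Ico, sub_zero,
    mul_right_comm, ← ENNReal.ofReal_mul (by positivity)]
  refine mul_le_mul_left (ENNReal.ofReal_le_ofReal ?_) _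
  rcases (abs_nonneg (u x)).eq_or_lt with h3 | h3
  · rw [← h3, mul_zero]
    positivity
  · nth_rw 2 [← Real.rpow_one |u x|]
    rw [← Real.rpow_add h3, sub_add_cancel]

/-- the constant -/
noncomputable def KV (n : ℕ) (C : ℝ≥0) : ℝ≥0∞ :=
  2 * ((ENNReal.ofReal (2 * (n : ℝ) / (n - 2)) *
    ENNReal.ofReal (2 ^ (2 * ((n : ℝ) - 1) / (n - 2))) ^ ((n : ℝ) / (n - 1) - 1)) ^
      (((n : ℝ) - 1) / n) * (C : ℝ≥0∞) ^ (1 / (n : ℝ))) ^ (2 : ℝ)

theorem KV_ne_top {n : ℕ} (hn : 3 ≤ n) (C : ℝ≥0) : KV n C ≠ ⊤ := by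
  have hn3 : (3 : ℝ) ≤ n := by exact_mod_cast hn
  have h1 : 0 ≤ (n : ℝ) / (n - 1) - 1 := by
    rw [sub_nonneg, le_div_iff₀ (by linarith)]; linarith
  have h2 : 0 ≤ ((n : ℝ) - 1) / n := div_nonneg (by linarith) (by linarith)
  unfold KV
  refine ENNReal.mul_ne_top (by simp) (ENNReal.rpow_ne_top_of_nonneg (by norm_num)
    (ENNReal.mul_ne_top (ENNReal.rpow_ne_top_of_nonneg h2 (ENNReal.mul_ne_top
      ENNReal.ofReal_ne_top (ENNReal.rpow_ne_top_of_nonneg h1 ENNReal.ofReal_ne_top)))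
      (ENNReal.rpow_ne_top_of_nonneg (by positivity) ENNReal.coe_ne_top)))

/-- **From the isoperimetric inequality to the Sobolev inequality.** -/
theorem sob_of_iso [SFinite μ] {n : ℕ} (hn : 3 ≤ n) (C : ℝ≥0) {u : X → ℝ} (hu : Measurable u)
    {D w : X → ℝ≥0∞} (hD : Measurable D) (hw : Measurable w)
    (hN : ∫⁻ x, ENNReal.ofReal (|u x| ^ (2 * (n : ℝ) / (n - 2))) ∂μ ≠ ⊤)
    (h : ∀ t, 0 < t → μ {x | t < |u x|} ^ (n - 1) ≤ C *
      (liminf (fun ε : ℝ => ∫⁻ x in {x | t < |u x| ∧ |u x| ≤ t + ε},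
        D x / ENNReal.ofReal ε ∂μ) (𝓝[>] 0) + ∫⁻ x in {x | t < |u x|}, w x ∂μ) ^ n) :
    (∫⁻ x, ENNReal.ofReal (|u x| ^ (2 * (n : ℝ) / (n - 2))) ∂μ) ^ (((n : ℝ) - 2) / n) ≤
      KV n C * (∫⁻ x, D x ^ (2 : ℝ) ∂μ + ∫⁻ x, (ENNReal.ofReal |u x| * w x) ^ (2 : ℝ) ∂μ) := by
  have hn3 : (3 : ℝ) ≤ n := by exact_mod_cast hn
  have hn0 : (n : ℝ) ≠ 0 := by linarith
  have hn1 : (n : ℝ) - 1 ≠ 0 := by linarith
  have hn2 : (n : ℝ) - 2 ≠ 0 := by linarith
  set p : ℝ := 2 * (n : ℝ) / (n - 2) with hp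
  set α : ℝ := 2 * ((n : ℝ) - 1) / (n - 2) with hα
  set q : ℝ := (n : ℝ) / (n - 1) with hq
  set b : ℝ := ((n : ℝ) - 1) / n with hb
  have hp0 : 0 < p := div_pos (by linarith) (by linarith)
  have hα1 : 1 ≤ α := by rw [hα, le_div_iff₀ (by linarith)]; linarith
  have hq1 : 1 ≤ q := by rw [hq, le_div_iff₀ (by linarith)]; linarith
  have hb0 : 0 < b := div_pos (by linarith) (by linarith)
  have hbq : b * q = 1 := by rw [hb, hq]; field_simp
  have hαq : α * q = p := by rw [hα, hq, hp]; field_simp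
  have hα2 : (α - 1) * 2 = p := by rw [hα, hp]; field_simp; ring
  set N := ∫⁻ x, ENNReal.ofReal (|u x| ^ p) ∂μ with hNd
  set m : ℝ → ℝ≥0∞ := fun t => μ {x | t < |u x|} with hm
  have hma : Antitone m := fun s t hst => measure_mono fun x hx => lt_of_le_of_lt hst hx
  set P : ℝ → ℝ≥0∞ := fun t => liminf (fun ε : ℝ => ∫⁻ x in {x | t < |u x| ∧ |u x| ≤ t + ε},
        D x / ENNReal.ofReal ε ∂μ) (𝓝[>] 0) with hP
  set V : ℝ → ℝ≥0∞ := fun t => ∫⁻ x in {x | t < |u x|}, w x ∂μ with hV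
  have hVa : Antitone V := fun s t hst => lintegral_mono_set fun x hx => lt_of_le_of_lt hst hx
  set J := ∫⁻ s in Ioi (0 : ℝ), ENNReal.ofReal (s ^ (α - 1)) * m s ^ b with hJ
  set c₁ : ℝ≥0∞ := (C : ℝ≥0∞) ^ (1 / (n : ℝ)) with hc₁
  set a₁ := ∫⁻ x, D x ^ (2 : ℝ) ∂μ with ha₁
  set a₂ := ∫⁻ x, (ENNReal.ofReal |u x| * w x) ^ (2 : ℝ) ∂μ with ha₂
  have hpm : Measurable fun t : ℝ => ENNReal.ofReal (t ^ (α - 1)) :=
    ENNReal.measurable_ofReal.comp (measurable_id.pow_const _)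
  have hum : Measurable fun x => ENNReal.ofReal (|u x| ^ (α - 1)) :=
    ENNReal.measurable_ofReal.comp (hu.abs.pow_const _)
  -- the isoperimetric inequality
  have h1 : ∀ t, 0 < t → m t ^ b ≤ c₁ * (P t + V t) := by
    intro t ht
    have h2 := ENNReal.rpow_le_rpow (z := 1 / (n : ℝ)) (h t ht) (by positivity)
    rw [ENNReal.mul_rpow_of_nonneg _ _ (by positivity), ← ENNReal.rpow_natCast _ n,
      ← ENNReal.rpow_mul, ← ENNReal.rpow_natCast _ (n - 1), ← ENNReal.rpow_mul,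
      mul_one_div_cancel hn0, ENNReal.rpow_one] at h2
    rw [show ((n - 1 : ℕ) : ℝ) * (1 / n) = b by
      rw [hb, Nat.cast_sub (by omega), Nat.cast_one]; ring] at h2
    exact h2
  -- the bound of `J`
  have h2 : J ≤ c₁ * (N ^ (1 / 2 : ℝ) * (a₁ ^ (1 / 2 : ℝ) + a₂ ^ (1 / 2 : ℝ))) := by
    have i1 : J ≤ c₁ * (∫⁻ x, ENNReal.ofReal (|u x| ^ (α - 1)) * D x ∂μ +
        ∫⁻ x, ENNReal.ofReal (|u x| ^ α) * w x ∂μ) := by
      calc J ≤ ∫⁻ t in Ioi (0 : ℝ), c₁ * (ENNReal.ofReal (t ^ (α - 1)) * P t +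
            ENNReal.ofReal (t ^ (α - 1)) * V t) := by
            refine setLIntegral_mono' measurableSet_Ioi fun t ht => ?_
            refine (mul_le_mul_right (h1 t ht) _).trans (le_of_eq ?_)
            ring
        _ = c₁ * ((∫⁻ t in Ioi (0 : ℝ), ENNReal.ofReal (t ^ (α - 1)) * P t) +
            ∫⁻ t in Ioi (0 : ℝ), ENNReal.ofReal (t ^ (α - 1)) * V t) := by
            rw [lintegral_const_mul' _ _ (ENNReal.rpow_ne_top_of_nonneg (by positivity)
              ENNReal.coe_ne_top)]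
            exact congrArg _ (lintegral_add_right _ (hpm.mul hVa.measurable))
        _ ≤ _ := mul_le_mul_right (add_le_add (int_per hα1 hu hD) (int_pot hα1 hu hw)) _
    have hpow : ∀ x, ENNReal.ofReal (|u x| ^ (α - 1)) ^ (2 : ℝ) = ENNReal.ofReal (|u x| ^ p) :=
      fun x => by
        rw [ENNReal.ofReal_rpow_of_nonneg (by positivity) (by norm_num),
          ← Real.rpow_mul (abs_nonneg _), hα2]
    have hcs : ∀ g : X → ℝ≥0∞, Measurable g →
        ∫⁻ x, ENNReal.ofReal (|u x| ^ (α - 1)) * g x ∂μ ≤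
          N ^ (1 / 2 : ℝ) * (∫⁻ x, g x ^ (2 : ℝ) ∂μ) ^ (1 / 2 : ℝ) := by
      intro g hg
      have := ENNReal.lintegral_mul_le_Lp_mul_Lq μ Real.HolderConjugate.two_two hum.aemeasurable
        hg.aemeasurable
      simp only [hpow, Pi.mul_apply] at this
      exact this
    have i2 : ∫⁻ x, ENNReal.ofReal (|u x| ^ α) * w x ∂μ =
        ∫⁻ x, ENNReal.ofReal (|u x| ^ (α - 1)) * (ENNReal.ofReal |u x| * w x) ∂μ := by
      refine lintegral_congr fun x => ?_
      rw [← mul_assoc, ← ENNReal.ofReal_mul (by positivity)]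
      congr 2
      rcases (abs_nonneg (u x)).eq_or_lt with h3 | h3
      · rw [← h3, mul_zero, Real.zero_rpow (by linarith)]
      · nth_rw 3 [← Real.rpow_one |u x|]
        rw [← Real.rpow_add h3, sub_add_cancel]
    rw [i2] at i1
    refine i1.trans (mul_le_mul_right ?_ _)
    rw [mul_add]
    exact add_le_add (hcs _ hD) (hcs _ (hu.abs.ennreal_ofReal.mul hw))
  -- the distribution function
  have h3 : N ≤ ENNReal.ofReal p * ENNReal.ofReal (2 ^ α) ^ (q - 1) * J ^ q := by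
    have i1 := lintegral_rpow_eq_lintegral_meas_lt_mul μ (f := fun x => |u x|)
      (Eventually.of_forall fun x => abs_nonneg _) hu.abs.aemeasurable hp0
    rw [hNd, i1, mul_assoc]
    refine mul_le_mul_right ?_ _
    have i2 := dist_int hma hα1 hb0 hq1 hbq hαq
    calc _ = ∫⁻ t in Ioi (0 : ℝ), ENNReal.ofReal (t ^ (p - 1)) * m t :=
          lintegral_congr fun t => mul_comm _ _
      _ ≤ _ := i2
      _ = _ := by
        rw [← hJ, ENNReal.mul_rpow_of_nonneg _ _ (by linarith), mul_assoc]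
        congr 1
        nth_rw 2 [← ENNReal.rpow_one J]
        rw [← ENNReal.rpow_add_of_nonneg _ _ (by linarith) zero_le_one, sub_add_cancel]
  set A₁ := ENNReal.ofReal p * ENNReal.ofReal (2 ^ α) ^ (q - 1) with hA₁
  have h4 : N ^ b ≤ A₁ ^ b * J := by
    have i1 := ENNReal.rpow_le_rpow h3 hb0.le
    rwa [ENNReal.mul_rpow_of_nonneg _ _ hb0.le, ← ENNReal.rpow_mul, mul_comm q b, hbq,
      ENNReal.rpow_one] at i1
  by_cases hN0 : N = 0
  · rw [hN0, ENNReal.zero_rpow_of_pos (div_pos (by linarith) (by linarith))]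
    exact zero_le
  set θ : ℝ := ((n : ℝ) - 2) / (2 * n) with hθ
  have h5 : N ^ θ ≤ A₁ ^ b * c₁ * (a₁ ^ (1 / 2 : ℝ) + a₂ ^ (1 / 2 : ℝ)) := by
    have i1 : N ^ (1 / 2 : ℝ) * N ^ θ ≤
        N ^ (1 / 2 : ℝ) * (A₁ ^ b * c₁ * (a₁ ^ (1 / 2 : ℝ) + a₂ ^ (1 / 2 : ℝ))) := by
      rw [← ENNReal.rpow_add _ _ hN0 hN, show 1 / 2 + θ = b by rw [hθ, hb]; field_simp; ring]
      refine h4.trans ((mul_le_mul_right h2 _).trans (le_of_eq ?_))
      ring
    have i2 : N ^ (1 / 2 : ℝ) ≠ 0 := by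
      rw [Ne, ENNReal.rpow_eq_zero_iff]
      rintro (⟨h, -⟩ | ⟨-, h⟩)
      · exact hN0 h
      · linarith
    have i3 : N ^ (1 / 2 : ℝ) ≠ ⊤ := ENNReal.rpow_ne_top_of_nonneg (by norm_num) hN
    exact (ENNReal.mul_le_mul_iff_right i2 i3).1 i1
  have h6 := ENNReal.rpow_le_rpow (z := 2) h5 (by norm_num)
  rw [← ENNReal.rpow_mul, show θ * 2 = ((n : ℝ) - 2) / n by rw [hθ]; field_simp] at h6
  refine h6.trans ?_
  rw [ENNReal.mul_rpow_of_nonneg _ _ (by norm_num)]
  have h7 := ENNReal.rpow_add_le_mul_rpow_add_rpow (a₁ ^ (1 / 2 : ℝ)) (a₂ ^ (1 / 2 : ℝ))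
    (p := 2) (by norm_num)
  rw [← ENNReal.rpow_mul, ← ENNReal.rpow_mul, show (1 / 2 : ℝ) * 2 = 1 by norm_num,
    ENNReal.rpow_one, ENNReal.rpow_one, show (2 : ℝ) - 1 = 1 by norm_num, ENNReal.rpow_one] at h7
  refine (mul_le_mul_right h7 _).trans (le_of_eq ?_)
  unfold KV
  rw [← hp, ← hα, ← hq, ← hb, ← hA₁, ← hc₁]
  ring

end

end Vale.Agent.P223.H391.V7
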