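import Vale.Agent.P223.H391.Grd
import Vale.Agent.P223.H391.V7a

/-! BLOCK V7: the Sobolev inequality from the isoperimetric inequality. -/

namespace Vale.Agent.P223.H391

open scoped ContDiff Topology ENNReal NNReal
open MeasureTheory Set Vale.Agent.P223.H Vale.Agent.P223.X Vale.Agent.P223.H566

theorem specSobV (hI : NV.SpecIso) : NV.SpecSobV := by
  intro n hn
  have hn3 : (3 : ℝ) ≤ n := by exact_mod_cast hn
  obtain ⟨C, hC⟩ := hI n (by omega)
  have hK := V7.KV_ne_top hn C
  set κ : ℝ := (V7.KV n C).toReal with hκ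
  have hκ0 : 0 ≤ κ := ENNReal.toReal_nonneg
  refine ⟨(κ + 1)⁻¹, 1, by positivity, one_pos, ?_⟩
  intro X _ _ c g r hc hg hr hinj _ _ μ hμ u hu hcs
  have hlf := loc_fin hc hg hμ
  have huc := Sm_cont hc hu
  have hgc := cont_gsq hc hg hu
  have hrc := Sm_cont hc hr.1
  have hDc := cont_grd hc hg hu
  have hr0 : ∀ q, 0 < r q := fun q => (hinj q).1
  set K : Set X := tsupport u with hKd
  have hKc : IsCompact K := hcs
  set ν : Measure X := μ.restrict K with hν
  have : IsFiniteMeasure ν := ⟨by rw [hν, Measure.restrict_apply_univ]; exact hKc.measure_lt_top⟩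
  set p : ℝ := 2 * (n : ℝ) / (n - 2) with hp
  have hp0 : 0 < p := div_pos (by linarith) (by linarith)
  set D : X → ℝ≥0∞ := fun q => ENNReal.ofReal (NV.grd c g u q) with hD
  set w : X → ℝ≥0∞ := fun q => ENNReal.ofReal (1 / r q) with hw
  have hDm : Measurable D := ENNReal.measurable_ofReal.comp hDc.measurable
  have hwm : Measurable w := ENNReal.measurable_ofReal.comp
    (continuous_const.div hrc fun q => (hr0 q).ne').measurable
  -- everything vanishes outside `K`
  have hu0 : ∀ q, q ∉ K → u q = 0 := fun q hq => image_eq_zero_of_notMem_tsupport hq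
  have hlev : ∀ t, 0 < t → {q | t < |u q|} ⊆ K := fun t ht q hq => by
    by_contra hcon
    have h1 : t < |u q| := hq
    rw [hu0 q hcon, abs_zero] at h1
    linarith
  have hres : ∀ A : Set X, A ⊆ K → ν.restrict A = μ.restrict A := fun A hA => by
    rw [hν, Measure.restrict_restrict_of_subset hA]
  have hcont : ∀ {F : X → ℝ}, Continuous F → (∀ q, q ∉ K → F q = 0) → Integrable F μ :=
    fun {F} hF h0 => hF.integrable_of_hasCompactSupport (HasCompactSupport.intro hKc h0)
  -- the Sobolev inequality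
  have huN : Continuous fun q => |u q| ^ p := huc.abs.rpow_const fun q => Or.inr hp0.le
  have hu0N : ∀ q, q ∉ K → |u q| ^ p = 0 := fun q hq => by
    rw [hu0 q hq, abs_zero, Real.zero_rpow hp0.ne']
  have e1 : ∫⁻ q, ENNReal.ofReal (|u q| ^ p) ∂ν = ENNReal.ofReal (∫ q, |u q| ^ p ∂μ) := by
    rw [ofReal_integral_eq_lintegral_ofReal (hcont huN hu0N)
      (Filter.Eventually.of_forall fun q => by positivity), hν]
    refine setLIntegral_eq_of_support_subset ?_
    intro q hq
    by_contra hcon
    exact hq (by simp only [hu0N q hcon, ENNReal.ofReal_zero])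
  have h1 := V7.sob_of_iso (μ := ν) hn C huc.measurable hDm hwm (by
    rw [← hp, e1]; exact ENNReal.ofReal_ne_top) (fun t ht => by
      have h2 := hC X μ c g r hc hg hμ hr hinj u hu hcs t ht
      have h3 : ν {x | t < |u x|} = μ {x | t < |u x|} := by
        rw [hν, Measure.restrict_apply (measurableSet_lt measurable_const huc.abs.measurable),
          inter_eq_left.2 (hlev t ht)]
      have h4 : NV.per c g μ u t univ = Filter.liminf (fun ε : ℝ =>
          ∫⁻ x in {x | t < |u x| ∧ |u x| ≤ t + ε}, D x / ENNReal.ofReal ε ∂ν) (𝓝[>] 0) := by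
        unfold NV.per
        refine Filter.liminf_congr ?_
        filter_upwards [self_mem_nhdsWithin] with ε hε
        rw [univ_inter, hres _ (fun q hq => hlev t ht hq.1)]
        refine lintegral_congr fun q => ?_
        rw [hD, ENNReal.ofReal_div_of_pos hε]
      rw [h3, ← h4, hres _ (hlev t ht)]
      exact h2)
  rw [← hp] at h1
  have hF : Continuous fun q => J.gsq (g q) (fun x => u ((c q).symm x)) (c q q) +
      1 / r q ^ 2 * u q ^ 2 :=
    hgc.add ((continuous_const.div (hrc.pow 2) fun q => (pow_pos (hr0 q) 2).ne').mul (huc.pow 2))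
  have hgq0 : ∀ q, q ∉ K → J.gsq (g q) (fun x => u ((c q).symm x)) (c q q) = 0 := fun q hq =>
    gsq_out hc hq
  have hF0 : ∀ q, 0 ≤ J.gsq (g q) (fun x => u ((c q).symm x)) (c q q) +
      1 / r q ^ 2 * u q ^ 2 := fun q => by
    have := gsq_nonneg hc hg u q
    positivity
  have e2 : ∫⁻ x, D x ^ (2 : ℝ) ∂ν + ∫⁻ x, (ENNReal.ofReal |u x| * w x) ^ (2 : ℝ) ∂ν ≤
      ENNReal.ofReal (∫ q, (J.gsq (g q) (fun x => u ((c q).symm x)) (c q q) +
      1 / r q ^ 2 * u q ^ 2) ∂μ) := by
    rw [ofReal_integral_eq_lintegral_ofReal (hcont hF (fun q hq => by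
      rw [hgq0 q hq, hu0 q hq]; simp)) (Filter.Eventually.of_forall hF0),
      ← lintegral_add_left (hDm.pow_const _)]
    refine le_trans (le_of_eq ?_) (setLIntegral_le_lintegral K _)
    refine lintegral_congr fun q => ?_
    rw [ENNReal.ofReal_add (gsq_nonneg hc hg u q) (by positivity)]
    congr 1
    · simp only [hD, NV.grd]
      rw [ENNReal.ofReal_rpow_of_nonneg (Real.sqrt_nonneg _) (by norm_num), Real.rpow_two,
        Real.sq_sqrt (gsq_nonneg hc hg u q)]
    · simp only [hw]
      rw [← ENNReal.ofReal_mul (abs_nonneg _), ENNReal.ofReal_rpow_of_nonneg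
        (mul_nonneg (abs_nonneg _) (by have := hr0 q; positivity)) (by norm_num), Real.rpow_two,
        mul_pow, sq_abs, div_pow, one_pow]
      ring_nf
  rw [e1] at h1
  have h2 := h1.trans (mul_le_mul_right e2 _)
  have hI0 : 0 ≤ ∫ q, |u q| ^ p ∂μ := integral_nonneg fun q => by positivity
  have hR0 : 0 ≤ ∫ q, (J.gsq (g q) (fun x => u ((c q).symm x)) (c q q) +
      1 / r q ^ 2 * u q ^ 2) ∂μ := integral_nonneg hF0
  rw [ENNReal.ofReal_rpow_of_nonneg hI0 (div_nonneg (by linarith) (by linarith)),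
    ← ENNReal.ofReal_toReal hK, ← hκ, ← ENNReal.ofReal_mul hκ0] at h2
  have h3 := (ENNReal.ofReal_le_ofReal_iff (mul_nonneg hκ0 hR0)).1 h2
  rw [inv_mul_le_iff₀ (by positivity)]
  exact h3.trans (mul_le_mul_of_nonneg_right (by linarith) hR0)

end Vale.Agent.P223.H391
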