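import Vale.Agent.P223.H566.InjDef

/-! Definitions for the statements: Sobolev inequalities in balls of the universal covering. -/

namespace Vale.Agent.P223.J

open scoped ContDiff
open MeasureTheory

/-- The Sobolev inequality `y (∫ |u|^(2n/(n-2)))^((n-2)/n) ≤ ∫ (|du|² + k u²)` for all smooth
functions `u` with compact support in the open ball with centre `x` and radius `R` of the
Riemannian manifold `(X, g)` (`μ` is the Riemannian measure); the distance of `x` and `z` is the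
supremum of `|w x - w z|`, `w` a smooth function with `|dw| ≤ 1`. -/
def SobAt {n : ℕ} {X : Type} [TopologicalSpace X] (c : X → Ch n X) (g : X → Mtx n) (k : X → ℝ)
    (y : ℝ) (x : X) (R : ℝ) : Prop :=
  ∀ (_ : MeasurableSpace X) (_ : BorelSpace X) (μ : Measure X), Vol c g μ → ∀ u : X → ℝ,
    Sm c u → HasCompactSupport u →
      (∃ s, s < R ∧ ∀ z, u z ≠ 0 → ∀ w, Lip1 c g w → |w x - w z| ≤ s) →
      y * (∫ q, |u q| ^ (2 * (n : ℝ) / (n - 2)) ∂μ) ^ (((n : ℝ) - 2) / n) ≤
        ∫ q, (gsq (g q) (fun x => u ((c q).symm x)) (c q q) + k q * u q ^ 2) ∂μ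

/-- The Sobolev inequality with potential `k` in all balls with centre `x` and radius `r (f x)` of
the universal covering `X` of `(M, g)`, `f : X → M` being the covering map. -/
def UCSobAt {n : ℕ} {M : Type} [TopologicalSpace M] (c : M → Ch n M) (g : M → Mtx n) (k : M → ℝ)
    (y : ℝ) (r : M → ℝ) : Prop :=
  ∀ (X : Type) (_ : TopologicalSpace X) (f : X → M) (c' : X → Ch n X), SimplyConnectedSpace X →
    CovAtl c f c' → ∀ x, SobAt c' (fun q => g (f q)) (fun q => k (f q)) y x (r (f x))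

/-- `‖M‖ ≤ a ∫ max(0, h - Scal_g)^(n/2) dV_g`, and if `Scal_g ≤ -s < 0` and `h - Scal_g ≤ κ` then
`‖M‖ ≤ a (κ / s)^(n/2) ∫ (Scal⁻)^(n/2) dV` for all metrics `exp(2f) g`. -/
def Ineq {n : ℕ} {M : Type} [TopologicalSpace M] [MeasurableSpace M] (c : M → Ch n M)
    (g : M → Mtx n) (μ : Measure M) (a : ℝ) (h : M → ℝ) : Prop :=
  sv c ≤ ENNReal.ofReal a * L n μ (fun p => max 0 (h p - scal (g p) (c p p))) ∧
  ∀ (s κ : ℝ) (f : M → ℝ) (μ' : Measure M), 0 < s →
    (∀ p, scal (g p) (c p p) ≤ -s ∧ h p - scal (g p) (c p p) ≤ κ) → Sm c f →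
    Vol c (conf c f g) μ' →
    sv c ≤ ENNReal.ofReal (a * (κ / s) ^ ((n : ℝ) / 2)) * L n μ' (sn c (conf c f g))

end Vale.Agent.P223.J
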