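import Vale.Agent.P223.H391.SupPL

/-! Sup bound for `p = D g` with a weight: local inequalities. -/

namespace Vale.Agent.P223.H391

open scoped ContDiff InnerProductSpace Topology
open MeasureTheory Vale.Agent.P223.H Vale.Agent.P223.X Vale.Agent.P223.H566

theorem tst_mono {δ : ℝ} {F : ℝ → ℝ} (hF : Tst δ F) : Monotone F :=
  monotone_of_deriv_nonneg (hF.smooth.differentiable (by simp)) hF.mono

theorem prim_nonneg {δ : ℝ} {F : ℝ → ℝ} (hF : Tst δ F) {t : ℝ} (ht : 0 ≤ t) : 0 ≤ prim F t :=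
  intervalIntegral.integral_nonneg ht fun _ _ => hF.nonneg _

theorem prim_le {δ : ℝ} {F : ℝ → ℝ} (hF : Tst δ F) {t : ℝ} (ht : 0 ≤ t) : prim F t ≤ t * F t := by
  have h1 : ∫ _ in (0 : ℝ)..t, F t = t * F t := by
    rw [intervalIntegral.integral_const, sub_zero, smul_eq_mul]
  rw [← h1]
  refine intervalIntegral.integral_mono_on ht ?_ ?_ fun r hr => tst_mono hF hr.2
  · exact hF.smooth.continuous.intervalIntegrable _ _
  · exact continuous_const.intervalIntegrable _ _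

section
variable {n : ℕ} {V : Type} [NormedAddCommGroup V] [InnerProductSpace ℂ V] (K : Cliff n V)
  {G β : E n → Matrix (Fin n) (Fin n) ℝ} [FiniteDimensional ℂ V]

/-- the Laplacian of `P(q) W` -/
theorem lap_PW (h2 : ∀ x, (G x).PosDef) {q W : E n → ℝ} (hq : ContDiff ℝ ∞ q)
    (hW : ContDiff ℝ ∞ W) {F : ℝ → ℝ} {δ : ℝ} (hF : Tst δ F) (y : E n) :
    lap G (fun z => prim F (q z) * W z) y = F (q y) * lap G (fun z => q z * W z) y -
      (q y * F (q y) - prim F (q y)) * lap G W y + W y * deriv F (q y) * gradSq G q y := by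
  have hdf : ∀ t, HasDerivAt F (deriv F t) t := fun t =>
    (hF.smooth.differentiable (by simp) t).hasDerivAt
  have hP : ContDiff ℝ ∞ (fun z => prim F (q z)) := (prim_smooth hF.smooth).comp hq
  have e1 : lap G (fun z => prim F (q z)) y = F (q y) * lap G q y +
      deriv F (q y) * gradSq G q y :=
    B25c.lap_comp (contDiff_infty.1 hq 2) (fun t => prim_deriv hF.smooth.continuous t) hdf y
  have hqd : DifferentiableAt ℝ q y := hq.differentiable (by simp) y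
  have hip : gradIp G (fun z => prim F (q z)) W y = F (q y) * gradIp G q W y := by
    rw [Grad.gradIp_comm (h2 y), Grad.gradIp_comp_right (prim_deriv hF.smooth.continuous _) hqd,
      Grad.gradIp_comm (h2 y)]
  rw [lap_mul' h2 hP hW, lap_mul' h2 hq hW, e1, hip]
  ring

/-- the pointwise inequality for `f = |φ|² + a |η|²` and the weight `W` -/
theorem locPW (hL : SpecLocal) (h1 : ∀ i j, ContDiff ℝ ∞ (fun x => G x i j))
    (h2 : ∀ x, (G x).PosDef) (hβ : Fr G β) {φ η : E n → V} (hφ : ContDiff ℝ ∞ φ)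
    (hη : ContDiff ℝ ∞ η) {W : E n → ℝ} (hW : ContDiff ℝ ∞ W) (hW0 : ∀ z, 0 < W z)
    {a s M m δ : ℝ} (ha : 0 ≤ a) {F : ℝ → ℝ} (hF : Tst δ F) (y : E n)
    (hs : -(4 * s) ≤ H.scal G y)
    (hWs : -(2 * s) * W y ≤ -lap G W y + H.scal G y / 2 * W y) :
    F ((‖φ y‖ ^ 2 + a * ‖η y‖ ^ 2) / W y) * ((M ^ 2 - s) * ‖φ y‖ ^ 2 +
        a * ((m ^ 2 - s - a * n / 4) * ‖η y‖ ^ 2)) ≤
      F ((‖φ y‖ ^ 2 + a * ‖η y‖ ^ 2) / W y) * (M ^ 2 * ‖φ y‖ ^ 2 -
        (⟪dir K G β (dir K G β φ) y, φ y⟫_ℂ).re + a * (m ^ 2 * ‖η y‖ ^ 2 -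
        (⟪dir K G β (dir K G β η) y, η y⟫_ℂ).re) - a * (⟪dir K G β φ y, η y⟫_ℂ).re) +
      1 / 2 * lap G (fun z => prim F ((‖φ z‖ ^ 2 + a * ‖η z‖ ^ 2) / W z) * W z) y := by
  obtain ⟨-, hlich, hkato, -⟩ := hL n V K G β h1 h2 hβ
  have hφ2 : ContDiff ℝ ∞ (fun z => ‖φ z‖ ^ 2) := hφ.norm_sq ℂ
  have hη2 : ContDiff ℝ ∞ (fun z => ‖η z‖ ^ 2) := hη.norm_sq ℂ
  have haη : ContDiff ℝ ∞ (fun z => a * ‖η z‖ ^ 2) := contDiff_const.mul hη2
  set f : E n → ℝ := fun z => ‖φ z‖ ^ 2 + a * ‖η z‖ ^ 2 with hf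
  have hfs : ContDiff ℝ ∞ f := hφ2.add haη
  set q : E n → ℝ := fun z => f z / W z with hq
  have hqs : ContDiff ℝ ∞ q := hfs.div hW fun z => (hW0 z).ne'
  have hqW : (fun z => q z * W z) = f := by
    funext z
    simp only [hq]
    exact div_mul_cancel₀ _ (hW0 z).ne'
  have e2 : lap G f y = lap G (fun z => ‖φ z‖ ^ 2) y + a * lap G (fun z => ‖η z‖ ^ 2) y := by
    rw [hf, lap_add' hφ2 haη, lap_mul' h2 contDiff_const hη2]
    have z1 : lap G (fun _ => a) y = 0 := by unfold lap Vale.Agent.P223.H.pd; simp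
    have z2 : gradIp G (fun _ => a) (fun z => ‖η z‖ ^ 2) y = 0 := by
      unfold gradIp Vale.Agent.P223.H.pd; simp
    rw [z1, z2]; ring
  have e1 := lap_PW (y := y) h2 hqs hW hF
  rw [hqW, e2] at e1
  have l1 := hlich φ hφ y
  have l2 := hlich η hη y
  have k1 := (hkato φ hφ y).1
  have k2 := (hkato η hη y).1
  have d1 := norm_dir_sq_le K hβ φ y
  have c1 : (⟪dir K G β φ y, η y⟫_ℂ).re ≤ ‖dir K G β φ y‖ * ‖η y‖ :=
    (Complex.re_le_norm _).trans (norm_inner_le_norm _ _)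
  have hg : 0 ≤ gradSq G q y := Grad.gradSq_nonneg' (h2 y) q
  have hW0y := hW0 y
  have hf0 : 0 ≤ f y := by
    change 0 ≤ ‖φ y‖ ^ 2 + a * ‖η y‖ ^ 2
    positivity
  have hq0 : 0 ≤ q y := div_nonneg hf0 hW0y.le
  have hqWy : q y * W y = ‖φ y‖ ^ 2 + a * ‖η y‖ ^ 2 := congrFun hqW y
  have hF0 := hF.nonneg (q y)
  have hF' := hF.mono (q y)
  have hP0 := prim_nonneg hF hq0
  have hP1 := prim_le hF hq0
  change F (q y) * _ ≤ F (q y) * _ + 1 / 2 * lap G (fun z => prim F (q z) * W z) y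
  rw [e1]
  generalize lap G (fun z => ‖φ z‖ ^ 2) y = L1 at *
  generalize lap G (fun z => ‖η z‖ ^ 2) y = L2 at *
  generalize nsq K G β φ y = N1 at *
  generalize nsq K G β η y = N2 at *
  generalize (⟪dir K G β (dir K G β φ) y, φ y⟫_ℂ).re = R1 at *
  generalize (⟪dir K G β (dir K G β η) y, η y⟫_ℂ).re = R2 at *
  generalize (⟪dir K G β φ y, η y⟫_ℂ).re = R3 at *
  generalize gradSq G q y = g at *
  generalize lap G W y = LW at *
  generalize deriv F (q y) = F' at *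
  generalize prim F (q y) = P at *
  generalize F (q y) = f0 at *
  generalize H.scal G y = Sc at *
  generalize W y = Wy at *
  generalize q y = Q at *
  have n1 := norm_nonneg (dir K G β φ y)
  generalize ‖dir K G β φ y‖ = d at *
  have n2 := norm_nonneg (η y)
  have n3 := norm_nonneg (φ y)
  generalize ‖η y‖ = t at *
  generalize ‖φ y‖ = u at *
  clear e1 e2
  -- `a d t ≤ N1 + a² n t² / 4`
  have key : a * R3 ≤ N1 + a ^ 2 * n / 4 * t ^ 2 := by
    have q1 : a * R3 ≤ a * (d * t) := mul_le_mul_of_nonneg_left c1 ha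
    by_cases hn : (n : ℝ) = 0
    · rw [hn] at d1 ⊢
      have : d = 0 := by nlinarith
      rw [this] at q1
      nlinarith
    · have hn0 : (0 : ℝ) < n := lt_of_le_of_ne (Nat.cast_nonneg n) (Ne.symm hn)
      have q2 : a * (d * t) ≤ d ^ 2 / n + a ^ 2 * n / 4 * t ^ 2 := by
        have : d ^ 2 / n + a ^ 2 * n / 4 * t ^ 2 - a * (d * t) = (d - a * n * t / 2) ^ 2 / n := by
          field_simp; ring
        have h : 0 ≤ (d - a * n * t / 2) ^ 2 / n := by positivity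
        linarith
      have q3 : d ^ 2 / n ≤ N1 := by
        rw [div_le_iff₀ hn0]; linarith
      linarith
  have s1 : 0 ≤ (s + Sc / 4) * (P * Wy) := by
    have : 0 ≤ s + Sc / 4 := by linarith
    positivity
  have s2 : 0 ≤ (Q * f0 - P) * (1 / 2 * (-LW + Sc / 2 * Wy + 2 * s * Wy)) :=
    mul_nonneg (by linarith) (by linarith)
  have s3 : 0 ≤ f0 * (N1 + a ^ 2 * n / 4 * t ^ 2 - a * R3) := mul_nonneg hF0 (by linarith)
  have s4 : 0 ≤ 1 / 2 * (Wy * F' * g) := by positivity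
  have s5 : 0 ≤ f0 * (a * N2) := by positivity
  have e : f0 * (M ^ 2 * u ^ 2 - R1 + a * (m ^ 2 * t ^ 2 - R2) - a * R3) +
      1 / 2 * (f0 * (L1 + a * L2) - (Q * f0 - P) * LW + Wy * F' * g) -
      f0 * ((M ^ 2 - s) * u ^ 2 + a * ((m ^ 2 - s - a * n / 4) * t ^ 2)) =
      (s + Sc / 4) * (P * Wy) + (Q * f0 - P) * (1 / 2 * (-LW + Sc / 2 * Wy + 2 * s * Wy)) +
      f0 * (N1 + a ^ 2 * n / 4 * t ^ 2 - a * R3) + 1 / 2 * (Wy * F' * g) + f0 * (a * N2) := by
    linear_combination (f0 / 2) * l1 + (f0 * a / 2) * l2 - f0 * (s + Sc / 4) * hqWy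
  linarith

end

end Vale.Agent.P223.H391
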