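import Vale.Agent.P223.H391.WP1
import Vale.Agent.P223.H391.SupPA

/-! Sup bound for `p = D g` with a weight: integral inequalities. -/

namespace Vale.Agent.P223.H391

open scoped ContDiff InnerProductSpace Topology
open MeasureTheory Vale.Agent.P223.H Vale.Agent.P223.X Vale.Agent.P223.H566

/-- weights: `-Δ W + (Scal / 2 + 2 s) W ≥ 0` -/
structure Wgt {n : ℕ} {M X Γ I : Type} [TopologicalSpace M] [TopologicalSpace X] [Group Γ]
    [MulAction Γ X] (C : Cov n M X Γ I) (G : I → E n → Matrix (Fin n) (Fin n) ℝ) (s : ℝ)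
    (W : X → ℝ) : Prop where
  smooth : C.Ck ∞ W
  pos : ∀ x, 0 < W x
  grad : ∃ c : ℝ, ∀ x, gsX C G W x ≤ (c * W x) ^ 2
  ineq : ∀ (γ : Γ) i y, -(2 * s) * W (γ • C.ψ i y) ≤
    -lap (G i) (C.rep W γ i) y + Vale.Agent.P223.H.scal (G i) y / 2 * W (γ • C.ψ i y)

section
variable {n : ℕ} {M X Γ I V H : Type} [TopologicalSpace M] [TopologicalSpace X]
  [Group Γ] [MulAction Γ X] [Fintype I] [T2Space X] [ConnectedSpace X] [T2Space M]
  [MeasurableSpace X] [BorelSpace X] [NormedAddCommGroup V] [InnerProductSpace ℂ V]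
  [FiniteDimensional ℂ V] [NormedAddCommGroup H] [InnerProductSpace ℂ H] [CompleteSpace H]
  (c : Ctx n M X Γ I V H)

/-- `(|φ|² + a |η|²) / W` -/
noncomputable def pw (C : Cov n M X Γ I) (a : ℝ) (W : X → ℝ) (φ η : Raw Γ I n V) (x : X) : ℝ :=
  pf C a φ η x / W x

omit [Fintype I] [ConnectedSpace X] [T2Space M] [FiniteDimensional ℂ V] [CompleteSpace H]
  [T2Space X] [MeasurableSpace X] [BorelSpace X] [NormedAddCommGroup H]
  [InnerProductSpace ℂ H] in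
theorem Ck_pw {C : Cov n M X Γ I} {G : I → E n → Matrix (Fin n) (Fin n) ℝ} {K : Cliff n V}
    {S : SpX C G K} {s : ℝ} {W : X → ℝ} (hW : Wgt C G s W) (a : ℝ) (φ η : Core S) :
    C.Ck ∞ (pw C a W (φ : Raw Γ I n V) (η : Raw Γ I n V)) := fun γ i =>
  (Ck_pf a φ η γ i).div (hW.smooth γ i) fun y => (hW.pos _).ne'

omit [Fintype I] [ConnectedSpace X] [T2Space M] [FiniteDimensional ℂ V] [CompleteSpace H]
  [T2Space X] [MeasurableSpace X] [BorelSpace X] [NormedAddCommGroup H]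
  [InnerProductSpace ℂ H] in
theorem Ck_comp_pw {C : Cov n M X Γ I} {G : I → E n → Matrix (Fin n) (Fin n) ℝ} {K : Cliff n V}
    {S : SpX C G K} {s : ℝ} {W : X → ℝ} (hW : Wgt C G s W) (a : ℝ) (φ η : Core S) {F : ℝ → ℝ}
    (hF : ContDiff ℝ ∞ F) :
    C.Ck ∞ (fun x => F (pw C a W (φ : Raw Γ I n V) (η : Raw Γ I n V) x)) := fun γ i =>
  hF.comp (Ck_pw hW a φ η γ i)

omit [Fintype I] [ConnectedSpace X] [T2Space M] [FiniteDimensional ℂ V] [CompleteSpace H]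
  [MeasurableSpace X] [BorelSpace X] [NormedAddCommGroup H] [InnerProductSpace ℂ H] in
theorem pw_supp {C : Cov n M X Γ I} {G : I → E n → Matrix (Fin n) (Fin n) ℝ} {K : Cliff n V}
    {S : SpX C G K} (a : ℝ) (W : X → ℝ) (φ η : Core S) :
    HasCompactSupport (pw C a W (φ : Raw Γ I n V) (η : Raw Γ I n V)) := by
  refine HasCompactSupport.intro (pf_supp a φ η).isCompact fun x hx => ?_
  unfold pw
  rw [image_eq_zero_of_notMem_tsupport hx, zero_div]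

omit [Fintype I] [ConnectedSpace X] [T2Space M] [MeasurableSpace X] [BorelSpace X]
  [NormedAddCommGroup H] [InnerProductSpace ℂ H] [CompleteSpace H] in
/-- pointwise inequality on `X` -/
theorem supPA_ptW (hL : SpecLocal) {C : Cov n M X Γ I} {G : I → E n → Matrix (Fin n) (Fin n) ℝ}
    {K : Cliff n V} {S : SpX C G K} {s m m' δ a : ℝ} {F : ℝ → ℝ} (ha : 0 ≤ a)
    (hs : ∀ i y, -(4 * s) ≤ Vale.Agent.P223.H.scal (G i) y) {W : X → ℝ} (hW : Wgt C G s W)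
    (hF : Tst δ F) (φ η : Core S) (x : X) :
    F (pw C a W (φ : Raw Γ I n V) (η : Raw Γ I n V) x) *
      ((m' ^ 2 - s) * nm C (φ : Raw Γ I n V) x ^ 2 +
        a * ((m ^ 2 - s - a * n / 4) * nm C (η : Raw Γ I n V) x ^ 2)) ≤
      F (pw C a W (φ : Raw Γ I n V) (η : Raw Γ I n V) x) *
        (m' ^ 2 * (hp C (φ : Raw Γ I n V) (φ : Raw Γ I n V) x).re -
        (hp C (S.DC (S.DC φ) : Raw Γ I n V) (φ : Raw Γ I n V) x).re +
      a * (m ^ 2 * (hp C (η : Raw Γ I n V) (η : Raw Γ I n V) x).re -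
        (hp C (S.DC (S.DC η) : Raw Γ I n V) (η : Raw Γ I n V) x).re) -
      a * (hp C (S.DC φ : Raw Γ I n V) (η : Raw Γ I n V) x).re) +
      1 / 2 * lapX C G (fun x => prim F (pw C a W (φ : Raw Γ I n V) (η : Raw Γ I n V) x) *
        W x) x := by
  have hG := S.met
  have hPs : C.Ck ∞ (fun x => prim F (pw C a W (φ : Raw Γ I n V) (η : Raw Γ I n V) x) * W x) :=
    fun γ i => (Ck_comp_pw hW a φ η (prim_smooth hF.smooth) γ i).mul (hW.smooth γ i)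
  rw [← H566.pg_spec C x]
  set γ := C.pg x
  set i := C.pi x
  set y := C.py x
  rw [lapX_eq hG (fun γ i => contDiff_infty.1 (hPs γ i) 2)]
  have g1 : ∀ z, pw C a W (φ : Raw Γ I n V) (η : Raw Γ I n V) (γ • C.ψ i z) =
      (‖(φ : Raw Γ I n V) γ i z‖ ^ 2 + a * ‖(η : Raw Γ I n V) γ i z‖ ^ 2) / C.rep W γ i z :=
    fun z => by
      unfold pw pf
      rw [φ.2.nm_chart, η.2.nm_chart]
      rfl
  have g2 : C.rep (fun x => prim F (pw C a W (φ : Raw Γ I n V) (η : Raw Γ I n V) x) * W x) γ i =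
      fun z => prim F ((‖(φ : Raw Γ I n V) γ i z‖ ^ 2 + a * ‖(η : Raw Γ I n V) γ i z‖ ^ 2) /
        C.rep W γ i z) * C.rep W γ i z := by
    funext z
    exact congrArg (fun t => prim F t * W (γ • C.ψ i z)) (g1 z)
  have hsq : ∀ v : V, (⟪v, v⟫_ℂ).re = ‖v‖ ^ 2 := fun v =>
    (norm_sq_eq_re_inner (𝕜 := ℂ) v).symm
  rw [g2, g1, φ.2.nm_chart, η.2.nm_chart, φ.2.hp_chart φ.2, η.2.hp_chart η.2,
    (S.DC (S.DC φ)).2.hp_chart φ.2, (S.DC (S.DC η)).2.hp_chart η.2,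
    (S.DC φ).2.hp_chart η.2, hsq, hsq]
  exact locPW K hL (hG.smooth i) (hG.pos i) (S.fr i) (φ.2.smooth γ i) (η.2.smooth γ i)
    (hW.smooth γ i) (fun z => hW.pos _) (M := m') (m := m) ha hF y (hs i y) (hW.ineq γ i y)

theorem supPAW (hL : SpecLocal) {s m m' δ a : ℝ} {F : ℝ → ℝ} (ha : 0 ≤ a)
    (hs : ∀ i y, -(4 * s) ≤ Vale.Agent.P223.H.scal (c.G i) y) {W : X → ℝ}
    (hW : Wgt c.C c.G s W) (hF : Tst δ F) (φ η : Core c.S)
    (hf : c.C.Ck ∞ (fun x => F (pw c.C a W (φ : Raw Γ I n V) (η : Raw Γ I n V) x))) :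
    ∫ x, F (pw c.C a W (φ : Raw Γ I n V) (η : Raw Γ I n V) x) *
      ((m' ^ 2 - s) * nm c.C (φ : Raw Γ I n V) x ^ 2 +
        a * ((m ^ 2 - s - a * n / 4) * nm c.C (η : Raw Γ I n V) x ^ 2)) ∂c.μ ≤
      m' ^ 2 * (⟪c.E.e φ, c.E.e (c.S.mC _ hf φ)⟫_ℂ).re +
        (⟪c.E.e (c.S.DC φ), c.E.e (c.S.DC (c.S.mC _ hf φ))⟫_ℂ).re +
      a * (m ^ 2 * (⟪c.E.e η, c.E.e (c.S.mC _ hf η)⟫_ℂ).re +
        (⟪c.E.e (c.S.DC η), c.E.e (c.S.DC (c.S.mC _ hf η))⟫_ℂ).re) -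
      a * (⟪c.E.e (c.S.DC φ), c.E.e (c.S.mC _ hf η)⟫_ℂ).re := by
  have hPs : c.C.Ck ∞ (fun x => prim F (pw c.C a W (φ : Raw Γ I n V) (η : Raw Γ I n V) x) *
      W x) := fun γ i => (Ck_comp_pw hW a φ η (prim_smooth hF.smooth) γ i).mul (hW.smooth γ i)
  have hP0 : prim F 0 = 0 := prim_zero hF.pos.le hF.zero hF.pos.le
  have hPc : HasCompactSupport
      (fun x => prim F (pw c.C a W (φ : Raw Γ I n V) (η : Raw Γ I n V) x) * W x) :=
    (HasCompactSupport.comp_left (g := prim F) (pw_supp a W φ η) hP0).mul_right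
  obtain ⟨n1, i1⟩ := int_lap c hPs hPc
  have hpt := supPA_ptW (m := m) (m' := m') hL ha hs hW hF φ η
  rw [re_DmC c hL, re_DmC c hL, re_mC, re_mC, re_mC]
  set f : X → ℝ := pw c.C a W (φ : Raw Γ I n V) (η : Raw Γ I n V) with hfd
  have hFc : Continuous (fun x => F (f x)) :=
    Ck_continuous c.C fun γ i => contDiff_infty.1 (hf γ i) 0
  have m1 := int_g_hp c hFc φ φ
  have m2 := int_g_hp c hFc (c.S.DC (c.S.DC φ)) φ
  have m3 := int_g_hp c hFc η η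
  have m4 := int_g_hp c hFc (c.S.DC (c.S.DC η)) η
  have m5 := int_g_hp c hFc (c.S.DC φ) η
  set lp : X → ℝ := lapX c.C c.G (fun x => prim F (f x) * W x) with hlp
  have q1 : ∀ x, nm c.C (φ : Raw Γ I n V) x ^ 2 =
    (hp c.C (φ : Raw Γ I n V) (φ : Raw Γ I n V) x).re := fun x => H391.nm_sq _ _
  have q3 : ∀ x, nm c.C (η : Raw Γ I n V) x ^ 2 =
    (hp c.C (η : Raw Γ I n V) (η : Raw Γ I n V) x).re := fun x => H391.nm_sq _ _
  have hl : Integrable (fun x => F (f x) * ((m' ^ 2 - s) * nm c.C (φ : Raw Γ I n V) x ^ 2 +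
        a * ((m ^ 2 - s - a * n / 4) * nm c.C (η : Raw Γ I n V) x ^ 2))) c.μ := by
    refine ((m1.const_mul (m' ^ 2 - s)).add
      (m3.const_mul (a * (m ^ 2 - s - a * n / 4)))).congr
      (Filter.Eventually.of_forall fun x => ?_)
    simp only [Pi.add_apply]
    rw [q1, q3]
    ring
  obtain ⟨n2, j⟩ := int_lin m1 m2 m3 m4 m5 n1 (m' ^ 2) (m ^ 2) a
  rw [i1] at j
  refine (integral_mono hl n2 fun x => (hpt x).trans (le_of_eq ?_)).trans (le_of_eq ?_)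
  · ring
  · rw [j]; ring

end

end Vale.Agent.P223.H391
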