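import Vale.Agent.P223.H391.WP2
import Vale.Agent.P223.H391.SupPB

/-! Sup bound for `p = D g` with a weight: bounds for the test functions. -/

namespace Vale.Agent.P223.H391

open scoped ContDiff InnerProductSpace Topology
open MeasureTheory Vale.Agent.P223.H Vale.Agent.P223.X Vale.Agent.P223.H566

theorem gs_pw {n : ℕ} {G : E n → Matrix (Fin n) (Fin n) ℝ} {y : E n} (hG : (G y).PosDef)
    {u v W : E n → ℝ} {F : ℝ → ℝ} {a C1 c₀ N1 N2 : ℝ} (hu : DifferentiableAt ℝ u y)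
    (hv : DifferentiableAt ℝ v y) (hW : DifferentiableAt ℝ W y) (hu0 : 0 ≤ u y) (hv0 : 0 ≤ v y)
    (hW0 : 0 < W y) (ha : 0 ≤ a)
    (hN1 : 0 ≤ N1) (hN2 : 0 ≤ N2) (hF : Differentiable ℝ F)
    (h1 : gradSq G u y ≤ 4 * u y * N1) (h2 : gradSq G v y ≤ 4 * v y * N2)
    (hWg : gradSq G W y ≤ (c₀ * W y) ^ 2) (h3 : ∀ t, |t * deriv F t| ≤ C1) :
    gradSq G (fun z => F ((u z + a * v z) / W z)) y * (u y + a * v y) ≤
      16 * C1 ^ 2 * (N1 + a * N2) + 2 * c₀ ^ 2 * C1 ^ 2 * (u y + a * v y) := by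
  have hav : DifferentiableAt ℝ (fun z => a * v z) y := hv.const_mul a
  have hf : DifferentiableAt ℝ (fun z => u z + a * v z) y := hu.add hav
  have hWi : DifferentiableAt ℝ (fun z => (W z)⁻¹) y := hW.inv hW0.ne'
  have hq : DifferentiableAt ℝ (fun z => (u z + a * v z) / W z) y := by
    simp only [div_eq_mul_inv]
    exact hf.fun_mul hWi
  have e1 : gradSq G (fun z => F ((u z + a * v z) / W z)) y =
      (deriv F ((u y + a * v y) / W y)) ^ 2 *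
        gradSq G (fun z => (u z + a * v z) / W z) y :=
    Grad.gradSq_comp_real (φ := F) (f := fun z => (u z + a * v z) / W z) (hF _).hasDerivAt hq
  have g1 := Grad.gradSq_nonneg' hG u
  have g2 := Grad.gradSq_nonneg' hG v
  have g3 := Grad.gradSq_nonneg' hG (fun z => u z + a * v z)
  have g4 := Grad.gradSq_nonneg' hG (fun z => (u z + a * v z) / W z)
  have g5 := Grad.gradSq_nonneg' hG W
  have e2 : gradSq G (fun z => u z + a * v z) y ≤ 8 * (u y + a * v y) * (N1 + a * N2) := by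
    have s1 := Grad.sqrt_gradSq_add_le hG hu hav
    rw [Grad.sqrt_gradSq_mul (f := v) a hv, abs_of_nonneg ha] at s1
    have s2 : gradSq G (fun z => u z + a * v z) y ≤ (√(gradSq G u y) + a * √(gradSq G v y)) ^ 2 := by
      calc _ = √(gradSq G (fun z => u z + a * v z) y) ^ 2 := (Real.sq_sqrt g3).symm
        _ ≤ _ := pow_le_pow_left₀ (Real.sqrt_nonneg _) s1 2
    have q1 := Real.sq_sqrt g1
    have q2 := Real.sq_sqrt g2
    have s3 : (√(gradSq G u y) + a * √(gradSq G v y)) ^ 2 ≤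
        2 * gradSq G u y + 2 * a ^ 2 * gradSq G v y := by
      nlinarith [sq_nonneg (√(gradSq G u y) - a * √(gradSq G v y))]
    have s4 : 2 * gradSq G u y + 2 * a ^ 2 * gradSq G v y ≤
        8 * (u y * N1) + 8 * (a * v y * (a * N2)) := by
      have := mul_le_mul_of_nonneg_left h2 (by positivity : 0 ≤ 2 * a ^ 2)
      nlinarith
    have s5 : 0 ≤ u y * (a * N2) := by positivity
    have s6 : 0 ≤ a * v y * N1 := by positivity
    nlinarith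
  -- the quotient
  have e3 : √(gradSq G (fun z => (u z + a * v z) / W z) y) ≤
      |u y + a * v y| * √(gradSq G (fun z => (W z)⁻¹) y) +
        |(W y)⁻¹| * √(gradSq G (fun z => u z + a * v z) y) :=
    Grad.sqrt_gradSq_mul_le hG hf hWi
  have e4 : gradSq G (fun z => (W z)⁻¹) y = (-(W y ^ 2)⁻¹) ^ 2 * gradSq G W y :=
    Grad.gradSq_comp_real (φ := fun t : ℝ => t⁻¹) (f := W) (hasDerivAt_inv hW0.ne') hW
  have e5 : √(gradSq G (fun z => (W z)⁻¹) y) ≤ |c₀| / W y := by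
    rw [e4]
    refine Real.sqrt_le_iff.2 ⟨by positivity, ?_⟩
    calc (-(W y ^ 2)⁻¹) ^ 2 * gradSq G W y ≤ (-(W y ^ 2)⁻¹) ^ 2 * (c₀ * W y) ^ 2 :=
          mul_le_mul_of_nonneg_left hWg (sq_nonneg _)
      _ = _ := by
          rw [div_pow, sq_abs]
          field_simp
  set f := u y + a * v y with hfd
  have hf0 : 0 ≤ f := by positivity
  set S := gradSq G (fun z => u z + a * v z) y with hS
  have hC1 : (f / W y * deriv F (f / W y)) ^ 2 ≤ C1 ^ 2 := by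
    rw [← sq_abs]
    exact pow_le_pow_left₀ (abs_nonneg _) (h3 _) 2
  have e6 : gradSq G (fun z => (u z + a * v z) / W z) y ≤
      2 * (f * (|c₀| / W y)) ^ 2 + 2 * ((W y)⁻¹ ^ 2 * S) := by
    have s1 : √(gradSq G (fun z => (u z + a * v z) / W z) y) ≤
        f * (|c₀| / W y) + (W y)⁻¹ * √S := by
      rw [abs_of_nonneg hf0, abs_of_pos (inv_pos.2 hW0)] at e3
      exact e3.trans (add_le_add (mul_le_mul_of_nonneg_left e5 hf0) le_rfl)
    have s2 := pow_le_pow_left₀ (Real.sqrt_nonneg _) s1 2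
    rw [Real.sq_sqrt g4] at s2
    have s3 : ((W y)⁻¹ * √S) ^ 2 = (W y)⁻¹ ^ 2 * S := by rw [mul_pow, Real.sq_sqrt g3]
    rw [← s3]
    nlinarith [sq_nonneg (f * (|c₀| / W y) - (W y)⁻¹ * √S)]
  rw [e1]
  have hd := sq_nonneg (deriv F (f / W y))
  calc deriv F (f / W y) ^ 2 * gradSq G (fun z => (u z + a * v z) / W z) y * f
      ≤ deriv F (f / W y) ^ 2 * (2 * (f * (|c₀| / W y)) ^ 2 + 2 * ((W y)⁻¹ ^ 2 * S)) * f := by
        gcongr
    _ ≤ deriv F (f / W y) ^ 2 * (2 * (f * (|c₀| / W y)) ^ 2 +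
          2 * ((W y)⁻¹ ^ 2 * (8 * f * (N1 + a * N2)))) * f := by gcongr
    _ = 16 * (f / W y * deriv F (f / W y)) ^ 2 * (N1 + a * N2) +
          2 * c₀ ^ 2 * (f / W y * deriv F (f / W y)) ^ 2 * f := by
        rw [mul_pow f, div_pow, sq_abs]
        field_simp
        ring
    _ ≤ _ := by gcongr

section
variable {n : ℕ} {M X Γ I V H : Type} [TopologicalSpace M] [TopologicalSpace X]
  [Group Γ] [MulAction Γ X] [Fintype I] [T2Space X] [ConnectedSpace X] [T2Space M]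
  [MeasurableSpace X] [BorelSpace X] [NormedAddCommGroup V] [InnerProductSpace ℂ V]
  [FiniteDimensional ℂ V] [NormedAddCommGroup H] [InnerProductSpace ℂ H] [CompleteSpace H]
  (c : Ctx n M X Γ I V H)

theorem supPBW (hL : SpecLocal) {s δ a : ℝ} {F : ℝ → ℝ} (ha : 0 < a)
    (hs : ∀ i y, -(4 * s) ≤ Vale.Agent.P223.H.scal (c.G i) y) {W : X → ℝ}
    (hW : Wgt c.C c.G s W) (hF : Tst δ F) :
    ∃ B : ℝ, 0 ≤ B ∧ ∀ (φ η : Core c.S)
    (hf : c.C.Ck ∞ (fun x => F (pw c.C a W (φ : Raw Γ I n V) (η : Raw Γ I n V) x))),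
    ‖c.E.e (c.S.DC (c.S.mC _ hf φ))‖ ^ 2 ≤ B * (‖c.E.e φ‖ ^ 2 + ‖c.E.e (c.S.DC φ)‖ ^ 2 +
      (‖c.E.e η‖ ^ 2 + ‖c.E.e (c.S.DC η)‖ ^ 2)) ∧
    ‖c.E.e (c.S.DC (c.S.mC _ hf η))‖ ^ 2 ≤ B * (‖c.E.e φ‖ ^ 2 + ‖c.E.e (c.S.DC φ)‖ ^ 2 +
      (‖c.E.e η‖ ^ 2 + ‖c.E.e (c.S.DC η)‖ ^ 2)) := by
  obtain ⟨C1, hC1, h1⟩ := H620.bdd_tderiv hF
  obtain ⟨c₀, hc₀⟩ := hW.grad
  -- the pointwise estimate
  have pt : ∀ (φ η : Core c.S) (x : X),
      gsX c.C c.G (fun x => F (pw c.C a W (φ : Raw Γ I n V) (η : Raw Γ I n V) x)) x *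
        pf c.C a (φ : Raw Γ I n V) (η : Raw Γ I n V) x ≤ 16 * C1 ^ 2 *
      (nsq c.K (c.G (c.C.pi x)) (c.S.β (c.C.pi x))
        ((φ : Raw Γ I n V) (c.C.pg x) (c.C.pi x)) (c.C.py x) +
       a * nsq c.K (c.G (c.C.pi x)) (c.S.β (c.C.pi x))
        ((η : Raw Γ I n V) (c.C.pg x) (c.C.pi x)) (c.C.py x)) +
      2 * c₀ ^ 2 * C1 ^ 2 * pf c.C a (φ : Raw Γ I n V) (η : Raw Γ I n V) x := by
    intro φ η x
    obtain ⟨-, -, l3, -⟩ := hL n V c.K (c.G (c.C.pi x)) (c.S.β (c.C.pi x)) (c.S.met.smooth _)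
      (c.S.met.pos _) (c.S.fr _)
    have hφs := φ.2.smooth (c.C.pg x) (c.C.pi x)
    have hηs := η.2.smooth (c.C.pg x) (c.C.pi x)
    obtain ⟨b1, b2⟩ := l3 _ hφs (c.C.py x)
    obtain ⟨b3, b4⟩ := l3 _ hηs (c.C.py x)
    have hWs := hW.smooth (c.C.pg x) (c.C.pi x)
    have := gs_pw (a := a) (F := F) (W := c.C.rep W (c.C.pg x) (c.C.pi x))
      (c.S.met.pos (c.C.pi x) (c.C.py x))
      (((hφs.norm_sq ℂ).differentiable (by simp)) _)
      (((hηs.norm_sq ℂ).differentiable (by simp)) _) (hWs.differentiable (by simp) _)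
      (by positivity) (by positivity) (hW.pos _) ha.le b1 b3
      (hF.smooth.differentiable (by simp)) b2 b4 (c₀ := c₀) (by
        have h5 := hc₀ x
        have h6 : c.C.rep W (c.C.pg x) (c.C.pi x) (c.C.py x) = W x :=
          congrArg W (H566.pg_spec c.C x)
        rw [h6]
        exact h5) h1
    refine le_trans (le_of_eq ?_) this
    congr 1
    have e2 : c.C.rep (fun x => F (pw c.C a W (φ : Raw Γ I n V) (η : Raw Γ I n V) x))
        (c.C.pg x) (c.C.pi x) = fun y => F ((‖(φ : Raw Γ I n V) (c.C.pg x) (c.C.pi x) y‖ ^ 2 +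
          a * ‖(η : Raw Γ I n V) (c.C.pg x) (c.C.pi x) y‖ ^ 2) /
          c.C.rep W (c.C.pg x) (c.C.pi x) y) := by
      funext y
      change F ((nm c.C (φ : Raw Γ I n V) _ ^ 2 + a * nm c.C (η : Raw Γ I n V) _ ^ 2) / _) = _
      rw [φ.2.nm_chart, η.2.nm_chart]
      rfl
    change gradSq _ (c.C.rep (fun x => F (pw c.C a W (φ : Raw Γ I n V) (η : Raw Γ I n V) x))
      (c.C.pg x) (c.C.pi x)) _ = _
    rw [e2]
  -- Clifford multiplication by `d F(f)`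
  have cl : ∀ (φ η ψ : Core c.S)
      (hf : c.C.Ck ∞ (fun x => F (pw c.C a W (φ : Raw Γ I n V) (η : Raw Γ I n V) x))) (t : ℝ),
      0 ≤ t → (∀ x, nm c.C (ψ : Raw Γ I n V) x ^ 2 ≤
        t * pf c.C a (φ : Raw Γ I n V) (η : Raw Γ I n V) x) →
      ‖c.E.e (c.S.cC _ hf ψ)‖ ^ 2 ≤ t * ((16 * C1 ^ 2 * ((1 + a) * (1 + 4 * |s|))) +
        2 * c₀ ^ 2 * C1 ^ 2 * (1 + a)) *
        (‖c.E.e φ‖ ^ 2 + ‖c.E.e (c.S.DC φ)‖ ^ 2 + (‖c.E.e η‖ ^ 2 + ‖c.E.e (c.S.DC η)‖ ^ 2)) := by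
    intro φ η ψ hf t ht hψ
    obtain ⟨N1, j1, j2, j3⟩ := exists_maj c hL (κ := 4 * s) hs φ
    obtain ⟨N2, k1, k2, k3⟩ := exists_maj c hL (κ := 4 * s) hs η
    obtain ⟨f1, f2⟩ := H620.norm_sq_e c.E c.vol φ
    obtain ⟨f3, f4⟩ := H620.norm_sq_e c.E c.vol η
    have f5 : Integrable (fun x => pf c.C a (φ : Raw Γ I n V) (η : Raw Γ I n V) x) c.μ :=
      f1.add (f3.const_mul a)
    have f6 : ∫ x, pf c.C a (φ : Raw Γ I n V) (η : Raw Γ I n V) x ∂c.μ =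
        ‖c.E.e φ‖ ^ 2 + a * ‖c.E.e η‖ ^ 2 := by
      rw [f2, f4, ← integral_const_mul, ← integral_add f1 (f3.const_mul a)]
      rfl
    rw [(H620.norm_sq_e c.E c.vol _).2]
    have hi1 : Integrable (fun x => 16 * C1 ^ 2 * (N1 x + a * N2 x)) c.μ :=
      (j1.add (k1.const_mul a)).const_mul _
    have hi2 : Integrable (fun x => 2 * c₀ ^ 2 * C1 ^ 2 *
      pf c.C a (φ : Raw Γ I n V) (η : Raw Γ I n V) x) c.μ := f5.const_mul _
    have hi : Integrable (fun x => t * (16 * C1 ^ 2 * (N1 x + a * N2 x) +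
      2 * c₀ ^ 2 * C1 ^ 2 * pf c.C a (φ : Raw Γ I n V) (η : Raw Γ I n V) x)) c.μ :=
      (hi1.add hi2).const_mul _
    have hle : ∀ x, nm c.C (c.S.cC _ hf ψ : Raw Γ I n V) x ^ 2 ≤
        t * (16 * C1 ^ 2 * (N1 x + a * N2 x) +
      2 * c₀ ^ 2 * C1 ^ 2 * pf c.C a (φ : Raw Γ I n V) (η : Raw Γ I n V) x) := by
      intro x
      have e1 : nm c.C (c.S.cC _ hf ψ : Raw Γ I n V) x ^ 2 =
          gsX c.C c.G (fun x => F (pw c.C a W (φ : Raw Γ I n V) (η : Raw Γ I n V) x)) x *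
            nm c.C (ψ : Raw Γ I n V) x ^ 2 := by
        have := H620.nm_cl (S := c.S) hL
          (fun x => F (pw c.C a W (φ : Raw Γ I n V) (η : Raw Γ I n V) x)) (ψ : Raw Γ I n V) x
        change nm c.C (c.S.clR _ _) x ^ 2 = _
        rw [this, mul_pow, Real.sq_sqrt (gsX_nonneg c.S.met _ x)]
      rw [e1]
      have h0 := gsX_nonneg c.S.met
        (fun x => F (pw c.C a W (φ : Raw Γ I n V) (η : Raw Γ I n V) x)) x
      calc _ ≤ gsX c.C c.G (fun x => F (pw c.C a W (φ : Raw Γ I n V) (η : Raw Γ I n V) x)) x *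
            (t * pf c.C a (φ : Raw Γ I n V) (η : Raw Γ I n V) x) :=
            mul_le_mul_of_nonneg_left (hψ x) h0
        _ = t * (gsX c.C c.G (fun x => F (pw c.C a W (φ : Raw Γ I n V)
            (η : Raw Γ I n V) x)) x * pf c.C a (φ : Raw Γ I n V) (η : Raw Γ I n V) x) := by ring
        _ ≤ _ := by
            refine mul_le_mul_of_nonneg_left ((pt φ η x).trans ?_) ht
            have := j2 x
            have := k2 x
            gcongr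
    refine (integral_mono (H620.norm_sq_e c.E c.vol _).1 hi hle).trans ?_
    rw [integral_const_mul, integral_add hi1 hi2, integral_const_mul, integral_const_mul,
      integral_add j1 (k1.const_mul a), j3, integral_const_mul, k3, f6, mul_assoc t]
    refine mul_le_mul_of_nonneg_left ?_ ht
    have p1 := sq_nonneg ‖c.E.e φ‖
    have p2 := sq_nonneg ‖c.E.e (c.S.DC φ)‖
    have p3 := sq_nonneg ‖c.E.e η‖
    have p4 := sq_nonneg ‖c.E.e (c.S.DC η)‖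
    generalize ‖c.E.e φ‖ ^ 2 = A1 at *
    generalize ‖c.E.e (c.S.DC φ)‖ ^ 2 = A2 at *
    generalize ‖c.E.e η‖ ^ 2 = A3 at *
    generalize ‖c.E.e (c.S.DC η)‖ ^ 2 = A4 at *
    have hk := le_abs_self s
    have hk0 := abs_nonneg s
    have q1 : A2 + 4 * s / 4 * A1 ≤ (1 + 4 * |s|) * (A1 + A2) := by nlinarith
    have q2 : A4 + 4 * s / 4 * A3 ≤ (1 + 4 * |s|) * (A3 + A4) := by nlinarith
    have q3 : a * (A4 + 4 * s / 4 * A3) ≤ a * ((1 + 4 * |s|) * (A3 + A4)) :=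
      mul_le_mul_of_nonneg_left q2 ha.le
    have q4 : 0 ≤ a * ((1 + 4 * |s|) * (A1 + A2)) := by positivity
    have q5 : 0 ≤ (1 + 4 * |s|) * (A3 + A4) := by positivity
    have q6 : A2 + 4 * s / 4 * A1 + a * (A4 + 4 * s / 4 * A3) ≤
        (1 + a) * (1 + 4 * |s|) * (A1 + A2 + (A3 + A4)) := by nlinarith
    have q7 : A1 + a * A3 ≤ (1 + a) * (A1 + A2 + (A3 + A4)) := by
      have : 0 ≤ a * (A1 + A2 + A4) := by positivity
      nlinarith
    have r1 := mul_le_mul_of_nonneg_left q6 (by positivity : 0 ≤ 16 * C1 ^ 2)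
    have r2 := mul_le_mul_of_nonneg_left q7 (by positivity : 0 ≤ 2 * c₀ ^ 2 * C1 ^ 2)
    linarith
  have mul : ∀ (φ η ψ : Core c.S)
      (hf : c.C.Ck ∞ (fun x => F (pw c.C a W (φ : Raw Γ I n V) (η : Raw Γ I n V) x))),
      ‖c.E.e (c.S.DC (c.S.mC _ hf ψ))‖ ^ 2 ≤ 2 * ‖c.E.e (c.S.DC ψ)‖ ^ 2 +
        2 * ‖c.E.e (c.S.cC _ hf ψ)‖ ^ 2 := by
    intro φ η ψ hf
    have e1 : c.S.DC (c.S.mC _ hf ψ) = c.S.mC _ hf (c.S.DC ψ) + c.S.cC _ hf ψ := c.S.DC_mC hf ψ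
    have h2 : ‖c.E.e (c.S.mC _ hf (c.S.DC ψ))‖ ≤ 1 * ‖c.E.e (c.S.DC ψ)‖ := by
      refine H620.norm_e_le c.E c.vol zero_le_one fun x => ?_
      rw [nm_mC]
      refine mul_le_mul_of_nonneg_right ?_ (norm_nonneg _)
      rw [abs_of_nonneg (hF.nonneg _)]
      exact hF.le _
    rw [one_mul] at h2
    rw [e1, map_add]
    have h3 : ‖c.E.e (c.S.mC _ hf (c.S.DC ψ)) + c.E.e (c.S.cC _ hf ψ)‖ ≤
        ‖c.E.e (c.S.DC ψ)‖ + ‖c.E.e (c.S.cC _ hf ψ)‖ :=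
      (norm_add_le _ _).trans (add_le_add h2 le_rfl)
    have h4 := pow_le_pow_left₀ (norm_nonneg _) h3 2
    nlinarith [sq_nonneg (‖c.E.e (c.S.DC ψ)‖ - ‖c.E.e (c.S.cC _ hf ψ)‖)]
  have hainv : 0 ≤ a⁻¹ := (inv_pos.2 ha).le
  set Z : ℝ := (16 * C1 ^ 2 * ((1 + a) * (1 + 4 * |s|))) + 2 * c₀ ^ 2 * C1 ^ 2 * (1 + a) with hZ
  have hZ0 : 0 ≤ Z := by positivity
  refine ⟨2 + 2 * ((1 + a⁻¹) * Z), by positivity, fun φ η hf => ⟨?_, ?_⟩⟩
  · have h2 := cl φ η φ hf 1 zero_le_one fun x => by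
      unfold pf
      have := mul_nonneg ha.le (sq_nonneg (nm c.C (η : Raw Γ I n V) x))
      linarith
    have h3 := mul φ η φ hf
    have p1 := sq_nonneg ‖c.E.e φ‖
    have p2 := sq_nonneg ‖c.E.e (c.S.DC φ)‖
    have p3 := sq_nonneg ‖c.E.e η‖
    have p4 := sq_nonneg ‖c.E.e (c.S.DC η)‖
    set A := ‖c.E.e φ‖ ^ 2 + ‖c.E.e (c.S.DC φ)‖ ^ 2 +
      (‖c.E.e η‖ ^ 2 + ‖c.E.e (c.S.DC η)‖ ^ 2) with hA
    have q1 : 0 ≤ a⁻¹ * Z * A := by positivity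
    have q2 : ‖c.E.e (c.S.DC φ)‖ ^ 2 ≤ A := by linarith
    nlinarith
  · have h2 := cl φ η η hf a⁻¹ hainv fun x => by
      unfold pf
      rw [mul_add, ← mul_assoc, inv_mul_cancel₀ ha.ne', one_mul]
      have := mul_nonneg hainv (sq_nonneg (nm c.C (φ : Raw Γ I n V) x))
      linarith
    have h3 := mul φ η η hf
    have p1 := sq_nonneg ‖c.E.e φ‖
    have p2 := sq_nonneg ‖c.E.e (c.S.DC φ)‖
    have p3 := sq_nonneg ‖c.E.e η‖
    have p4 := sq_nonneg ‖c.E.e (c.S.DC η)‖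
    set A := ‖c.E.e φ‖ ^ 2 + ‖c.E.e (c.S.DC φ)‖ ^ 2 +
      (‖c.E.e η‖ ^ 2 + ‖c.E.e (c.S.DC η)‖ ^ 2) with hA
    have q1 : 0 ≤ 1 * Z * A := by positivity
    have q2 : ‖c.E.e (c.S.DC η)‖ ^ 2 ≤ A := by linarith
    nlinarith

end

end Vale.Agent.P223.H391
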