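import Vale.Agent.P223.H391.WP3
import Vale.Agent.P223.H391.SupP

/-! Sup bound for `p = D g` with a weight. -/

namespace Vale.Agent.P223.H391

open scoped ContDiff InnerProductSpace Topology
open MeasureTheory Vale.Agent.P223.H Vale.Agent.P223.X Vale.Agent.P223.H566

section
variable {n : ℕ} {M X Γ I V H : Type} [TopologicalSpace M] [TopologicalSpace X]
  [Group Γ] [MulAction Γ X] [Fintype I] [T2Space X] [ConnectedSpace X] [T2Space M]
  [MeasurableSpace X] [BorelSpace X] [NormedAddCommGroup V] [InnerProductSpace ℂ V]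
  [FiniteDimensional ℂ V] [NormedAddCommGroup H] [InnerProductSpace ℂ H] [CompleteSpace H]
  {c : Ctx n M X Γ I V H}

/-- conclusion: if `F(q_j)` is small in the mean then the limit is bounded -/
theorem wb_of_limW {t c' δ : ℝ} (hc' : 0 < c') (ht : 0 ≤ t) {F : ℝ → ℝ} (hF : Tst δ F)
    (hF1 : ∀ s, c' ^ 2 ≤ s → F s = 1) {w : X → ℝ} (hw : Continuous w) (hw0 : ∀ x, 0 < w x)
    {v : H} {ψ : ℕ → Core c.S} {f : ℕ → X → ℝ}
    (hf : ∀ j, Continuous (f j))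
    (hψ : ∀ j x, nm c.C (ψ j : Raw Γ I n V) x ^ 2 ≤ t ^ 2 * (f j x * w x ^ 2))
    (hlim : Filter.Tendsto (fun j => c.E.e (ψ j)) Filter.atTop (𝓝 v))
    (hJ : Filter.Tendsto (fun j => ∫ x, F (f j x) * nm c.C (ψ j : Raw Γ I n V) x ^ 2 ∂c.μ)
      Filter.atTop (𝓝 0)) : WB c.E w (t * c') v := by
  intro θ
  suffices hε : ∀ ε : ℝ, 0 < ε → ‖⟪v, c.E.e θ⟫_ℂ‖ ≤
      t * c' * (∫ x, w x * nm c.C (θ : Raw Γ I n V) x ∂c.μ) + ε / 2 * ‖c.E.e θ‖ ^ 2 by
    have hlim : Filter.Tendsto (fun ε : ℝ => t * c' *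
        (∫ x, w x * nm c.C (θ : Raw Γ I n V) x ∂c.μ) + ε / 2 * ‖c.E.e θ‖ ^ 2) (𝓝[>] 0)
        (𝓝 (t * c' * (∫ x, w x * nm c.C (θ : Raw Γ I n V) x ∂c.μ) + 0 / 2 * ‖c.E.e θ‖ ^ 2)) :=
      ((continuous_const.add ((continuous_id.div_const 2).mul continuous_const)).tendsto
        0).mono_left nhdsWithin_le_nhds
    rw [zero_div, zero_mul, add_zero] at hlim
    refine ge_of_tendsto hlim ?_
    filter_upwards [self_mem_nhdsWithin] with ε hε' using hε ε hε'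
  intro ε hε
  have hfin := finComp c.S.met c.vol
  have i1 : Integrable (fun x => w x * nm c.C (θ : Raw Γ I n V) x) c.μ :=
    integrable_f θ hw
  have i2 : Integrable (fun x => nm c.C (θ : Raw Γ I n V) x ^ 2) c.μ :=
    (H620.norm_sq_e c.E c.vol θ).1
  have hint : ∀ j, Integrable (fun x => F (f j x) * nm c.C (ψ j : Raw Γ I n V) x ^ 2) c.μ := by
    intro j
    have := integrable_f (c := c) (ψ j) ((hF.smooth.continuous.comp (hf j)).mul
      (ψ j).2.continuous_nm)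
    refine this.congr (Filter.Eventually.of_forall fun x => ?_)
    simp only [Pi.mul_apply, Function.comp_apply]
    ring
  have hbound : ∀ j, ‖⟪c.E.e (ψ j), c.E.e θ⟫_ℂ‖ ≤
      t * c' * (∫ x, w x * nm c.C (θ : Raw Γ I n V) x ∂c.μ) +
      1 / (2 * ε) * (∫ x, F (f j x) * nm c.C (ψ j : Raw Γ I n V) x ^ 2 ∂c.μ) +
        ε / 2 * ‖c.E.e θ‖ ^ 2 := by
    intro j
    rw [c.E.ip, norm_e_sq c.E]
    unfold ipr
    refine (norm_integral_le_integral_norm _).trans ?_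
    have i3 : Integrable (fun x => t * c' * (w x * nm c.C (θ : Raw Γ I n V) x) + 1 / (2 * ε) *
        (F (f j x) * nm c.C (ψ j : Raw Γ I n V) x ^ 2)) c.μ :=
      (i1.const_mul _).add ((hint j).const_mul _)
    rw [← integral_const_mul, ← integral_const_mul, ← integral_const_mul,
      ← integral_add (i1.const_mul _) ((hint j).const_mul _),
      ← integral_add i3 (i2.const_mul _)]
    refine integral_mono (((ψ j).2.integrable_hp θ.2 c.vol).norm)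
      (i3.add (i2.const_mul _)) fun x => ?_
    simp only
    have h5 : ‖hp c.C (ψ j : Raw Γ I n V) (θ : Raw Γ I n V) x‖ ≤
      nm c.C (ψ j : Raw Γ I n V) x * nm c.C (θ : Raw Γ I n V) x := norm_inner_le_norm _ _
    refine h5.trans ?_
    have h4 := hψ j x
    have hN0 : 0 ≤ nm c.C (ψ j : Raw Γ I n V) x := norm_nonneg _
    have hT0 : 0 ≤ nm c.C (θ : Raw Γ I n V) x := norm_nonneg _
    have hwx := hw0 x
    generalize nm c.C (ψ j : Raw Γ I n V) x = N at *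
    generalize nm c.C (θ : Raw Γ I n V) x = T at *
    have hf0 := hF.nonneg (f j x)
    by_cases hq : c' ^ 2 ≤ f j x
    · rw [hF1 _ hq]
      have h6 : N * T ≤ 1 / (2 * ε) * (1 * N ^ 2) + ε / 2 * T ^ 2 := by
        have h7 : 1 / (2 * ε) * (1 * N ^ 2) + ε / 2 * T ^ 2 - N * T =
            (N - ε * T) ^ 2 / (2 * ε) := by field_simp; ring
        have h8 : 0 ≤ (N - ε * T) ^ 2 / (2 * ε) := by positivity
        linarith
      have h9 : 0 ≤ t * c' * (w x * T) := by positivity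
      linarith
    · push Not at hq
      have hNw : N ≤ t * c' * w x := by
        refine (abs_le_of_sq_le_sq' (h4.trans ?_) (by positivity)).2
        rw [mul_assoc, mul_pow, mul_pow]
        exact mul_le_mul_of_nonneg_left (mul_le_mul_of_nonneg_right hq.le (sq_nonneg _))
          (by positivity)
      have h6 : N * T ≤ t * c' * (w x * T) := by
        rw [← mul_assoc]
        exact mul_le_mul_of_nonneg_right hNw hT0
      have h7 : 0 ≤ 1 / (2 * ε) * (F (f j x) * N ^ 2) := by positivity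
      have h8 : 0 ≤ ε / 2 * T ^ 2 := by positivity
      linarith
  have t1 : Filter.Tendsto (fun j => ‖⟪c.E.e (ψ j), c.E.e θ⟫_ℂ‖) Filter.atTop
      (𝓝 ‖⟪v, c.E.e θ⟫_ℂ‖) := (hlim.inner tendsto_const_nhds).norm
  have t2 : Filter.Tendsto (fun j => t * c' * (∫ x, w x * nm c.C (θ : Raw Γ I n V) x ∂c.μ) +
      1 / (2 * ε) * (∫ x, F (f j x) * nm c.C (ψ j : Raw Γ I n V) x ^ 2 ∂c.μ) +
        ε / 2 * ‖c.E.e θ‖ ^ 2) Filter.atTop
      (𝓝 (t * c' * (∫ x, w x * nm c.C (θ : Raw Γ I n V) x ∂c.μ) + 1 / (2 * ε) * 0 +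
        ε / 2 * ‖c.E.e θ‖ ^ 2)) :=
    ((hJ.const_mul _).const_add _).add_const _
  rw [mul_zero, add_zero] at t2
  exact le_of_tendsto_of_tendsto' t1 t2 hbound

/-- one step -/
theorem pg_stepW (hL : SpecLocal) {s m m' : ℝ}
    (hs : ∀ i y, -(4 * s) ≤ Vale.Agent.P223.H.scal (c.G i) y) {W : X → ℝ}
    (hW : Wgt c.C c.G s W) {σ a : ℝ} (ha : 0 < a)
    (h1 : σ ≤ m' ^ 2 - s) (h2 : σ ≤ m ^ 2 - s - a * n / 4) {b c₀ : ℝ} (hb : 0 ≤ b)
    (hc₀ : 0 < c₀) {u v w v₂ w₂ : H} (hu : WB c.E (fun x => √(W x)) b u)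
    (e1 : ∀ ψ : Core c.S, (m' : ℂ) ^ 2 * ⟪v, c.E.e ψ⟫_ℂ + ⟪w, c.E.e (c.S.DC ψ)⟫_ℂ =
      ⟪u, c.E.e ψ⟫_ℂ)
    (e2 : ∀ ψ : Core c.S, (m : ℂ) ^ 2 * ⟪v₂, c.E.e ψ⟫_ℂ + ⟪w₂, c.E.e (c.S.DC ψ)⟫_ℂ =
      ⟪w, c.E.e ψ⟫_ℂ) {F : ℝ → ℝ} (hF : Tst (c₀ ^ 2) F) (φ η : Core c.S)
    (hf : c.C.Ck ∞ (fun x => F (pw c.C a W (φ : Raw Γ I n V) (η : Raw Γ I n V) x))) :
    (σ - b / c₀) * ∫ x, F (pw c.C a W (φ : Raw Γ I n V) (η : Raw Γ I n V) x) *
        pf c.C a (φ : Raw Γ I n V) (η : Raw Γ I n V) x ∂c.μ ≤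
      m' ^ 2 * (‖c.E.e φ - v‖ * ‖c.E.e φ‖) +
        ‖c.E.e (c.S.DC φ) - w‖ * ‖c.E.e (c.S.DC (c.S.mC _ hf φ))‖ +
      a * (m ^ 2 * (‖c.E.e η - v₂‖ * ‖c.E.e η‖) +
        ‖c.E.e (c.S.DC η) - w₂‖ * ‖c.E.e (c.S.DC (c.S.mC _ hf η))‖) +
      a * (‖c.E.e (c.S.DC φ) - w‖ * ‖c.E.e η‖) := by
  have hA := supPAW c (m := m) (m' := m') hL ha.le hs hW hF φ η hf
  -- norms
  have nrm : ∀ ψ : Core c.S, ‖c.E.e (c.S.mC _ hf ψ)‖ ≤ ‖c.E.e ψ‖ := by
    intro ψ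
    have := H620.norm_e_le c.E c.vol (φ := c.S.mC _ hf ψ) (ψ := ψ) zero_le_one fun x => by
      rw [nm_mC]
      refine mul_le_mul_of_nonneg_right ?_ (norm_nonneg _)
      rw [abs_of_nonneg (hF.nonneg _)]
      exact hF.le _
    rwa [one_mul] at this
  set q : X → ℝ := pw c.C a W (φ : Raw Γ I n V) (η : Raw Γ I n V) with hqd
  set f : X → ℝ := pf c.C a (φ : Raw Γ I n V) (η : Raw Γ I n V) with hfd
  set ψ₁ := c.S.mC _ hf φ with hψ₁
  set ψ₂ := c.S.mC _ hf η with hψ₂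
  have hFc : Continuous (fun x => F (q x)) :=
    Ck_continuous c.C fun γ i => contDiff_infty.1 (hf γ i) 0
  have hWc : Continuous W := Ck_continuous c.C fun γ i => contDiff_infty.1 (hW.smooth γ i) 0
  have i1 := int_g_hp c hFc φ φ
  have i3 := int_g_hp c hFc η η
  have q1 : ∀ x, nm c.C (φ : Raw Γ I n V) x ^ 2 =
    (hp c.C (φ : Raw Γ I n V) (φ : Raw Γ I n V) x).re := fun x => H391.nm_sq _ _
  have q3 : ∀ x, nm c.C (η : Raw Γ I n V) x ^ 2 =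
    (hp c.C (η : Raw Γ I n V) (η : Raw Γ I n V) x).re := fun x => H391.nm_sq _ _
  simp only [← q1] at i1
  simp only [← q3] at i3
  have iS : Integrable (fun x => F (q x) * f x) c.μ := by
    refine (i1.add (i3.const_mul a)).congr (Filter.Eventually.of_forall fun x => ?_)
    simp only [Pi.add_apply]
    rw [hfd]
    unfold pf
    ring
  -- left hand side
  have l1 : σ * ∫ x, F (q x) * f x ∂c.μ ≤
      ∫ x, F (q x) * ((m' ^ 2 - s) * nm c.C (φ : Raw Γ I n V) x ^ 2 +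
        a * ((m ^ 2 - s - a * n / 4) * nm c.C (η : Raw Γ I n V) x ^ 2)) ∂c.μ := by
    rw [← integral_const_mul]
    have hi : Integrable (fun x => F (q x) * ((m' ^ 2 - s) *
        nm c.C (φ : Raw Γ I n V) x ^ 2 +
        a * ((m ^ 2 - s - a * n / 4) * nm c.C (η : Raw Γ I n V) x ^ 2))) c.μ := by
      refine ((i1.const_mul (m' ^ 2 - s)).add
        (i3.const_mul (a * (m ^ 2 - s - a * n / 4)))).congr
        (Filter.Eventually.of_forall fun x => ?_)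
      simp only [Pi.add_apply]
      ring
    refine integral_mono (iS.const_mul _) hi fun x => ?_
    have hF0 := hF.nonneg (q x)
    have hx : f x = nm c.C (φ : Raw Γ I n V) x ^ 2 + a * nm c.C (η : Raw Γ I n V) x ^ 2 := rfl
    simp only
    rw [mul_left_comm]
    refine mul_le_mul_of_nonneg_left ?_ hF0
    rw [hx]
    have r1 := mul_le_mul_of_nonneg_right h1 (sq_nonneg (nm c.C (φ : Raw Γ I n V) x))
    have r2 := mul_le_mul_of_nonneg_left (mul_le_mul_of_nonneg_right h2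
      (sq_nonneg (nm c.C (η : Raw Γ I n V) x))) ha.le
    linarith
  -- the main term
  have l2 : (⟪u, c.E.e ψ₁⟫_ℂ).re ≤ b / c₀ * ∫ x, F (q x) * f x ∂c.μ := by
    have s1 : (⟪u, c.E.e ψ₁⟫_ℂ).re ≤ b * ∫ x, √(W x) * nm c.C (ψ₁ : Raw Γ I n V) x ∂c.μ :=
      (Complex.re_le_norm _).trans (hu ψ₁)
    refine s1.trans ?_
    rw [← integral_const_mul, ← integral_const_mul]
    refine integral_mono ((integrable_f ψ₁ hWc.sqrt).const_mul b) (iS.const_mul _)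
      fun x => ?_
    simp only
    rw [hψ₁, nm_mC, abs_of_nonneg (hF.nonneg _)]
    have hN0 : 0 ≤ nm c.C (φ : Raw Γ I n V) x := norm_nonneg _
    have hx : f x = nm c.C (φ : Raw Γ I n V) x ^ 2 + a * nm c.C (η : Raw Γ I n V) x ^ 2 := rfl
    have hWx := hW.pos x
    by_cases hq : q x ≤ c₀ ^ 2
    · change b * (_ * (F (q x) * _)) ≤ b / c₀ * (F (q x) * f x)
      rw [hF.zero _ hq]; simp
    · push Not at hq
      have hq' : c₀ ^ 2 * W x < f x := by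
        have : c₀ ^ 2 < f x / W x := hq
        rwa [lt_div_iff₀ hWx] at this
      have hf0 : 0 ≤ f x := (by positivity : 0 ≤ c₀ ^ 2 * W x).trans hq'.le
      have s2 : c₀ * √(W x) * nm c.C (φ : Raw Γ I n V) x ≤ f x := by
        have s3 : nm c.C (φ : Raw Γ I n V) x ^ 2 ≤ f x := by
          rw [hx]
          have := mul_nonneg ha.le (sq_nonneg (nm c.C (η : Raw Γ I n V) x))
          linarith
        have s4 : c₀ * √(W x) ≤ √(f x) := by
          refine Real.le_sqrt_of_sq_le ?_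
          rw [mul_pow, Real.sq_sqrt hWx.le]
          exact hq'.le
        have s5 : nm c.C (φ : Raw Γ I n V) x ≤ √(f x) := Real.le_sqrt_of_sq_le s3
        calc c₀ * √(W x) * nm c.C (φ : Raw Γ I n V) x ≤ √(f x) * √(f x) :=
              mul_le_mul s4 s5 hN0 (Real.sqrt_nonneg _)
          _ = f x := Real.mul_self_sqrt hf0
      have hF0 := hF.nonneg (q x)
      change b * (√(W x) * (F (q x) * _)) ≤ b / c₀ * (F (q x) * f x)
      have s6 : b * (√(W x) * (F (q x) * nm c.C (φ : Raw Γ I n V) x)) =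
          b / c₀ * F (q x) * (c₀ * √(W x) * nm c.C (φ : Raw Γ I n V) x) := by field_simp
      rw [s6]
      calc b / c₀ * F (q x) * (c₀ * √(W x) * nm c.C (φ : Raw Γ I n V) x) ≤
            b / c₀ * F (q x) * f x :=
            mul_le_mul_of_nonneg_left s2 (by positivity)
        _ = _ := by ring
  -- the errors
  have w1 : m' ^ 2 * (⟪c.E.e φ, c.E.e ψ₁⟫_ℂ).re + (⟪c.E.e (c.S.DC φ), c.E.e (c.S.DC ψ₁)⟫_ℂ).re =
      (⟪u, c.E.e ψ₁⟫_ℂ).re + (m' ^ 2 * (⟪c.E.e φ - v, c.E.e ψ₁⟫_ℂ).re +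
        (⟪c.E.e (c.S.DC φ) - w, c.E.e (c.S.DC ψ₁)⟫_ℂ).re) := by
    have := congrArg Complex.re (e1 ψ₁)
    rw [Complex.add_re, ← Complex.ofReal_pow, Complex.re_ofReal_mul] at this
    rw [inner_sub_left, inner_sub_left, Complex.sub_re, Complex.sub_re]
    linear_combination this
  have w2 : m ^ 2 * (⟪c.E.e η, c.E.e ψ₂⟫_ℂ).re + (⟪c.E.e (c.S.DC η), c.E.e (c.S.DC ψ₂)⟫_ℂ).re =
      (⟪w, c.E.e ψ₂⟫_ℂ).re + (m ^ 2 * (⟪c.E.e η - v₂, c.E.e ψ₂⟫_ℂ).re +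
        (⟪c.E.e (c.S.DC η) - w₂, c.E.e (c.S.DC ψ₂)⟫_ℂ).re) := by
    have := congrArg Complex.re (e2 ψ₂)
    rw [Complex.add_re, ← Complex.ofReal_pow, Complex.re_ofReal_mul] at this
    rw [inner_sub_left, inner_sub_left, Complex.sub_re, Complex.sub_re]
    linear_combination this
  have cs : ∀ x y : H, (⟪x, y⟫_ℂ).re ≤ ‖x‖ * ‖y‖ := fun x y =>
    (Complex.re_le_norm _).trans (norm_inner_le_norm _ _)
  have z1 : (⟪c.E.e φ - v, c.E.e ψ₁⟫_ℂ).re ≤ ‖c.E.e φ - v‖ * ‖c.E.e φ‖ :=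
    (cs _ _).trans (mul_le_mul_of_nonneg_left (nrm φ) (norm_nonneg _))
  have z2 := cs (c.E.e (c.S.DC φ) - w) (c.E.e (c.S.DC ψ₁))
  have z3 : (⟪c.E.e η - v₂, c.E.e ψ₂⟫_ℂ).re ≤ ‖c.E.e η - v₂‖ * ‖c.E.e η‖ :=
    (cs _ _).trans (mul_le_mul_of_nonneg_left (nrm η) (norm_nonneg _))
  have z4 := cs (c.E.e (c.S.DC η) - w₂) (c.E.e (c.S.DC ψ₂))
  have z5 : (⟪w, c.E.e ψ₂⟫_ℂ).re - (⟪c.E.e (c.S.DC φ), c.E.e ψ₂⟫_ℂ).re ≤
      ‖c.E.e (c.S.DC φ) - w‖ * ‖c.E.e η‖ := by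
    rw [← Complex.sub_re, ← inner_sub_left, norm_sub_rev]
    exact (cs _ _).trans (mul_le_mul_of_nonneg_left (nrm η) (norm_nonneg _))
  have y1 := mul_le_mul_of_nonneg_left z1 (sq_nonneg m')
  have y3 := mul_le_mul_of_nonneg_left z3 (sq_nonneg m)
  have y4 : a * (m ^ 2 * (⟪c.E.e η - v₂, c.E.e ψ₂⟫_ℂ).re +
      (⟪c.E.e (c.S.DC η) - w₂, c.E.e (c.S.DC ψ₂)⟫_ℂ).re) ≤ a * (m ^ 2 * (‖c.E.e η - v₂‖ *
      ‖c.E.e η‖) + ‖c.E.e (c.S.DC η) - w₂‖ * ‖c.E.e (c.S.DC ψ₂)‖) :=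
    mul_le_mul_of_nonneg_left (add_le_add y3 z4) ha.le
  have y5 := mul_le_mul_of_nonneg_left z5 ha.le
  rw [w1, w2] at hA
  rw [sub_mul]
  linarith

end

end Vale.Agent.P223.H391
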