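import Vale.Agent.P223.H391.WP4

/-! Sup bound for `p = D g` with a weight: conclusion. -/

namespace Vale.Agent.P223.H391

open scoped ContDiff InnerProductSpace Topology
open MeasureTheory Vale.Agent.P223.H Vale.Agent.P223.X Vale.Agent.P223.H566

section
variable {n : ℕ} {M X Γ I V H : Type} [TopologicalSpace M] [TopologicalSpace X]
  [Group Γ] [MulAction Γ X] [Fintype I] [T2Space X] [ConnectedSpace X] [T2Space M]
  [MeasurableSpace X] [BorelSpace X] [NormedAddCommGroup V] [InnerProductSpace ℂ V]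
  [FiniteDimensional ℂ V] [NormedAddCommGroup H] [InnerProductSpace ℂ H] [CompleteSpace H]
  {c : Ctx n M X Γ I V H}

theorem pg_boundW (hL : SpecLocal) (hD : SpecDense) {s m m' : ℝ} (hm : 0 < m) (hm' : 0 < m')
    {g p g' p' : H →L[ℂ] H} (hR : Rsv c.E m g p) (hR' : Rsv c.E m' g' p')
    (hs : ∀ i y, -(4 * s) ≤ Vale.Agent.P223.H.scal (c.G i) y) {W : X → ℝ}
    (hW : Wgt c.C c.G s W) {σ t : ℝ} (ht : 0 < t) (hσ : 0 < σ)
    (h1 : σ ≤ m' ^ 2 - s) (h2 : σ ≤ m ^ 2 - s - (t⁻¹) ^ 2 * n / 4) {b : ℝ} (hb : 0 ≤ b)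
    {u : H} (hu : WB c.E (fun x => √(W x)) b u) :
    WB c.E (fun x => √(W x)) (t * (b / σ)) (p (g' u)) := by
  have hti : 0 < t⁻¹ := inv_pos.2 ht
  set a : ℝ := (t⁻¹) ^ 2 with ha'
  have ha : 0 < a := by positivity
  have hta : t ^ 2 * a = 1 := by rw [ha', ← mul_pow, mul_inv_cancel₀ ht.ne', one_pow]
  have hWc : Continuous W := Ck_continuous c.C fun γ i => contDiff_infty.1 (hW.smooth γ i) 0
  -- reduction
  suffices key : ∀ c' : ℝ, b / σ < c' → WB c.E (fun x => √(W x)) (t * c') (p (g' u)) by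
    intro φ
    have hlim : Filter.Tendsto (fun c' : ℝ => t * c' *
        ∫ x, √(W x) * nm c.C (φ : Raw Γ I n V) x ∂c.μ)
        (𝓝[>] (b / σ)) (𝓝 (t * (b / σ) * ∫ x, √(W x) * nm c.C (φ : Raw Γ I n V) x ∂c.μ)) :=
      (((continuous_const.mul continuous_id).mul continuous_const).tendsto (b / σ)).mono_left
        nhdsWithin_le_nhds
    refine ge_of_tendsto hlim ?_
    filter_upwards [self_mem_nhdsWithin] with c' hc' using key c' hc' φ
  intro c' hc'
  have hbσ : 0 ≤ b / σ := by positivity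
  set c₀ : ℝ := (b / σ + c') / 2 with hc₀
  have k1 : b / σ < c₀ := by rw [hc₀]; linarith
  have k2 : c₀ < c' := by rw [hc₀]; linarith
  have k3 : 0 < c₀ := lt_of_le_of_lt hbσ k1
  obtain ⟨F, hF, hF1⟩ := exists_Tst (a := c₀ ^ 2) (b := c' ^ 2) (by positivity)
    (pow_lt_pow_left₀ k2 k3.le two_ne_zero)
  obtain ⟨B, hB0, hB⟩ := supPBW c hL ha hs hW hF
  -- the equations
  obtain ⟨g1, g2⟩ := gr_gp hD hm' hR' u
  obtain ⟨g3, g4⟩ := gr_gp hD hm hR (g' u)
  have g5 : Gr c.E ((m : ℂ) ^ 2 • g (g' u) - g' u) ((m : ℂ) ^ 2 • p (g' u) - p' u) := by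
    have := gr_lin ((m : ℂ) ^ 2) (-1) g3 g1
    convert this using 1 <;> module
  have e1 : ∀ ψ : Core c.S, (m' : ℂ) ^ 2 * ⟪g' u, c.E.e ψ⟫_ℂ + ⟪p' u, c.E.e (c.S.DC ψ)⟫_ℂ =
      ⟪u, c.E.e ψ⟫_ℂ := fun ψ => weak_eq hL hD hm' hR' u ψ
  have e2 : ∀ ψ : Core c.S, (m : ℂ) ^ 2 * ⟪p (g' u), c.E.e ψ⟫_ℂ +
      ⟪(m : ℂ) ^ 2 • g (g' u) - g' u, c.E.e (c.S.DC ψ)⟫_ℂ = ⟪p' u, c.E.e ψ⟫_ℂ := fun ψ => by
    rw [weak_gr hL g5 ψ, sub_sub_cancel]
  obtain ⟨φ, l1, l2⟩ := gr_seq g1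
  obtain ⟨η, l3, l4⟩ := gr_seq g4
  have hsm : ∀ j, c.C.Ck ∞ (fun x => F (pw c.C a W (φ j : Raw Γ I n V)
    (η j : Raw Γ I n V) x)) := fun j => Ck_comp_pw hW a (φ j) (η j) hF.smooth
  set q : ℕ → X → ℝ := fun j => pw c.C a W (φ j : Raw Γ I n V) (η j : Raw Γ I n V) with hq
  set f : ℕ → X → ℝ := fun j => pf c.C a (φ j : Raw Γ I n V) (η j : Raw Γ I n V) with hf
  have hqc : ∀ j, Continuous (q j) := fun j =>
    Ck_continuous c.C fun γ i => contDiff_infty.1 (Ck_pw hW a (φ j) (η j) γ i) 0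
  have hfc : ∀ j, Continuous (f j) := fun j =>
    Ck_continuous c.C fun γ i => contDiff_infty.1 (Ck_pf a (φ j) (η j) γ i) 0
  have hfq : ∀ j x, f j x = q j x * W x := fun j x => (div_mul_cancel₀ _ (hW.pos x).ne').symm
  -- bounds for the test functions
  set R : ℕ → ℝ := fun j => √(B * (‖c.E.e (φ j)‖ ^ 2 + ‖c.E.e (c.S.DC (φ j))‖ ^ 2 +
      (‖c.E.e (η j)‖ ^ 2 + ‖c.E.e (c.S.DC (η j))‖ ^ 2))) with hR
  have n1 : ∀ j, ‖c.E.e (c.S.DC (c.S.mC _ (hsm j) (φ j)))‖ ≤ R j := fun j =>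
    Real.le_sqrt_of_sq_le (hB (φ j) (η j) (hsm j)).1
  have n2 : ∀ j, ‖c.E.e (c.S.DC (c.S.mC _ (hsm j) (η j)))‖ ≤ R j := fun j =>
    Real.le_sqrt_of_sq_le (hB (φ j) (η j) (hsm j)).2
  have tR : Filter.Tendsto R Filter.atTop (𝓝 (√(B * (‖g' u‖ ^ 2 + ‖p' u‖ ^ 2 +
      (‖p (g' u)‖ ^ 2 + ‖(m : ℂ) ^ 2 • g (g' u) - g' u‖ ^ 2))))) :=
    ((((l1.norm.pow 2).add (l2.norm.pow 2)).add
      ((l3.norm.pow 2).add (l4.norm.pow 2))).const_mul B).sqrt
  set err : ℕ → ℝ := fun j => m' ^ 2 * (‖c.E.e (φ j) - g' u‖ * ‖c.E.e (φ j)‖) +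
        ‖c.E.e (c.S.DC (φ j)) - p' u‖ * R j +
      a * (m ^ 2 * (‖c.E.e (η j) - p (g' u)‖ * ‖c.E.e (η j)‖) +
        ‖c.E.e (c.S.DC (η j)) - ((m : ℂ) ^ 2 • g (g' u) - g' u)‖ * R j) +
      a * (‖c.E.e (c.S.DC (φ j)) - p' u‖ * ‖c.E.e (η j)‖) with herr
  have herr0 : Filter.Tendsto err Filter.atTop (𝓝 0) := by
    have t1 := tendsto_iff_norm_sub_tendsto_zero.1 l1
    have t2 := tendsto_iff_norm_sub_tendsto_zero.1 l2
    have t3 := tendsto_iff_norm_sub_tendsto_zero.1 l3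
    have t4 := tendsto_iff_norm_sub_tendsto_zero.1 l4
    have t5 := ((((t1.mul l1.norm).const_mul (m' ^ 2)).add (t2.mul tR)).add
      ((((t3.mul l3.norm).const_mul (m ^ 2)).add (t4.mul tR)).const_mul a)).add
      ((t2.mul l3.norm).const_mul a)
    simp only [zero_mul, mul_zero, add_zero] at t5
    exact t5
  set J : ℕ → ℝ := fun j => ∫ x, F (q j x) * f j x ∂c.μ with hJ
  have hfin := finComp c.S.met c.vol
  have hf0 : ∀ j x, 0 ≤ f j x := fun j x => by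
    change 0 ≤ nm c.C (φ j : Raw Γ I n V) x ^ 2 + a * nm c.C (η j : Raw Γ I n V) x ^ 2
    positivity
  have hJ0 : ∀ j x, 0 ≤ F (q j x) * f j x := fun j x => mul_nonneg (hF.nonneg _) (hf0 j x)
  have hpos : 0 < σ - b / c₀ := by
    rw [sub_pos, div_lt_iff₀ k3]
    rw [div_lt_iff₀ hσ] at k1
    linarith
  have main : ∀ j, (σ - b / c₀) * J j ≤ err j := by
    intro j
    refine (pg_stepW (m := m) (m' := m') hL hs hW ha h1 h2 hb k3 hu e1 e2 hF (φ j) (η j)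
      (hsm j)).trans ?_
    have m1 := mul_le_mul_of_nonneg_left (n1 j) (norm_nonneg (c.E.e (c.S.DC (φ j)) - p' u))
    have m2 := mul_le_mul_of_nonneg_left (mul_le_mul_of_nonneg_left (n2 j)
      (norm_nonneg (c.E.e (c.S.DC (η j)) - ((m : ℂ) ^ 2 • g (g' u) - g' u)))) ha.le
    rw [herr]
    simp only
    rw [mul_add a, mul_add a]
    linarith
  have hJlim : Filter.Tendsto J Filter.atTop (𝓝 0) := by
    refine squeeze_zero (fun j => integral_nonneg (hJ0 j))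
      (g := fun j => (σ - b / c₀)⁻¹ * err j) (fun j => ?_) ?_
    · rw [inv_mul_eq_div, le_div_iff₀ hpos, mul_comm]
      exact main j
    · have := herr0.const_mul ((σ - b / c₀)⁻¹)
      rw [mul_zero] at this
      exact this
  have hη : ∀ j x, nm c.C (η j : Raw Γ I n V) x ^ 2 ≤ t ^ 2 * f j x := by
    intro j x
    change _ ≤ t ^ 2 * (nm c.C (φ j : Raw Γ I n V) x ^ 2 + a * nm c.C (η j : Raw Γ I n V) x ^ 2)
    have : t ^ 2 * (nm c.C (φ j : Raw Γ I n V) x ^ 2 + a * nm c.C (η j : Raw Γ I n V) x ^ 2) =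
        t ^ 2 * nm c.C (φ j : Raw Γ I n V) x ^ 2 +
          (t ^ 2 * a) * nm c.C (η j : Raw Γ I n V) x ^ 2 := by ring
    rw [this, hta, one_mul]
    have := mul_nonneg (sq_nonneg t) (sq_nonneg (nm c.C (φ j : Raw Γ I n V) x))
    linarith
  refine wb_of_limW (k3.trans k2) ht.le hF hF1 hWc.sqrt (fun x => Real.sqrt_pos.2 (hW.pos x))
    hqc (fun j x => ?_) l3 ?_
  · rw [Real.sq_sqrt (hW.pos x).le, ← hfq]
    exact hη j x
  have hint : ∀ j, Integrable (fun x => F (q j x) * f j x) c.μ := by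
    intro j
    refine ((hF.smooth.continuous.comp (hqc j)).mul (hfc j)).integrable_of_hasCompactSupport ?_
    exact (pf_supp a (φ j) (η j)).mul_left
  refine squeeze_zero (fun j => integral_nonneg fun x => mul_nonneg (hF.nonneg _) (sq_nonneg _))
    (g := fun j => t ^ 2 * J j) (fun j => ?_) ?_
  · rw [hJ, ← integral_const_mul]
    refine integral_mono_of_nonneg (Filter.Eventually.of_forall fun x =>
      mul_nonneg (hF.nonneg _) (sq_nonneg _)) ((hint j).const_mul _)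
      (Filter.Eventually.of_forall fun x => ?_)
    simp only
    rw [mul_left_comm]
    exact mul_le_mul_of_nonneg_left (hη j x) (hF.nonneg _)
  · have := hJlim.const_mul (t ^ 2)
    rw [mul_zero] at this
    exact this

theorem supP_auxW (hL : SpecLocal) (hD : SpecDense) (hn : 1 ≤ n) {s : ℝ}
    (hs : ∀ i y, -(4 * s) ≤ Vale.Agent.P223.H.scal (c.G i) y) {W : X → ℝ}
    (hW : Wgt c.C c.G s W) {b : ℝ} (hb : 0 ≤ b) {u : H}
    (hu : WB c.E (fun x => √(W x)) b u) (φ : Core c.S) (N : ℕ) :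
    ∀ (m : ℝ) (g p : H →L[ℂ] H), 0 < m → 4 * s ≤ m ^ 2 → Rsv c.E m g p →
    ‖⟪p u, c.E.e φ⟫_ℂ‖ ≤ 12 * n * b / m * (1 - (1 / 2) ^ N) *
      ∫ x, √(W x) * nm c.C (φ : Raw Γ I n V) x ∂c.μ +
        (1 / 2) ^ N * (‖u‖ / m * ‖c.E.e φ‖) := by
  have hn' : (1 : ℝ) ≤ n := by exact_mod_cast hn
  induction N with
  | zero =>
    intro m g p hm hk hR
    rw [pow_zero, sub_self, mul_zero, zero_mul, zero_add, one_mul]
    exact (norm_inner_le_norm _ _).trans
      (mul_le_mul_of_nonneg_right (norm_p_le hm hR u) (norm_nonneg _))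
  | succ N ih =>
    intro m g p hm hk hR
    have hm' : 0 < 2 * m := by positivity
    obtain ⟨g', p', hR'⟩ := exists_Rsv hL hD c hm'
    have h1 := ih (2 * m) g' p' hm' (by nlinarith) hR'
    have h2 := (res_id hD hm hm' hR hR' u).2
    have h3 : WB c.E (fun x => √(W x)) ((n : ℝ) / m * (b / (m ^ 2 / 2))) (p (g' u)) := by
      refine pg_boundW hL hD hm hm' hR hR' hs hW (σ := m ^ 2 / 2) (t := (n : ℝ) / m)
        (by positivity) (by positivity) ?_ ?_ hb hu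
      · nlinarith
      · have e : ((n : ℝ) / m)⁻¹ ^ 2 * n / 4 = m ^ 2 / (4 * n) := by
          have : (n : ℝ) ≠ 0 := by positivity
          field_simp
        rw [e]
        have : m ^ 2 / (4 * n) ≤ m ^ 2 / 4 :=
          div_le_div_of_nonneg_left (by positivity) (by norm_num) (by linarith)
        linarith
    have h4 := h3 φ
    set L := ∫ x, √(W x) * nm c.C (φ : Raw Γ I n V) x ∂c.μ with hLd
    have e1 : ⟪p u, c.E.e φ⟫_ℂ = ⟪p' u, c.E.e φ⟫_ℂ + (3 * m ^ 2 : ℝ) * ⟪p (g' u), c.E.e φ⟫_ℂ := by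
      rw [h2, inner_add_left, inner_smul_left]
      congr 2
      rw [← Complex.ofReal_pow, ← Complex.ofReal_pow, ← Complex.ofReal_sub, Complex.conj_ofReal]
      congr 1
      ring
    rw [e1]
    have h5 : ‖((3 * m ^ 2 : ℝ) : ℂ) * ⟪p (g' u), c.E.e φ⟫_ℂ‖ ≤
        3 * m ^ 2 * ((n : ℝ) / m * (b / (m ^ 2 / 2)) * L) := by
      rw [norm_mul, Complex.norm_real, Real.norm_eq_abs, abs_of_nonneg (by positivity)]
      exact mul_le_mul_of_nonneg_left h4 (by positivity)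
    refine (norm_add_le _ _).trans ((add_le_add h1 h5).trans (le_of_eq ?_))
    rw [pow_succ]
    field_simp
    ring

/-- weighted sup bound for `p = D g` if `4 s ≤ m²` -/
theorem supPW (hL : SpecLocal) (hD : SpecDense) (hn : 1 ≤ n) {s : ℝ}
    (hs : ∀ i y, -(4 * s) ≤ Vale.Agent.P223.H.scal (c.G i) y) {W : X → ℝ}
    (hW : Wgt c.C c.G s W) {m : ℝ} {g p : H →L[ℂ] H} (hm : 0 < m) (hk : 4 * s ≤ m ^ 2)
    (hR : Rsv c.E m g p) {b : ℝ} (hb : 0 ≤ b) {u : H}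
    (hu : WB c.E (fun x => √(W x)) b u) :
    WB c.E (fun x => √(W x)) (12 * n / m * b) (p u) := by
  intro φ
  set L := ∫ x, √(W x) * nm c.C (φ : Raw Γ I n V) x ∂c.μ with hLd
  have h0 : Filter.Tendsto (fun N : ℕ => ((1 : ℝ) / 2) ^ N) Filter.atTop (𝓝 0) :=
    tendsto_pow_atTop_nhds_zero_of_lt_one (by norm_num) (by norm_num)
  have h1 : Filter.Tendsto (fun N : ℕ => 12 * n * b / m * (1 - (1 / 2) ^ N) * L +
      (1 / 2) ^ N * (‖u‖ / m * ‖c.E.e φ‖)) Filter.atTop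
      (𝓝 (12 * n * b / m * (1 - 0) * L + 0 * (‖u‖ / m * ‖c.E.e φ‖))) :=
    (((h0.const_sub 1).const_mul _).mul_const L).add (h0.mul_const _)
  have h2 := ge_of_tendsto' h1 fun N => supP_auxW hL hD hn hs hW hb hu φ N m g p hm hk hR
  refine h2.trans (le_of_eq ?_)
  rw [sub_zero, mul_one, zero_mul, add_zero]
  ring

/-- the weight `√W` -/
theorem Wgt.gst {C : Cov n M X Γ I} {G : I → E n → Matrix (Fin n) (Fin n) ℝ} (hG : MetX C G)
    {s : ℝ} {W : X → ℝ} (hW : Wgt C G s W) : Gst C G (-s) (fun x => √(W x)) where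
  smooth γ i := (hW.smooth γ i).sqrt fun y => (hW.pos _).ne'
  pos x := Real.sqrt_pos.2 (hW.pos x)
  grad := by
    obtain ⟨c₀, hc₀⟩ := hW.grad
    refine ⟨c₀ / 2, fun x => ?_⟩
    have hx := hW.pos x
    have h1 : gsX C G (fun x => √(W x)) x = (1 / (2 * √(W x))) ^ 2 * gsX C G W x := by
      have h2 : HasDerivAt (fun t : ℝ => √t) (1 / (2 * √(C.rep W (C.pg x) (C.pi x) (C.py x))))
          (C.rep W (C.pg x) (C.pi x) (C.py x)) := Real.hasDerivAt_sqrt (hW.pos _).ne'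
      have h3 := Grad.gradSq_comp_real (G := G (C.pi x)) h2
        ((hW.smooth (C.pg x) (C.pi x)).differentiable (by simp) (C.py x))
      have h4 : C.rep W (C.pg x) (C.pi x) (C.py x) = W x := congrArg W (H566.pg_spec C x)
      rw [h4] at h3
      exact h3
    rw [h1]
    have hsq := Real.sq_sqrt hx.le
    have hs0 := Real.sqrt_pos.2 hx
    calc (1 / (2 * √(W x))) ^ 2 * gsX C G W x ≤ (1 / (2 * √(W x))) ^ 2 * (c₀ * W x) ^ 2 :=
          mul_le_mul_of_nonneg_left (hc₀ x) (sq_nonneg _)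
      _ = (c₀ / 2 * √(W x)) ^ 2 := by
          have : W x = √(W x) * √(W x) := (Real.mul_self_sqrt hx.le).symm
          nth_rewrite 2 [this]
          field_simp
  ineq γ i y := by
    have hx := hW.pos (γ • C.ψ i y)
    set U : E n → ℝ := C.rep W γ i with hU
    have hUs : ContDiff ℝ ∞ U := hW.smooth γ i
    have hU0 : ∀ z, 0 < U z := fun z => hW.pos _
    set w : E n → ℝ := fun z => √(U z) with hw
    have hws : ContDiff ℝ ∞ w := hUs.sqrt fun z => (hU0 z).ne'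
    have h1 : lap (G i) (fun z => w z * w z) y = w y * lap (G i) w y + w y * lap (G i) w y +
        2 * gradIp (G i) w w y := lap_mul' (hG.pos i) hws hws y
    have h2 : (fun z => w z * w z) = U := funext fun z => Real.mul_self_sqrt (hU0 z).le
    rw [h2] at h1
    have h3 : 0 ≤ gradIp (G i) w w y := Grad.gradSq_nonneg' (hG.pos i y) w
    have h4 := hW.ineq γ i y
    have h5 : W (γ • C.ψ i y) = w y * w y := (congrFun h2 y).symm
    have h6 : 0 < w y := Real.sqrt_pos.2 (hU0 y)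
    have e : C.rep (fun x => √(W x)) γ i = w := rfl
    change -s * w y ≤ -lap (G i) w y + Vale.Agent.P223.H.scal (G i) y / 4 * w y
    change -(2 * s) * W (γ • C.ψ i y) ≤ -lap (G i) U y + _ at h4
    rw [h5, h1] at h4
    have h7 : 0 ≤ 2 * w y * (-lap (G i) w y + Vale.Agent.P223.H.scal (G i) y / 4 * w y +
        s * w y) := by nlinarith
    have h8 := nonneg_of_mul_nonneg_right h7 (by positivity : 0 < 2 * w y)
    linarith

end

end Vale.Agent.P223.H391
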