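import Vale.Agent.P223.MathlibUsed
import Mathlib.MeasureTheory.Covering.Vitali
import Mathlib.Analysis.SpecialFunctions.Pow.NNReal

/-! From local to global Sobolev inequalities: the abstract part (growth and Vitali). -/

namespace Vale.Agent.P223.H391.W

open MeasureTheory Set
open scoped ENNReal NNReal

/-- one step: the growth condition at `s` implies it at `10 s` or at `2 s` -/
theorem step {k : ℕ} {y C₁ b e K₀ l R : ℝ} (hy : 0 < y) (hC : 0 < C₁) (hb : 0 < b)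
    (hK : 0 < K₀) (hl : 0 < l) (h1 : C₁ * 2 ^ (k + 2) * b ^ 2 ≤ y / 4)
    (h2 : C₁ * K₀ ^ 2 * 10 ^ (k + 2) * e ≤ y / 4) (he : 0 < e) {H p : ℝ → ℝ}
    (hloc : ∀ s, 0 < s → 10 * s ≤ R → y * H s ^ ((k : ℝ) / (k + 2)) ≤
      C₁ / s ^ 2 * ((K₀ * l / b) ^ 2 * p (2 * s) + H (2 * s)))
    (hbad : ∀ s, 0 < s → 5 * s ≤ R → p s ≤ e / l ^ 2 * H (5 * s))
    {s : ℝ} (hs : 0 < s) (hsR : 10 * s ≤ R) (hS : (b * s) ^ (k + 2) ≤ H s) :
    (b * (10 * s)) ^ (k + 2) ≤ H (10 * s) ∨ (b * (2 * s)) ^ (k + 2) ≤ H (2 * s) := by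
  by_contra hcon
  push Not at hcon
  obtain ⟨h3, h4⟩ := hcon
  have hbs : 0 < b * s := mul_pos hb hs
  have h5 : (b * s) ^ k ≤ H s ^ ((k : ℝ) / (k + 2)) := by
    have h6 : ((b * s) ^ (k + 2)) ^ ((k : ℝ) / (k + 2)) = (b * s) ^ k := by
      rw [← Real.rpow_natCast (b * s) (k + 2), ← Real.rpow_mul hbs.le, ← Real.rpow_natCast]
      congr 1
      push_cast
      field_simp
    rw [← h6]
    exact Real.rpow_le_rpow (by positivity) hS (by positivity)
  have h6 := hloc s hs hsR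
  have h7 : p (2 * s) ≤ e / l ^ 2 * (b * (10 * s)) ^ (k + 2) := by
    have h8 := hbad (2 * s) (by linarith) (by linarith)
    rw [show 5 * (2 * s) = 10 * s by ring] at h8
    exact h8.trans (mul_le_mul_of_nonneg_left h3.le (by positivity))
  have h8 : C₁ / s ^ 2 * ((K₀ * l / b) ^ 2 * p (2 * s) + H (2 * s)) ≤
      C₁ / s ^ 2 * ((K₀ * l / b) ^ 2 * (e / l ^ 2 * (b * (10 * s)) ^ (k + 2)) +
        (b * (2 * s)) ^ (k + 2)) := by gcongr
  have h9 : C₁ / s ^ 2 * ((K₀ * l / b) ^ 2 * (e / l ^ 2 * (b * (10 * s)) ^ (k + 2)) +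
        (b * (2 * s)) ^ (k + 2)) = (C₁ * K₀ ^ 2 * 10 ^ (k + 2) * e +
          C₁ * 2 ^ (k + 2) * b ^ 2) * (b * s) ^ k := by
    rw [show b * (10 * s) = 10 * (b * s) by ring, show b * (2 * s) = 2 * (b * s) by ring,
      mul_pow 10, mul_pow 2 (b * s), pow_add (b * s) k 2]
    field_simp
  have h10 : (C₁ * K₀ ^ 2 * 10 ^ (k + 2) * e + C₁ * 2 ^ (k + 2) * b ^ 2) * (b * s) ^ k ≤
      (y / 2) * (b * s) ^ k := by
    gcongr
    linarith
  have h11 : y * (b * s) ^ k ≤ y * H s ^ ((k : ℝ) / (k + 2)) := by gcongr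
  have h12 : 0 < (b * s) ^ k := by positivity
  have : y * (b * s) ^ k ≤ y / 2 * (b * s) ^ k :=
    h11.trans (h6.trans (h8.trans (h9.le.trans h10)))
  nlinarith

/-- The growth lemma. -/
theorem grow {k : ℕ} {y C₁ b e K₀ l R : ℝ} (hy : 0 < y) (hC : 0 < C₁) (hb : 0 < b)
    (hK : 0 < K₀) (hl : 0 < l) (h1 : C₁ * 2 ^ (k + 2) * b ^ 2 ≤ y / 4)
    (h2 : C₁ * K₀ ^ 2 * 10 ^ (k + 2) * e ≤ y / 4) (he : 0 < e) {H p : ℝ → ℝ}
    (hloc : ∀ s, 0 < s → 10 * s ≤ R → y * H s ^ ((k : ℝ) / (k + 2)) ≤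
      C₁ / s ^ 2 * ((K₀ * l / b) ^ 2 * p (2 * s) + H (2 * s)))
    (hbad : ∀ s, 0 < s → 5 * s ≤ R → p s ≤ e / l ^ 2 * H (5 * s))
    (hR : 0 < R) (hden : ∀ η, 0 < η → ∃ s, 0 < s ∧ s < η ∧ (b * s) ^ (k + 2) ≤ H s) :
    ∃ s, R / 10 < s ∧ s ≤ R ∧ (b * s) ^ (k + 2) ≤ H s := by
  have key : ∀ j : ℕ, ∀ s, 0 < s → s ≤ R → R < 2 ^ j * s * 10 → (b * s) ^ (k + 2) ≤ H s →
      ∃ s', R / 10 < s' ∧ s' ≤ R ∧ (b * s') ^ (k + 2) ≤ H s' := by
    intro j
    induction j with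
    | zero => intro s hs hsR h1 h2; exact ⟨s, by linarith, hsR, h2⟩
    | succ j ih =>
      intro s hs hsR h3 h4
      by_cases h5 : R / 10 < s
      · exact ⟨s, h5, hsR, h4⟩
      push Not at h5
      rcases step hy hC hb hK hl h1 h2 he hloc hbad hs (by linarith) h4 with h6 | h6
      · refine ih (10 * s) (by linarith) (by linarith) ?_ h6
        rw [pow_succ] at h3
        nlinarith [pow_pos (show (0 : ℝ) < 2 by norm_num) j]
      · refine ih (2 * s) (by linarith) (by linarith) ?_ h6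
        rw [pow_succ] at h3
        nlinarith
  obtain ⟨s, hs, hsR, h3⟩ := hden R hR
  obtain ⟨j, hj⟩ := pow_unbounded_of_one_lt (R / s) (show (1 : ℝ) < 2 by norm_num)
  exact key j s hs hsR.le (by rw [div_lt_iff₀ hs] at hj; nlinarith) h3

/-- Local Sobolev inequalities imply a global inequality of weak type. -/
theorem weak {k : ℕ} (hk : 1 ≤ k) {y C₁ b e K₀ M : ℝ} (hy : 0 < y) (hC : 0 < C₁) (hb : 0 < b)
    (hK : 0 < K₀) (he : 0 < e) (hM : 0 < M) (h1 : C₁ * 2 ^ (k + 2) * b ^ 2 ≤ y / 4)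
    (h2 : C₁ * K₀ ^ 2 * 10 ^ (k + 2) * e ≤ y / 4) (h3 : 10 ^ (k + 2) * M < K₀ ^ (k + 2))
    {X : Type} [MeasurableSpace X] (μ ν : Measure X) (d : X → X → ℝ≥0∞) (r : X → ℝ)
    (Ω : ℝ → Set X) (hΩm : ∀ θ, MeasurableSet (Ω θ)) (hΩ : Monotone Ω) (hΩ1 : ∀ θ, Ω θ ⊆ Ω 1)
    (hfin : μ (Ω 1) ≠ ∞) (hMm : μ (Ω 1) ≤ ENNReal.ofReal M * μ (Ω 0)) (hd0 : ∀ x, d x x = 0)
    (hds : ∀ x y, d x y = d y x) (hdt : ∀ x y z, d x z ≤ d x y + d y z)
    (hBm : ∀ x s, MeasurableSet {z | d x z < s}) (hrm : Measurable r) (hr : ∀ x ∈ Ω 0, 0 < r x)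
    (hloc : ∀ x ∈ Ω 0, ∀ s θ θ' : ℝ, 0 < s → 0 ≤ θ → θ < θ' → θ' ≤ 1 → 2 * s ≤ r x →
      ENNReal.ofReal y * μ (Ω θ ∩ {z | d x z < ENNReal.ofReal s}) ^ ((k : ℝ) / (k + 2)) ≤
        ENNReal.ofReal C₁ * (ENNReal.ofReal (1 / (θ' - θ) ^ 2) *
            ν {z | d x z < ENNReal.ofReal (2 * s)} +
          ENNReal.ofReal (1 / s ^ 2) * μ (Ω θ' ∩ {z | d x z < ENNReal.ofReal (2 * s)})))
    (hden : ∀ x ∈ Ω 0, ∀ η : ℝ, 0 < η → ∃ s, 0 < s ∧ s < η ∧
      ENNReal.ofReal ((b * s) ^ (k + 2)) ≤ μ (Ω 0 ∩ {z | d x z < ENNReal.ofReal s})) :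
    ENNReal.ofReal (min e (b ^ 2 / K₀ ^ 2)) * μ (Ω 0) ^ ((k : ℝ) / (k + 2)) ≤
      ν univ + ∫⁻ x in Ω 0, ENNReal.ofReal (1 / r x ^ 2) ∂μ := by
  have hk0 : (0 : ℝ) < k := by exact_mod_cast hk
  have hσ : 0 < (k : ℝ) / (k + 2) := by positivity
  rcases eq_or_ne (μ (Ω 0)) 0 with h0 | h0
  · rw [h0, ENNReal.zero_rpow_of_pos hσ, mul_zero]; exact zero_le
  have hfin0 : μ (Ω 0) ≠ ∞ := ne_top_of_le_ne_top hfin (measure_mono (hΩ1 0))
  set m : ℝ := (μ (Ω 0)).toReal with hm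
  have hm0 : 0 < m := ENNReal.toReal_pos h0 hfin0
  have hmo : ENNReal.ofReal m = μ (Ω 0) := ENNReal.ofReal_toReal hfin0
  set l : ℝ := m ^ (1 / ((k : ℝ) + 2)) with hl
  have hl0 : 0 < l := Real.rpow_pos_of_pos hm0 _
  have hlm : l ^ (k + 2) = m := by
    rw [hl, ← Real.rpow_natCast, ← Real.rpow_mul hm0.le]
    push_cast
    rw [one_div, inv_mul_cancel₀ (by positivity), Real.rpow_one]
  set S : ℝ := K₀ * l / b with hS
  have hS0 : 0 < S := by positivity
  have hM1 : (μ (Ω 1)).toReal ≤ M * m := by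
    have := ENNReal.toReal_mono (ENNReal.mul_ne_top ENNReal.ofReal_ne_top hfin0) hMm
    rwa [ENNReal.toReal_mul, ENNReal.toReal_ofReal hM.le] at this
  set lam : ℝ := min e (b ^ 2 / K₀ ^ 2) with hlam
  have hlam0 : 0 < lam := lt_min he (by positivity)
  -- the set where `1 / r` is large
  set Ω₂ : Set X := Ω 0 ∩ {x | r x < S} with hΩ₂
  have hΩ₂m : MeasurableSet Ω₂ := (hΩm 0).inter (measurableSet_lt hrm measurable_const)
  have h4 : ENNReal.ofReal (1 / S ^ 2) * μ Ω₂ ≤ ∫⁻ x in Ω 0, ENNReal.ofReal (1 / r x ^ 2) ∂μ := by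
    calc ENNReal.ofReal (1 / S ^ 2) * μ Ω₂ = ∫⁻ _ in Ω₂, ENNReal.ofReal (1 / S ^ 2) ∂μ := by
          rw [setLIntegral_const]
      _ ≤ ∫⁻ x in Ω₂, ENNReal.ofReal (1 / r x ^ 2) ∂μ :=
          setLIntegral_mono' hΩ₂m fun x hx => ENNReal.ofReal_le_ofReal (by
            have := hr x hx.1
            have h5 : r x < S := hx.2
            gcongr)
      _ ≤ _ := lintegral_mono_set inter_subset_left
  have hfinA : ∀ (θ : ℝ) (A : Set X), μ (Ω θ ∩ A) ≠ ∞ := fun θ A =>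
    ne_top_of_le_ne_top hfin (measure_mono (inter_subset_left.trans (hΩ1 θ)))
  have hsubB : ∀ x (s t : ℝ), s ≤ t → {z | d x z < ENNReal.ofReal s} ⊆
      {z | d x z < ENNReal.ofReal t} := fun x s t hst z (hz : d x z < _) =>
    lt_of_lt_of_le hz (ENNReal.ofReal_le_ofReal hst)
  -- good scales
  have h5 : ∀ x ∈ Ω 0 \ Ω₂, ∃ s, 0 < s ∧ 5 * s ≤ S ∧
      ENNReal.ofReal (e / l ^ 2) * μ (Ω 0 ∩ {z | d x z < ENNReal.ofReal (5 * s)}) ≤
        ν {z | d x z < ENNReal.ofReal s} := by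
    intro x hx
    by_contra hcon
    push Not at hcon
    have hrS : S ≤ r x := by
      by_contra h
      push Not at h
      exact hx.2 ⟨hx.1, h⟩
    have hP : ∀ s, 0 < s → 5 * s ≤ S → ν {z | d x z < ENNReal.ofReal s} ≠ ∞ :=
      fun s hs hs2 => ne_top_of_lt (hcon s hs hs2)
    obtain ⟨s, h6, h7, h8⟩ := grow (k := k) (R := S)
      (H := fun s => (μ (Ω (s / S) ∩ {z | d x z < ENNReal.ofReal s})).toReal)
      (p := fun s => (ν {z | d x z < ENNReal.ofReal s}).toReal) hy hC hb hK hl0 h1 h2 he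
      (fun s hs hs2 => by
        have h9 := hloc x hx.1 s (s / S) (2 * s / S) hs (by positivity)
          (by rw [div_lt_div_iff_of_pos_right hS0]; linarith)
          (by rw [div_le_one hS0]; linarith) (by linarith)
        have hPs := hP (2 * s) (by linarith) (by linarith)
        have h10 := ENNReal.toReal_mono (ENNReal.mul_ne_top ENNReal.ofReal_ne_top
          (ENNReal.add_ne_top.2 ⟨ENNReal.mul_ne_top ENNReal.ofReal_ne_top hPs,
            ENNReal.mul_ne_top ENNReal.ofReal_ne_top (hfinA _ _)⟩)) h9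
        rw [ENNReal.toReal_mul, ENNReal.toReal_mul, ENNReal.toReal_ofReal hy.le,
          ENNReal.toReal_ofReal hC.le, ← ENNReal.toReal_rpow, ENNReal.toReal_add
            (ENNReal.mul_ne_top ENNReal.ofReal_ne_top hPs)
            (ENNReal.mul_ne_top ENNReal.ofReal_ne_top (hfinA _ _)), ENNReal.toReal_mul,
          ENNReal.toReal_mul, ENNReal.toReal_ofReal (by positivity),
          ENNReal.toReal_ofReal (by positivity)] at h10
        refine h10.trans (le_of_eq ?_)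
        have e1 : 1 / (2 * s / S - s / S) ^ 2 = S ^ 2 / s ^ 2 := by
          rw [← sub_div, div_pow, one_div_div]
          congr 2
          ring
        rw [e1]
        ring)
      (fun s hs hs2 => by
        have h9 := (hcon s hs hs2).le
        have h10 : ENNReal.ofReal (e / l ^ 2) * μ (Ω 0 ∩ {z | d x z < ENNReal.ofReal (5 * s)}) ≤
            ENNReal.ofReal (e / l ^ 2) *
              μ (Ω (5 * s / S) ∩ {z | d x z < ENNReal.ofReal (5 * s)}) := by
          gcongr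
          exact hΩ (by positivity)
        have h11 := ENNReal.toReal_mono (ENNReal.mul_ne_top ENNReal.ofReal_ne_top (hfinA _ _))
          (h9.trans h10)
        rw [ENNReal.toReal_mul, ENNReal.toReal_ofReal (by positivity)] at h11
        exact h11)
      hS0
      (fun η hη => by
        obtain ⟨s, hs, hsη, h9⟩ := hden x hx.1 η hη
        refine ⟨s, hs, hsη, ?_⟩
        have h10 := h9.trans (measure_mono (inter_subset_inter_left _
          (hΩ (show (0 : ℝ) ≤ s / S by positivity))))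
        exact (ENNReal.ofReal_le_iff_le_toReal (hfinA _ _)).1 h10)
    have h9 : (μ (Ω (s / S) ∩ {z | d x z < ENNReal.ofReal s})).toReal ≤ M * l ^ (k + 2) := by
      rw [hlm]
      exact (ENNReal.toReal_mono hfin (measure_mono (inter_subset_left.trans (hΩ1 _)))).trans hM1
    have h10 : (b * (S / 10)) ^ (k + 2) ≤ (b * s) ^ (k + 2) := by gcongr
    have h11 : b * (S / 10) = K₀ * l / 10 := by rw [hS]; field_simp
    rw [h11, div_pow, mul_pow] at h10
    have h12 : K₀ ^ (k + 2) * l ^ (k + 2) / 10 ^ (k + 2) ≤ M * l ^ (k + 2) :=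
      h10.trans (h8.trans h9)
    rw [div_le_iff₀ (by positivity)] at h12
    have h13 : 0 < l ^ (k + 2) := by positivity
    have h14 : K₀ ^ (k + 2) ≤ 10 ^ (k + 2) * M := by
      refine le_of_mul_le_mul_right ?_ h13
      linarith
    linarith
  choose! s hs0 hs1 hs2 using h5
  -- Vitali
  obtain ⟨u, hu, hdis, hcov⟩ := Vitali.exists_disjoint_subfamily_covering_enlargement
    (fun x => {z | d x z < ENNReal.ofReal (s x)}) (Ω 0 \ Ω₂) s 2 one_lt_two
    (fun a ha => (hs0 a ha).le) (S / 5)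
    (fun a ha => by
      have h3 := hs1 a ha
      linarith)
    (fun a ha => ⟨a, by
      simp only [mem_ofPred_eq, hd0]
      exact ENNReal.ofReal_pos.2 (hs0 a ha)⟩)
  have hcu : u.Countable := by
    have hpos : ∀ i : u, 0 < μ (Ω 0 ∩ {z | d i z < ENNReal.ofReal (s i)}) := by
      intro i
      obtain ⟨t, ht0, ht1, ht2⟩ := hden i (hu i.2).1 (s i) (hs0 _ (hu i.2))
      refine lt_of_lt_of_le (ENNReal.ofReal_pos.2 (by positivity)) (ht2.trans (measure_mono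
        (inter_subset_inter_right _ (hsubB _ _ _ ht1.le))))
    have h3 := Measure.countable_meas_pos_of_disjoint_of_meas_iUnion_ne_top μ
      (As := fun i : u => Ω 0 ∩ {z | d i z < ENNReal.ofReal (s i)})
      (fun i => (hΩm 0).inter (hBm _ _))
      (fun i j hij => (hdis i.2 j.2 (fun h => hij (Subtype.ext h))).mono
        inter_subset_right inter_subset_right)
      (ne_top_of_le_ne_top hfin0 (measure_mono (iUnion_subset fun i => inter_subset_left)))
    have h4 : {i : u | 0 < μ (Ω 0 ∩ {z | d i z < ENNReal.ofReal (s i)})} = univ :=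
      eq_univ_of_forall hpos
    rw [h4] at h3
    exact countable_coe_iff.1 (countable_univ_iff.1 h3)
  have h6 : ENNReal.ofReal (e / l ^ 2) * μ (Ω 0 \ Ω₂) ≤ ν univ := by
    have hsubset : Ω 0 \ Ω₂ ⊆ ⋃ b ∈ u, Ω 0 ∩ {z | d b z < ENNReal.ofReal (5 * s b)} := by
      intro a ha
      obtain ⟨b, hb, ⟨z, hz1, hz2⟩, hab⟩ := hcov a ha
      refine mem_iUnion₂.2 ⟨b, hb, ha.1, ?_⟩
      have hb0 := hs0 b (hu hb)
      calc d b a ≤ d b z + d z a := hdt _ _ _
        _ = d b z + d a z := by rw [hds z a]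
        _ < ENNReal.ofReal (s b) + ENNReal.ofReal (s a) :=
            ENNReal.add_lt_add hz2 hz1
        _ = ENNReal.ofReal (s b + s a) := (ENNReal.ofReal_add hb0.le (hs0 a ha).le).symm
        _ ≤ ENNReal.ofReal (5 * s b) := ENNReal.ofReal_le_ofReal (by linarith)
    have := hcu.to_subtype
    calc ENNReal.ofReal (e / l ^ 2) * μ (Ω 0 \ Ω₂)
        ≤ ENNReal.ofReal (e / l ^ 2) *
          ∑' b : u, μ (Ω 0 ∩ {z | d b z < ENNReal.ofReal (5 * s b)}) := by
          gcongr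
          refine (measure_mono hsubset).trans ?_
          rw [biUnion_eq_iUnion]
          exact measure_iUnion_le _
      _ = ∑' b : u, ENNReal.ofReal (e / l ^ 2) *
          μ (Ω 0 ∩ {z | d b z < ENNReal.ofReal (5 * s b)}) := ENNReal.tsum_mul_left.symm
      _ ≤ ∑' b : u, ν {z | d b z < ENNReal.ofReal (s b)} :=
          ENNReal.tsum_le_tsum fun b => hs2 b (hu b.2)
      _ = ν (⋃ b : u, {z | d b z < ENNReal.ofReal (s b)}) :=
          (measure_iUnion (f := fun b : u => {z | d b z < ENNReal.ofReal (s b)})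
            (fun i j hij => hdis i.2 j.2 (fun h => hij (Subtype.ext h))) fun i => hBm _ _).symm
      _ ≤ ν univ := measure_mono (subset_univ _)
  -- the end
  have h7 : 1 / S ^ 2 = b ^ 2 / K₀ ^ 2 / l ^ 2 := by rw [hS]; field_simp
  have h8 : ENNReal.ofReal (lam / l ^ 2) * μ (Ω 0) ≤
      ν univ + ∫⁻ x in Ω 0, ENNReal.ofReal (1 / r x ^ 2) ∂μ := by
    calc ENNReal.ofReal (lam / l ^ 2) * μ (Ω 0)
        ≤ ENNReal.ofReal (lam / l ^ 2) * (μ (Ω 0 \ Ω₂) + μ Ω₂) := by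
          gcongr
          calc μ (Ω 0) ≤ μ ((Ω 0 \ Ω₂) ∪ Ω₂) := measure_mono (by
                intro x hx
                by_cases h : x ∈ Ω₂
                · exact Or.inr h
                · exact Or.inl ⟨hx, h⟩)
            _ ≤ _ := measure_union_le _ _
      _ = ENNReal.ofReal (lam / l ^ 2) * μ (Ω 0 \ Ω₂) + ENNReal.ofReal (lam / l ^ 2) * μ Ω₂ :=
          mul_add _ _ _
      _ ≤ ENNReal.ofReal (e / l ^ 2) * μ (Ω 0 \ Ω₂) + ENNReal.ofReal (1 / S ^ 2) * μ Ω₂ := by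
          rw [h7]
          gcongr
          · exact min_le_left _ _
          · exact min_le_right _ _
      _ ≤ _ := add_le_add h6 h4
  refine le_trans (le_of_eq ?_) h8
  rw [← hmo, ENNReal.ofReal_rpow_of_pos hm0, ← ENNReal.ofReal_mul hlam0.le,
    ← ENNReal.ofReal_mul (by positivity)]
  congr 1
  have h9 : m ^ ((k : ℝ) / (k + 2)) = l ^ k := by
    rw [hl, ← Real.rpow_natCast, ← Real.rpow_mul hm0.le]
    congr 1
    field_simp
  rw [h9]
  conv_rhs => rw [← hlm]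
  rw [pow_add]
  field_simp

end Vale.Agent.P223.H391.W
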