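import Vale.Agent.P223.H566.Iso
import Vale.Agent.P223.H566.LocV
import Vale.Agent.P223.H440.GA3
import Vale.Agent.P223.H765.Den
import Vale.Agent.P223.H765.Cut1
import Vale.Agent.P223.H.Equiv

/-! The distance near a point, cut-off functions, small balls. -/

namespace Vale.Agent.P223.H391.W

open scoped ContDiff ENNReal NNReal Topology
open MeasureTheory Set Filter
open Vale.Agent.P223.H566 Vale.Agent.P223.H566.NV
open Vale.Agent.P223.H440.NL (qlow bil_nonneg cov_cs deriv_ray continuous_bil bil_smul')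

variable {n : ℕ} {X : Type} [TopologicalSpace X] {c : X → J.Ch n X} {g : X → J.Mtx n}

/-- comparison of the metric near a point with the metric at this point -/
theorem bil_near (hc : J.Atl c) (hg : J.Met c g) (x : X) :
    ∀ᶠ y in 𝓝 (c x x), ∀ w : J.E n, J.bil (g x y) w w ≤ 4 * J.bil (g x (c x x)) w w := by
  set A := g x (c x x) with hA
  obtain ⟨δ, hδ, hq⟩ := qlow (JB.posDef hc hg x)
  have h1 : ContinuousAt (fun y => ∑ i, ∑ j, |(g x y - A) i j|) (c x x) := by
    refine tendsto_finsetSum _ fun i _ => tendsto_finsetSum _ fun j _ => ?_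
    have h2 : ContinuousAt (fun y => g x y i j) (c x x) :=
      (JB.smooth_chart hg (JB.mem_tgt hc x) i j).continuousAt
    exact (h2.sub continuousAt_const).abs
  have h2 : (fun y => ∑ i, ∑ j, |(g x y - A) i j|) (c x x) < 3 * δ := by
    simp only [hA, sub_self, Matrix.zero_apply, abs_zero, Finset.sum_const_zero]
    positivity
  filter_upwards [h1.eventually_lt continuousAt_const h2] with y hy w
  have h3 := Vale.Agent.P223.H.Equiv.quad_le (g x y - A) w
  have h4 : ∑ i, ∑ j, (g x y - A) i j * w i * w j = J.bil (g x y) w w - J.bil A w w := by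
    unfold J.bil
    rw [← Finset.sum_sub_distrib]
    refine Finset.sum_congr rfl fun i _ => ?_
    rw [← Finset.sum_sub_distrib]
    refine Finset.sum_congr rfl fun j _ => ?_
    rw [Matrix.sub_apply]
    ring
  rw [h4] at h3
  have h5 : (∑ i, ∑ j, |(g x y - A) i j|) * ‖w‖ ^ 2 ≤ 3 * δ * ‖w‖ ^ 2 := by gcongr
  have h6 := hq w
  linarith

/-- functions with `|du| ≤ 1` near a point -/
theorem lip_near (hc : J.Atl c) (hg : J.Met c g) (x : X) : ∃ W ∈ 𝓝 (0 : J.E n), ∀ w ∈ W,
    c x x + w ∈ (c x).target ∧ ∀ u, J.Lip1 c g u →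
      |u ((c x).symm (c x x + w)) - u x| ≤ 2 * √(J.bil (g x (c x x)) w w) := by
  set x₀ := c x x with hx₀
  obtain ⟨ρ, hρ, hW⟩ := Metric.eventually_nhds_iff_ball.1
    ((bil_near hc hg x).and ((c x).open_target.mem_nhds (JB.mem_tgt hc x)))
  refine ⟨Metric.ball 0 ρ, Metric.ball_mem_nhds _ hρ, fun w hw => ?_⟩
  have hmem : ∀ t ∈ Icc (0 : ℝ) 1, x₀ + t • w ∈ Metric.ball x₀ ρ := by
    intro t ht
    rw [mem_ball_zero_iff] at hw
    rw [Metric.mem_ball, dist_self_add_left, norm_smul, Real.norm_eq_abs, abs_of_nonneg ht.1]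
    exact lt_of_le_of_lt (mul_le_of_le_one_left (norm_nonneg _) ht.2) hw
  have h1 : x₀ + w ∈ (c x).target := by
    have := (hW _ (hmem 1 ⟨zero_le_one, le_rfl⟩)).2
    rwa [one_smul] at this
  refine ⟨h1, fun u hu => ?_⟩
  set F : J.E n → ℝ := fun w => u ((c x).symm (x₀ + w)) with hF
  have hd : ∀ t ∈ Icc (0 : ℝ) 1, DifferentiableAt ℝ F (t • w) := by
    intro t ht
    have h2 : DifferentiableAt ℝ (fun y => u ((c x).symm y)) (x₀ + t • w) :=
      (JB.sm_at hu.1 x (hW _ (hmem t ht)).2).differentiableAt (by simp)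
    exact h2.comp (t • w) (differentiableAt_id.const_add x₀)
  have h2 := norm_image_sub_le_of_norm_deriv_le_segment_01'
    (f := fun t : ℝ => F (t • w)) (f' := fun t => ∑ a, J.pd a F (t • w) * w a)
    (C := 2 * √(J.bil (g x x₀) w w)) (fun t ht => (deriv_ray (hd t ht)).hasDerivWithinAt)
    (fun t ht => ?_)
  · simp only [one_smul, zero_smul] at h2
    rw [hF] at h2
    simp only [add_zero] at h2
    have h3 : (c x).symm x₀ = x := (c x).left_inv (hc x).1
    rwa [h3, Real.norm_eq_abs] at h2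
  · have ht' : t ∈ Icc (0 : ℝ) 1 := ⟨ht.1, ht.2.le⟩
    obtain ⟨h3, h4⟩ := hW _ (hmem t ht')
    set y := x₀ + t • w with hy
    have hG : (g x y).PosDef := JB.posDef_chart hg h4
    have h5 := cov_cs hG (fun a => J.pd a F (t • w)) w
    have h6 : ∀ a, J.pd a F (t • w) = J.pd a (fun y => u ((c x).symm y)) y := by
      intro a
      have h7 : fderiv ℝ F (t • w) = fderiv ℝ (fun y => u ((c x).symm y)) y := by
        have h8 := fderiv_comp_add_left (𝕜 := ℝ) (f := fun y => u ((c x).symm y)) (x := t • w) x₀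
        exact h8
      change fderiv ℝ F (t • w) (Pi.single a 1) = _
      rw [h7]
      rfl
    have h7 : ∑ i, ∑ j, (g x y)⁻¹ i j * J.pd i F (t • w) * J.pd j F (t • w) ≤ 1 := by
      have h8 : (c x).symm y ∈ (c x).source := (c x).map_target h4
      have h9 := hu.2 ((c x).symm y)
      rw [JB.gsq_chart hc hg hu.1 (hc _).1 h8, (c x).right_inv h4] at h9
      refine le_trans (le_of_eq ?_) h9
      unfold J.gsq
      simp only [h6]
    rw [Real.norm_eq_abs]
    have h8 : (∑ a, J.pd a F (t • w) * w a) ^ 2 ≤ 4 * J.bil (g x x₀) w w := by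
      have h9 := bil_nonneg hG w
      have h10 := h3 w
      calc (∑ a, J.pd a F (t • w) * w a) ^ 2 ≤ _ := h5
        _ ≤ 1 * J.bil (g x y) w w := by gcongr
        _ ≤ _ := by rw [one_mul]; exact h10
    have h9 := Real.abs_le_sqrt h8
    rwa [Real.sqrt_mul (by norm_num), show (4 : ℝ) = 2 ^ 2 by norm_num,
      Real.sqrt_sq zero_le_two] at h9

/-- the distance near a point -/
theorem dst_near (hc : J.Atl c) (hg : J.Met c g) (x : X) : ∃ W ∈ 𝓝 (0 : J.E n), ∀ w ∈ W,
    c x x + w ∈ (c x).target ∧ dst c g x ((c x).symm (c x x + w)) ≤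
      ENNReal.ofReal (2 * √(J.bil (g x (c x x)) w w)) := by
  obtain ⟨W, hW, h⟩ := lip_near hc hg x
  refine ⟨W, hW, fun w hw => ⟨(h w hw).1, iSup₂_le fun u hu => ENNReal.ofReal_le_ofReal ?_⟩⟩
  rw [abs_sub_comm]
  exact (h w hw).2 u hu

/-- the distance is continuous -/
theorem dst_small (hc : J.Atl c) (hg : J.Met c g) (x : X) {ε : ℝ≥0∞} (hε : 0 < ε) :
    ∀ᶠ p in 𝓝 x, dst c g x p < ε := by
  obtain ⟨W, hW, h⟩ := dst_near hc hg x
  have h1 : ContinuousAt (fun p => c x p - c x x) x :=
    ((c x).continuousAt (hc x).1).sub continuousAt_const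
  have h0 : (fun p => c x p - c x x) x = 0 := sub_self _
  have h2 : ContinuousAt (fun w : J.E n =>
      ENNReal.ofReal (2 * √(J.bil (g x (c x x)) w w))) 0 :=
    (ENNReal.continuous_ofReal.comp (continuous_const.mul
      (continuous_bil _).sqrt)).continuousAt
  have h3 : ENNReal.ofReal (2 * √(J.bil (g x (c x x)) (0 : J.E n) 0)) = 0 := by
    simp [J.bil]
  have h4 : ∀ᶠ w in 𝓝 (0 : J.E n), w ∈ W ∧
      ENNReal.ofReal (2 * √(J.bil (g x (c x x)) w w)) < ε := by
    refine Filter.Eventually.and hW (h2.eventually_lt continuousAt_const ?_)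
    simp only [h3]
    exact hε
  rw [← h0] at h4
  filter_upwards [h1.eventually h4, (c x).open_source.mem_nhds (hc x).1] with p hp hps
  have h5 := (h _ hp.1).2
  rw [add_sub_cancel, (c x).left_inv hps] at h5
  exact h5.trans_lt hp.2

theorem isOpen_bal (hc : J.Atl c) (hg : J.Met c g) (x : X) (s : ℝ) : IsOpen (bal c g x s) := by
  rw [isOpen_iff_mem_nhds]
  intro z hz
  have hz' : dst c g x z < ENNReal.ofReal s := hz
  have h1 : 0 < ENNReal.ofReal s - dst c g x z := tsub_pos_of_lt hz'
  filter_upwards [dst_small hc hg z h1] with p hp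
  change dst c g x p < ENNReal.ofReal s
  calc dst c g x p ≤ dst c g x z + dst c g z p := Iso.dst_tri _ _ _
    _ < dst c g x z + (ENNReal.ofReal s - dst c g x z) :=
        ENNReal.add_lt_add_left (ne_top_of_lt hz') hp
    _ = ENNReal.ofReal s := add_tsub_cancel_of_le hz'.le

/-- small balls are not too small -/
theorem den (n : ℕ) : ∃ c' : ℝ, 0 < c' ∧ ∀ (X : Type) [TopologicalSpace X]
    [MeasurableSpace X] [BorelSpace X] (μ : Measure X) (c : X → J.Ch n X)
    (g : X → J.Mtx n) (x : X), J.Atl c → J.Met c g → J.Vol c g μ →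
    ∀ Ω : Set X, IsOpen Ω → x ∈ Ω → ∀ η : ℝ, 0 < η → ∃ s, 0 < s ∧ s < η ∧
      ENNReal.ofReal (c' * s ^ n) ≤ μ (Ω ∩ bal c g x s) := by
  set V := (volume (H765.Den.ub n)).toReal with hV
  have hV0 : 0 < V := ENNReal.toReal_pos H765.Den.ub_pos.ne' H765.Den.ub_ne_top
  refine ⟨V / 2 ^ (n + 1), by positivity, ?_⟩
  intro X _ _ _ μ c g x hc hg hμ Ω hΩ hx η hη
  set A := g x (c x x) with hA
  have hAp : A.PosDef := JB.posDef hc hg x
  have hAd : 0 < √A.det := Real.sqrt_pos.2 hAp.det_pos
  obtain ⟨W, hW, h⟩ := dst_near hc hg x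
  have hadd : ContinuousAt (fun w : J.E n => c x x + w) 0 :=
    (continuous_const.add continuous_id).continuousAt
  have e1 : ∀ᶠ w in 𝓝 (0 : J.E n), (c x).symm (c x x + w) ∈ Ω := by
    have h1 : ContinuousAt (fun w : J.E n => (c x).symm (c x x + w)) 0 := by
      refine ContinuousAt.comp (g := (c x).symm) ?_ hadd
      rw [add_zero]
      exact (c x).continuousAt_symm (JB.mem_tgt hc x)
    refine h1.eventually_mem (hΩ.mem_nhds ?_)
    rw [add_zero, (c x).left_inv (hc x).1]
    exact hx
  have e2 : ∀ᶠ w in 𝓝 (0 : J.E n), √A.det / 2 < √(g x (c x x + w)).det := by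
    have h1 : ContinuousAt (fun y => √(g x y).det) (c x x) := by
      have h4 : ContinuousAt (fun y => g x y) (c x x) :=
        continuousAt_pi.2 fun i => continuousAt_pi.2 fun j =>
          (JB.smooth_chart hg (JB.mem_tgt hc x) i j).continuousAt
      exact Real.continuous_sqrt.continuousAt.comp
        ((Continuous.matrix_det continuous_id).continuousAt.comp h4)
    have h2 : ContinuousAt (fun w : J.E n => √(g x (c x x + w)).det) 0 := by
      refine ContinuousAt.comp (g := fun y => √(g x y).det) ?_ hadd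
      rwa [add_zero]
    refine h2.eventually_const_lt ?_
    simp only [add_zero]
    linarith
  obtain ⟨δ, hδ, hδW⟩ := H765.Den.bA_small hAp (W := {w | w ∈ W ∧
      (c x).symm (c x x + w) ∈ Ω ∧ √A.det / 2 < √(g x (c x x + w)).det})
    (by filter_upwards [hW, e1, e2] with w h1 h2 h3 using ⟨h1, h2, h3⟩)
  obtain ⟨s, hs0, hs1⟩ : ∃ s, 0 < s ∧ s < min δ η := exists_between (lt_min hδ hη)
  have hsδ : s / 2 ≤ δ := by
    have := hs1.le.trans (min_le_left _ _)
    linarith
  refine ⟨s, hs0, hs1.trans_le (min_le_right _ _), ?_⟩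
  have hB := hδW (s / 2) (by positivity) hsδ
  set B := H765.Den.bA A (s / 2) with hBd
  have hbm : MeasurableSet B := by
    refine (isOpen_lt ?_ continuous_const).measurableSet
    exact continuous_bil A
  set B' : Set (J.E n) := (fun y => y - c x x) ⁻¹' B with hB'
  have hb'm : MeasurableSet B' := (measurable_id.sub_const _) hbm
  have hB'mem : ∀ y ∈ B', y - c x x ∈ B := fun y hy => hy
  have h1 : (c x).symm '' B' ⊆ Ω ∩ bal c g x s := by
    rintro _ ⟨y, hy, rfl⟩
    have hy' := hB (hB'mem y hy)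
    have h2 := (h _ hy'.1).2
    have h3 := hy'.2.1
    rw [add_sub_cancel] at h2 h3
    refine ⟨h3, lt_of_le_of_lt h2 ?_⟩
    rw [ENNReal.ofReal_lt_ofReal_iff hs0]
    have h4 : J.bil A (y - c x x) (y - c x x) < (s / 2) ^ 2 := hB'mem y hy
    have h5 : √(J.bil A (y - c x x) (y - c x x)) < s / 2 := by
      rw [Real.sqrt_lt' (by positivity)]
      exact h4
    linarith
  refine le_trans ?_ (measure_mono h1)
  rw [hμ x B' (fun y hy => by
    have := (h _ (hB (hB'mem y hy)).1).1
    rwa [add_sub_cancel] at this) hb'm]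
  have hvol : volume B' = volume B := by
    rw [hB']
    simp only [sub_eq_add_neg]
    exact measure_preimage_add_right volume (-c x x) B
  calc ENNReal.ofReal (V / 2 ^ (n + 1) * s ^ n)
      = ENNReal.ofReal (1 / 2) * (ENNReal.ofReal ((s / 2) ^ n) * volume (H765.Den.ub n)) := by
        rw [← ENNReal.ofReal_toReal (H765.Den.ub_ne_top (n := n)), ← hV,
          ← ENNReal.ofReal_mul (by positivity), ← ENNReal.ofReal_mul (by norm_num)]
        congr 1
        rw [div_pow, pow_succ]
        field_simp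
    _ = ∫⁻ _ in B', ENNReal.ofReal (√A.det / 2) := by
        rw [setLIntegral_const, hvol, ← H765.Den.vol_bA hAp (by positivity : 0 < s / 2),
          ← mul_assoc, ← ENNReal.ofReal_mul (by norm_num)]
        congr 2
        ring
    _ ≤ ∫⁻ y in B', ENNReal.ofReal √(g x y).det := by
        refine setLIntegral_mono' hb'm fun y hy => ENNReal.ofReal_le_ofReal ?_
        have := (hB (hB'mem y hy)).2.2
        rw [add_sub_cancel] at this
        exact this.le

end Vale.Agent.P223.H391.W
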