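import Vale.Agent.P223.H391.Wb

/-! Cut-off functions. -/

namespace Vale.Agent.P223.H391.W

open scoped ContDiff ENNReal NNReal Topology
open MeasureTheory Set Filter
open Vale.Agent.P223.H566 Vale.Agent.P223.H566.NV

variable {n : ℕ} {X : Type} [TopologicalSpace X] {c : X → J.Ch n X} {g : X → J.Mtx n}

theorem grd_const (a : ℝ) (q : X) : grd c g (fun _ : X => a) q = 0 := by
  refine JB.grd_eq_zero ?_
  simp

theorem grd_le_one {u : X → ℝ} {q : X} : grd c g u q ≤ 1 ↔
    J.gsq (g q) (fun x => u ((c q).symm x)) (c q q) ≤ 1 := by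
  unfold grd
  rw [Real.sqrt_le_iff]
  simp

theorem lip1_comp (hc : J.Atl c) {u : X → ℝ} (hu : J.Lip1 c g u) {ψ : ℝ → ℝ}
    (hψ : ContDiff ℝ ∞ ψ) (h1 : ∀ x, |deriv ψ x| ≤ 1) : J.Lip1 c g fun q => ψ (u q) := by
  refine ⟨LocV.sm_comp hψ hu.1, fun q => ?_⟩
  have h2 : HasDerivAt ψ (deriv ψ (u q)) (u q) := ((hψ.differentiable (by simp)) _).hasDerivAt
  have h3 := JB.grd_comp (g := g) hc hu.1 h2
  have h5 : grd c g u q ≤ 1 := (grd_le_one (u := u)).2 (hu.2 q)
  have h4 : grd c g (fun q => ψ (u q)) q ≤ 1 := by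
    rw [h3]
    exact mul_le_one₀ (h1 _) (JB.grd_nonneg q) h5
  exact (grd_le_one (u := fun q => ψ (u q))).1 h4

theorem sm_const (a : ℝ) : J.Sm c fun _ : X => a := fun _ => contDiffOn_const

theorem sm_add {u v : X → ℝ} (hu : J.Sm c u) (hv : J.Sm c v) : J.Sm c fun q => u q + v q :=
  fun a => (hu a).add (hv a)

theorem sm_sum {ι : Type*} (t : Finset ι) (f : ι → X → ℝ) (h : ∀ i ∈ t, J.Sm c (f i)) :
    J.Sm c fun q => ∑ i ∈ t, f i q := by
  classical
  induction t using Finset.induction_on with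
  | empty => simpa using sm_const (c := c) 0
  | insert a s ha ih =>
    simp only [Finset.sum_insert ha]
    exact sm_add (h a (Finset.mem_insert_self _ _)) (ih fun i hi => h i (Finset.mem_insert_of_mem hi))

theorem grd_sum_le (hc : J.Atl c) (hg : J.Met c g) {ι : Type*} (t : Finset ι) (f : ι → X → ℝ)
    (h : ∀ i ∈ t, J.Sm c (f i)) (q : X) :
    grd c g (fun q => ∑ i ∈ t, f i q) q ≤ ∑ i ∈ t, grd c g (f i) q := by
  classical
  induction t using Finset.induction_on with
  | empty =>
    simp only [Finset.sum_empty]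
    exact (grd_const 0 q).le
  | insert a s ha ih =>
    simp only [Finset.sum_insert ha]
    have h1 := h a (Finset.mem_insert_self _ _)
    have h2 : ∀ i ∈ s, J.Sm c (f i) := fun i hi => h i (Finset.mem_insert_of_mem hi)
    exact (JB.grd_add_le hc hg h1 (sm_sum s f h2) q).trans (add_le_add le_rfl (ih h2))

/-- smooth maximum of finitely many functions -/
theorem exists_max (hc : J.Atl c) (hg : J.Met c g) {ι : Type*} (t : Finset ι) (u : ι → X → ℝ)
    (hu : ∀ i ∈ t, J.Lip1 c g (u i)) {δ : ℝ} (hδ : 0 < δ) : ∃ F : X → ℝ, J.Sm c F ∧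
      (∀ q, grd c g F q ≤ 1) ∧ (∀ i ∈ t, ∀ q, u i q ≤ F q) ∧
      ∀ (D : ℝ) (q : X), 0 ≤ D → (∀ i ∈ t, u i q ≤ D) → F q ≤ D + δ := by
  set N : ℝ := 1 + t.card with hN
  have hN1 : 1 ≤ N := by simp [hN]
  set b : ℝ := (Real.log N + 1) / δ with hb
  have hlog : 0 ≤ Real.log N := Real.log_nonneg hN1
  have hb0 : 0 < b := by positivity
  set S : X → ℝ := fun q => 1 + ∑ i ∈ t, Real.exp (b * u i q) with hS
  have hS1 : ∀ q, 1 ≤ S q := fun q => by
    have : 0 ≤ ∑ i ∈ t, Real.exp (b * u i q) := Finset.sum_nonneg fun i _ => (Real.exp_pos _).le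
    simp only [hS]
    linarith
  have he : ∀ i ∈ t, J.Sm c fun q => Real.exp (b * u i q) := fun i hi =>
    LocV.sm_comp (ψ := fun x => Real.exp (b * x))
      (Real.contDiff_exp.comp (contDiff_const.mul contDiff_id)) (hu i hi).1
  have hSs : J.Sm c S := sm_add (sm_const 1) (sm_sum t _ he)
  have hlt : ∀ i ∈ t, ∀ q, grd c g (u i) q ≤ 1 := fun i hi q => grd_le_one.2 ((hu i hi).2 q)
  refine ⟨fun q => Real.log (S q) / b, ?_, fun q => ?_, fun i hi q => ?_, fun D q hD hD' => ?_⟩
  · intro a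
    refine ContDiffOn.div_const ?_ b
    exact (hSs a).log fun x _ => (lt_of_lt_of_le one_pos (hS1 _)).ne'
  · have h1 : HasDerivAt (fun x => Real.log x / b) (1 / S q / b) (S q) := by
      have := (Real.hasDerivAt_log (lt_of_lt_of_le one_pos (hS1 q)).ne').div_const b
      rwa [inv_eq_one_div] at this
    have h2 := JB.grd_comp hc hSs h1 (g := g)
    rw [h2]
    have hSq := lt_of_lt_of_le one_pos (hS1 q)
    rw [abs_of_pos (by positivity)]
    have h3 : grd c g S q ≤ ∑ i ∈ t, b * Real.exp (b * u i q) := by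
      calc grd c g S q ≤ grd c g (fun _ => 1) q +
            grd c g (fun q => ∑ i ∈ t, Real.exp (b * u i q)) q :=
            JB.grd_add_le hc hg (sm_const 1) (sm_sum t _ he) q
        _ ≤ 0 + ∑ i ∈ t, grd c g (fun q => Real.exp (b * u i q)) q :=
            add_le_add (grd_const 1 q).le (grd_sum_le hc hg t _ he q)
        _ ≤ ∑ i ∈ t, b * Real.exp (b * u i q) := by
            rw [zero_add]
            refine Finset.sum_le_sum fun i hi => ?_
            have h4 : HasDerivAt (fun x => Real.exp (b * x)) (Real.exp (b * u i q) * b) (u i q) := by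
              have := ((hasDerivAt_id (u i q)).const_mul b).exp
              simpa using this
            rw [JB.grd_comp hc (hu i hi).1 h4, abs_of_pos (by positivity)]
            calc Real.exp (b * u i q) * b * grd c g (u i) q
                ≤ Real.exp (b * u i q) * b * 1 := by
                  gcongr
                  exact hlt i hi q
              _ = _ := by ring
    calc 1 / S q / b * grd c g S q ≤ 1 / S q / b * ∑ i ∈ t, b * Real.exp (b * u i q) := by gcongr
      _ = (∑ i ∈ t, Real.exp (b * u i q)) / S q := by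
          rw [← Finset.mul_sum]
          field_simp
      _ ≤ 1 := by
          rw [div_le_one hSq]
          simp only [hS]
          linarith
  · rw [le_div_iff₀ hb0, mul_comm, ← Real.log_exp (b * u i q)]
    refine Real.log_le_log (Real.exp_pos _) ?_
    have := Finset.single_le_sum (f := fun i => Real.exp (b * u i q))
      (fun j _ => (Real.exp_pos _).le) hi
    simp only [hS]
    linarith
  · rw [div_le_iff₀ hb0]
    have h1 : S q ≤ N * Real.exp (b * D) := by
      have h2 : ∑ i ∈ t, Real.exp (b * u i q) ≤ ∑ _i ∈ t, Real.exp (b * D) :=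
        Finset.sum_le_sum fun i hi => Real.exp_le_exp.2
          (mul_le_mul_of_nonneg_left (hD' i hi) hb0.le)
      rw [Finset.sum_const, nsmul_eq_mul] at h2
      have h3 : 1 ≤ Real.exp (b * D) := Real.one_le_exp (by positivity)
      simp only [hS, hN]
      rw [add_mul, one_mul]
      linarith
    have h2 := Real.log_le_log (lt_of_lt_of_le one_pos (hS1 q)) h1
    rw [Real.log_mul (by positivity) (Real.exp_pos _).ne', Real.log_exp] at h2
    have h3 : δ * b = Real.log N + 1 := by rw [hb]; field_simp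
    rw [add_mul, h3]
    linarith

/-- cut-off functions -/
theorem cut (hc : J.Atl c) (hg : J.Met c g) {K : Set X} (hK : IsCompact K) (x : X) {s : ℝ}
    (hs : 0 < s) : ∃ φ : X → ℝ, J.Sm c φ ∧ (∀ z, 0 ≤ φ z ∧ φ z ≤ 1) ∧
      (∀ z ∈ bal c g x s, φ z = 1) ∧
      (∀ z ∈ K, φ z ≠ 0 → dst c g x z < ENNReal.ofReal (7 / 4 * s)) ∧
      ∀ z, grd c g φ z ≤ 4 / s := by
  set K' : Set X := K \ bal c g x (7 / 4 * s) with hK'
  have hK'c : IsCompact K' := hK.diff (isOpen_bal hc hg x _)
  set δ : ℝ := 3 / 32 * s with hδ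
  have hδ0 : 0 < δ := by positivity
  have h1 : ∀ z ∈ K', ∃ u, J.Lip1 c g u ∧ 7 / 4 * s - δ < u z - u x := by
    intro z hz
    have h2 : ENNReal.ofReal (7 / 4 * s - δ) < dst c g x z := by
      refine lt_of_lt_of_le ?_ (not_lt.1 hz.2)
      rw [ENNReal.ofReal_lt_ofReal_iff (by positivity)]
      linarith
    unfold dst at h2
    rw [lt_iSup_iff] at h2
    obtain ⟨u, hu⟩ := h2
    rw [lt_iSup_iff] at hu
    obtain ⟨hu1, hu2⟩ := hu
    have h3 : 7 / 4 * s - δ < |u x - u z| := (ENNReal.ofReal_lt_ofReal_iff_of_nonneg (by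
      rw [hδ]; linarith)).1 hu2
    rcases le_total (u x - u z) 0 with h | h
    · rw [abs_of_nonpos h] at h3
      exact ⟨u, hu1, by linarith⟩
    · rw [abs_of_nonneg h] at h3
      refine ⟨fun q => -u q, lip1_comp hc hu1 (ψ := fun x => -x) contDiff_neg (fun x => ?_),
        by linarith⟩
      rw [deriv_neg, abs_neg, abs_one]
  choose! u hu1 hu2 using h1
  have hcont : ∀ z ∈ K', Continuous (u z) := fun z hz => JB.sm_cont hc (hu1 z hz).1
  obtain ⟨t, ht, hcov⟩ := hK'c.elim_nhds_subcover (fun z => {p | 7 / 4 * s - δ < u z p - u z x})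
    fun z hz => (isOpen_lt continuous_const ((hcont z hz).sub continuous_const)).mem_nhds
      (hu2 z hz)
  obtain ⟨F, hF, hF1, hF2, hF3⟩ := exists_max hc hg t (fun z q => u z q - u z x) (fun z hz => by
    refine lip1_comp hc (hu1 z (ht z hz)) (ψ := fun a => a - u z x)
      (contDiff_id.sub contDiff_const) (fun a => ?_)
    have h3 : HasDerivAt (fun a => a - u z x) 1 a := (hasDerivAt_id a).sub_const (u z x)
    rw [h3.deriv, abs_one]) hδ0
  obtain ⟨k, hk, hk01, hk1, hk0, hkd⟩ := H765.Cut.exists_cut (show s < 7 / 4 * s by linarith)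
  refine ⟨fun q => k (F q), LocV.sm_comp hk hF, fun z => hk01 _, fun z hz => hk1 _ ?_,
    fun z hz hφ => ?_, fun z => ?_⟩
  · have h3 : F z ≤ s + δ := hF3 s z hs.le fun i hi => by
      have h4 := Iso.lip_le (hu1 i (ht i hi)) x z
      have h5 := (ENNReal.ofReal_lt_ofReal_iff hs).1 (h4.trans_lt hz)
      rw [abs_sub_comm] at h5
      exact (le_abs_self _).trans h5.le
    rw [hδ] at h3
    linarith
  · by_contra hcon
    obtain ⟨i, hi, hiz⟩ := mem_iUnion₂.1 (hcov ⟨hz, hcon⟩)
    have h3 := hF2 i hi z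
    have h4 : 7 / 4 * s - δ < u i z - u i x := hiz
    refine hφ (hk0 _ ?_)
    rw [hδ] at h4
    linarith
  · have h3 : HasDerivAt k (deriv k (F z)) (F z) :=
      ((hk.differentiable (by simp)) _).hasDerivAt
    rw [JB.grd_comp hc hF h3]
    have h4 := hkd (F z)
    have h5 := hF1 z
    have h6 := JB.grd_nonneg (c := c) (g := g) (u := F) z
    have h7 : 0 ≤ 2 / (7 / 4 * s - s) := (abs_nonneg _).trans h4
    calc |deriv k (F z)| * grd c g F z ≤ (2 / (7 / 4 * s - s)) * 1 := by gcongr
      _ ≤ 4 / s := by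
        rw [show 7 / 4 * s - s = 3 / 4 * s by ring, mul_one, div_le_div_iff₀ (by positivity) hs]
        linarith

end Vale.Agent.P223.H391.W
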