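import Vale.Agent.P223.H391.Wa
import Vale.Agent.P223.H391.Wc
import Vale.Agent.P223.H391.WDef
import Vale.Agent.P223.H391.Grd

/-! Local Sobolev inequalities imply an inequality of weak type. -/

namespace Vale.Agent.P223.H391.W

open scoped ContDiff ENNReal NNReal Topology
open MeasureTheory Set Filter
open Vale.Agent.P223.H566 Vale.Agent.P223.H566.NV

variable {n : ℕ} {X : Type} [TopologicalSpace X] {c : X → J.Ch n X} {g : X → J.Mtx n}

/-- the level sets -/
def Om (u : X → ℝ) (τ θ : ℝ) : Set X := {q | τ * (1 - min θ 1 / 2) < |u q|}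

/-- the energy density between the levels `τ / 2` and `τ` -/
noncomputable def En (c : X → J.Ch n X) (g : X → J.Mtx n) (u V : X → ℝ) (τ : ℝ) (q : X) : ℝ :=
  ({q | τ / 2 < |u q| ∧ |u q| ≤ τ}.indicator (fun q => (grd c g u q / τ) ^ 2) q) +
    ({q | τ / 2 < |u q|}.indicator V q)

theorem gsq_eq (hc : J.Atl c) (hg : J.Met c g) (u : X → ℝ) (q : X) :
    J.gsq (g q) (fun x => u ((c q).symm x)) (c q q) = grd c g u q ^ 2 := by
  unfold grd
  rw [Real.sq_sqrt (gsq_nonneg hc hg u q)]

theorem alg1 {B S D I V : ℝ} (hS : 0 ≤ S) (hI : 0 ≤ D * I) (hV : 0 ≤ D * V) :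
    32 * S + 8 * B ^ 2 * (D * I) + 1 * (D * V) ≤ (8 * B ^ 2 + 33) * (D * (I + V) + S) := by
  have h1 := mul_nonneg (sq_nonneg B) hS
  have h2 := mul_nonneg (sq_nonneg B) hV
  have e : (8 * B ^ 2 + 33) * (D * (I + V) + S) = 8 * (B ^ 2 * S) + 33 * S +
    8 * (B ^ 2 * (D * V)) + 33 * (D * V) + 8 * B ^ 2 * (D * I) + 33 * (D * I) := by ring
  rw [e]
  linarith

/-- the local inequality -/
theorem loc [T2Space X] (hn : 3 ≤ n) (hc : J.Atl c) (hg : J.Met c g) [MeasurableSpace X] [BorelSpace X]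
    {μ : Measure X} (hμ : J.Vol c g μ) {u V : X → ℝ} (hu : J.Sm c u) (huc : HasCompactSupport u)
    (hV : Continuous V) (hV0 : ∀ q, 0 ≤ V q) {y R : ℝ} (hy : 0 < y) {x : X}
    (hS : J.SobAt c g V y x R) {B : ℝ} (hB : ∀ x, |deriv Real.smoothTransition x| ≤ B)
    {τ s θ θ' : ℝ} (hτ : 0 < τ) (hs : 0 < s) (hθ : 0 ≤ θ) (hθ' : θ < θ') (hθ1 : θ' ≤ 1)
    (hsR : 2 * s ≤ R) :
    ENNReal.ofReal y * μ (Om u τ θ ∩ bal c g x s) ^ (((n : ℝ) - 2) / n) ≤
      ENNReal.ofReal (8 * B ^ 2 + 33) * (ENNReal.ofReal (1 / (θ' - θ) ^ 2) *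
          ∫⁻ q in bal c g x (2 * s), ENNReal.ofReal (En c g u V τ q) ∂μ +
        ENNReal.ofReal (1 / s ^ 2) * μ (Om u τ θ' ∩ bal c g x (2 * s))) := by
  have hlf := JB.locFin hc hg hμ
  have hn3 : (3 : ℝ) ≤ n := by exact_mod_cast hn
  have hσ : 0 ≤ ((n : ℝ) - 2) / n := div_nonneg (by linarith) (by linarith)
  have hp : 0 < 2 * (n : ℝ) / (n - 2) := div_pos (by linarith) (by linarith)
  have hB0 : 0 ≤ B := (abs_nonneg _).trans (hB 0)
  have hucont := JB.sm_cont hc hu
  have hd : 0 < θ' - θ := sub_pos.2 hθ'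
  have hd1 : 1 ≤ 1 / (θ' - θ) ^ 2 := by
    rw [le_div_iff₀ (by positivity)]
    nlinarith
  set t : ℝ := τ * (1 - θ' / 2) with ht
  set ε : ℝ := τ * (θ' - θ) / 2 with hε
  have htτ : τ / 2 ≤ t := by rw [ht]; nlinarith
  have ht0 : 0 < t := by linarith [half_pos hτ]
  have hε0 : 0 < ε := by positivity
  have htε : t + ε = τ * (1 - θ / 2) := by rw [ht, hε]; ring
  have htε' : t + ε ≤ τ := by rw [htε]; nlinarith
  obtain ⟨φ, hφ, hφ01, hφ1, hφs, hφg⟩ := cut hc hg (huc : IsCompact (tsupport u)) x hs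
  set w : X → ℝ := fun q => LocV.lev t ε (u q) with hw
  have hwS : J.Sm c w := LocV.sm_comp (LocV.lev_smooth ht0 hε0) hu
  set v : X → ℝ := fun q => w q * φ q with hv
  have hvS : J.Sm c v := LocV.sm_mul hwS hφ
  have hwu : ∀ q, w q ≠ 0 → t < |u q| := fun q hq => by
    by_contra h
    exact hq (LocV.lev_zero hε0 (not_lt.1 h))
  have huK : ∀ q, t < |u q| → q ∈ tsupport u := fun q hq => subset_tsupport u (by
    intro h
    rw [h, abs_zero] at hq
    linarith)
  have hvu : tsupport v ⊆ tsupport u := closure_minimal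
    (fun q hq => huK q (hwu q (left_ne_zero_of_mul hq))) (isClosed_tsupport u)
  have hvc : HasCompactSupport v := (huc : IsCompact (tsupport u)).of_isClosed_subset
    (isClosed_tsupport _) hvu
  have hvcont := JB.sm_cont hc hvS
  have hφball : ∀ q ∈ tsupport u, φ q ≠ 0 → q ∈ bal c g x (2 * s) := fun q hq hq' =>
    (hφs q hq hq').trans_le (ENNReal.ofReal_le_ofReal (by linarith))
  -- the Sobolev inequality
  have h1 := hS _ inferInstance μ hμ v hvS hvc ⟨7 / 4 * s, by linarith, fun z hz w' hw' => by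
    have h2 := hφs z (huK z (hwu z (left_ne_zero_of_mul hz))) (right_ne_zero_of_mul hz)
    have h3 := (Iso.lip_le hw' x z).trans h2.le
    exact (ENNReal.ofReal_le_ofReal_iff (by positivity)).1 h3⟩
  simp only [gsq_eq hc hg] at h1
  set F : X → ℝ := fun q => grd c g v q ^ 2 + V q * v q ^ 2 with hF
  have hF0 : ∀ q, 0 ≤ F q := fun q => add_nonneg (sq_nonneg _) (mul_nonneg (hV0 q) (sq_nonneg _))
  have hFc : Continuous F := ((JB.cont_grd hc hg hvS).pow 2).add (hV.mul (hvcont.pow 2))
  have hgv : ∀ q, q ∉ tsupport v → grd c g v q = 0 := fun q hq => by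
    have h2 := gsq_out (g := g) hc hq
    rw [gsq_eq hc hg] at h2
    exact pow_eq_zero_iff two_ne_zero |>.1 h2
  have hFi : Integrable F μ := hFc.integrable_of_hasCompactSupport
    (HasCompactSupport.intro hvc.isCompact fun q hq => by
      simp only [hF, hgv q hq, image_eq_zero_of_notMem_tsupport hq]
      ring)
  have hPi : Integrable (fun q => |v q| ^ (2 * (n : ℝ) / (n - 2))) μ := by
    refine (hvcont.abs.rpow_const fun q => Or.inr hp.le).integrable_of_hasCompactSupport
      (HasCompactSupport.intro hvc.isCompact fun q hq => ?_)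
    rw [image_eq_zero_of_notMem_tsupport hq, abs_zero, Real.zero_rpow hp.ne']
  -- measurable sets
  have hBm : MeasurableSet (bal c g x (2 * s)) := (isOpen_bal hc hg x _).measurableSet
  have hBm' : MeasurableSet (bal c g x s) := (isOpen_bal hc hg x _).measurableSet
  have hOo : ∀ θ, IsOpen (Om u τ θ) := fun θ => isOpen_lt continuous_const hucont.abs
  -- left side
  have h2 : μ (Om u τ θ ∩ bal c g x s) ≤
      ENNReal.ofReal (∫ q, |v q| ^ (2 * (n : ℝ) / (n - 2)) ∂μ) := by
    rw [ofReal_integral_eq_lintegral_ofReal hPi (ae_of_all _ fun q => by positivity)]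
    calc μ (Om u τ θ ∩ bal c g x s) = ∫⁻ _ in Om u τ θ ∩ bal c g x s, 1 ∂μ := by
          rw [setLIntegral_const, one_mul]
      _ ≤ ∫⁻ q in Om u τ θ ∩ bal c g x s,
          ENNReal.ofReal (|v q| ^ (2 * (n : ℝ) / (n - 2))) ∂μ := by
          refine setLIntegral_mono' ((hOo θ).measurableSet.inter hBm') fun q hq => ?_
          have h3 : v q = 1 := by
            have h4 : τ * (1 - min θ 1 / 2) < |u q| := hq.1
            rw [min_eq_left (by linarith)] at h4
            change LocV.lev t ε (u q) * φ q = 1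
            rw [LocV.lev_one hε0 (by rw [htε]; exact h4.le), hφ1 q hq.2, one_mul]
          rw [h3, abs_one, Real.one_rpow, ENNReal.ofReal_one]
      _ ≤ _ := setLIntegral_le_lintegral _ _
  have h3 : ENNReal.ofReal y * μ (Om u τ θ ∩ bal c g x s) ^ (((n : ℝ) - 2) / n) ≤
      ∫⁻ q, ENNReal.ofReal (F q) ∂μ := by
    calc ENNReal.ofReal y * μ (Om u τ θ ∩ bal c g x s) ^ (((n : ℝ) - 2) / n)
        ≤ ENNReal.ofReal y * ENNReal.ofReal (∫ q, |v q| ^ (2 * (n : ℝ) / (n - 2)) ∂μ) ^
          (((n : ℝ) - 2) / n) := by gcongr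
      _ = ENNReal.ofReal (y * (∫ q, |v q| ^ (2 * (n : ℝ) / (n - 2)) ∂μ) ^
          (((n : ℝ) - 2) / n)) := by
          rw [ENNReal.ofReal_mul hy.le, ENNReal.ofReal_rpow_of_nonneg
            (integral_nonneg fun q => by positivity) hσ]
      _ ≤ ENNReal.ofReal (∫ q, F q ∂μ) := ENNReal.ofReal_le_ofReal h1
      _ = _ := ofReal_integral_eq_lintegral_ofReal hFi (ae_of_all _ hF0)
  -- the pointwise bound
  have hgw : ∀ q, grd c g w q ^ 2 ≤ 4 * B ^ 2 / (θ' - θ) ^ 2 *
      {q | τ / 2 < |u q| ∧ |u q| ≤ τ}.indicator (fun q => (grd c g u q / τ) ^ 2) q ∧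
      (|u q| ≤ t → grd c g w q = 0) := by
    intro q
    have h4 : HasDerivAt (LocV.lev t ε) (deriv (LocV.lev t ε) (u q)) (u q) :=
      ((LocV.lev_smooth ht0 hε0).differentiable (by simp) _).hasDerivAt
    have h5 : grd c g w q = |deriv (LocV.lev t ε) (u q)| * grd c g u q := JB.grd_comp hc hu h4
    obtain ⟨h6, h7⟩ := LocV.lev_deriv ht0 hε0 hB (u q)
    have hg0 := JB.grd_nonneg (c := c) (g := g) (u := u) q
    rw [h5]
    refine ⟨?_, fun h => ?_⟩
    · by_cases h8 : t < |u q| ∧ |u q| ≤ t + ε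
      · rw [indicator_of_mem (show q ∈ {q | τ / 2 < |u q| ∧ |u q| ≤ τ} from
          ⟨lt_of_le_of_lt htτ h8.1, h8.2.trans htε'⟩)]
        calc (|deriv (LocV.lev t ε) (u q)| * grd c g u q) ^ 2 ≤ (B / ε * grd c g u q) ^ 2 := by
              gcongr
          _ = _ := by
              rw [hε]
              field_simp
              ring
      · rw [h7 h8, abs_zero, zero_mul, zero_pow two_ne_zero]
        exact mul_nonneg (by positivity) (indicator_nonneg (fun q _ => sq_nonneg _) q)
    · rw [h7 (fun h8 => absurd h8.1 (not_lt.2 h)), abs_zero, zero_mul]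
  have hkey : ∀ q, ENNReal.ofReal (F q) ≤ ENNReal.ofReal (8 * B ^ 2 + 33) *
      (ENNReal.ofReal (1 / (θ' - θ) ^ 2) *
        (bal c g x (2 * s)).indicator (fun q => ENNReal.ofReal (En c g u V τ q)) q +
      ENNReal.ofReal (1 / s ^ 2) *
        (Om u τ θ' ∩ bal c g x (2 * s)).indicator (fun _ => 1) q) := by
    intro q
    have hgrd := JB.grd_mul_le hc hg hwS hφ q
    have hg0 := JB.grd_nonneg (c := c) (g := g) (u := v) q
    have hgφ0 := JB.grd_nonneg (c := c) (g := g) (u := φ) q
    have hgw0 := JB.grd_nonneg (c := c) (g := g) (u := w) q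
    have hw1 : |w q| ≤ 1 := by rw [abs_of_nonneg (LocV.lev_nonneg _ _ _)]; exact LocV.lev_le _ _ _
    have hφ1' : |φ q| ≤ 1 := by rw [abs_of_nonneg (hφ01 q).1]; exact (hφ01 q).2
    by_cases h4 : t < |u q| ∧ φ q ≠ 0
    · have hqB := hφball q (huK q h4.1) h4.2
      have hqO : q ∈ Om u τ θ' := by
        change τ * (1 - min θ' 1 / 2) < |u q|
        rw [min_eq_left hθ1]
        exact h4.1
      rw [indicator_of_mem hqB, indicator_of_mem (show q ∈ Om u τ θ' ∩ bal c g x (2 * s) from
        ⟨hqO, hqB⟩), mul_one, ← ENNReal.ofReal_mul (by positivity), ← ENNReal.ofReal_add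
          (mul_nonneg (by positivity) ?_) (by positivity), ← ENNReal.ofReal_mul (by positivity)]
      swap
      · exact add_nonneg (indicator_nonneg (fun q _ => sq_nonneg _) q)
          (indicator_nonneg (fun q _ => hV0 q) q)
      refine ENNReal.ofReal_le_ofReal ?_
      have h5 : grd c g v q ≤ 4 / s + grd c g w q := by
        refine hgrd.trans (add_le_add ?_ (mul_le_of_le_one_left hgw0 hφ1'))
        exact (mul_le_of_le_one_left hgφ0 hw1).trans (hφg q)
      have h6 : grd c g v q ^ 2 ≤ 2 * (4 / s) ^ 2 + 2 * grd c g w q ^ 2 := by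
        have h7 := pow_le_pow_left₀ hg0 h5 2
        nlinarith [sq_nonneg (4 / s - grd c g w q)]
      have h7 : V q * v q ^ 2 ≤ V q := by
        refine mul_le_of_le_one_right (hV0 q) ?_
        rw [← sq_abs]
        refine pow_le_one₀ (abs_nonneg _) ?_
        change |w q * φ q| ≤ 1
        rw [abs_mul]
        exact mul_le_one₀ hw1 (abs_nonneg _) hφ1'
      have h8 : {q | τ / 2 < |u q|}.indicator V q = V q :=
        indicator_of_mem (show q ∈ {q | τ / 2 < |u q|} from lt_of_le_of_lt htτ h4.1) _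
      have h9 := (hgw q).1
      set I := {q | τ / 2 < |u q| ∧ |u q| ≤ τ}.indicator (fun q => (grd c g u q / τ) ^ 2) q with hI
      have hI0 : 0 ≤ I := indicator_nonneg (fun q _ => sq_nonneg _) q
      have h10 : En c g u V τ q = I + V q := by
        unfold En
        rw [h8]
      have hVq := hV0 q
      rw [h10]
      calc F q ≤ 2 * (4 / s) ^ 2 + 2 * (4 * B ^ 2 / (θ' - θ) ^ 2 * I) + V q * 1 := by
            simp only [hF]
            linarith
        _ ≤ 2 * (4 / s) ^ 2 + 2 * (4 * B ^ 2 / (θ' - θ) ^ 2 * I) +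
            V q * (1 / (θ' - θ) ^ 2) := by gcongr
        _ = 32 * (1 / s ^ 2) + 8 * B ^ 2 * (1 / (θ' - θ) ^ 2 * I) +
            1 * (1 / (θ' - θ) ^ 2 * V q) := by ring
        _ ≤ _ := alg1 (by positivity) (by positivity) (mul_nonneg (by positivity) hVq)
    · have h5 : F q = 0 := by
        have h6 : v q = 0 ∧ grd c g v q = 0 := by
          rw [not_and_or, not_lt, not_not] at h4
          rcases h4 with h4 | h4
          · have h7 : w q = 0 := LocV.lev_zero hε0 h4
            have h8 := (hgw q).2 h4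
            refine ⟨by change w q * φ q = 0; rw [h7, zero_mul], le_antisymm ?_ hg0⟩
            rw [h7, h8, abs_zero, zero_mul, mul_zero, add_zero] at hgrd
            exact hgrd
          · have h8 : grd c g φ q = 0 := JB.grd_min hc fun p => by
              rw [h4]; exact (hφ01 p).1
            refine ⟨by change w q * φ q = 0; rw [h4, mul_zero], le_antisymm ?_ hg0⟩
            rw [h4, h8, abs_zero, zero_mul, mul_zero, add_zero] at hgrd
            exact hgrd
        simp only [hF, h6.1, h6.2]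
        ring
      rw [h5, ENNReal.ofReal_zero]
      exact zero_le
  refine h3.trans ((lintegral_mono hkey).trans (le_of_eq ?_))
  rw [lintegral_const_mul' _ _ ENNReal.ofReal_ne_top, lintegral_add_right _
    ((measurable_const.indicator ((hOo θ').measurableSet.inter hBm)).const_mul _),
    lintegral_const_mul' _ _ ENNReal.ofReal_ne_top, lintegral_const_mul' _ _ ENNReal.ofReal_ne_top,
    lintegral_indicator hBm, lintegral_indicator ((hOo θ').measurableSet.inter hBm),
    setLIntegral_const, one_mul]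

end Vale.Agent.P223.H391.W
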