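import Vale.Agent.P223.H391.Wd

/-! The inequality of weak type on a manifold. -/

namespace Vale.Agent.P223.H391.W

open scoped ContDiff ENNReal NNReal Topology
open MeasureTheory Set Filter
open Vale.Agent.P223.H566 Vale.Agent.P223.H566.NV

theorem weakM (n : ℕ) (hn : 3 ≤ n) : ∃ c₁ : ℝ, 0 < c₁ ∧ ∀ (X : Type) [TopologicalSpace X]
    [T2Space X] [MeasurableSpace X] [BorelSpace X] (μ : Measure X) (c : X → J.Ch n X)
    (g : X → J.Mtx n) (u V r : X → ℝ) (y τ : ℝ), J.Atl c → J.Met c g → J.Vol c g μ →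
    J.Sm c u → HasCompactSupport u → Continuous V → (∀ q, 0 ≤ V q) → Continuous r →
    (∀ q, 0 < r q) → 0 < y → y ≤ 1 → (∀ x, J.SobAt c g V y x (r x)) → 0 < τ →
    μ {q | τ / 2 < |u q|} ≤ ENNReal.ofReal 128 * μ {q | τ < |u q|} →
    ENNReal.ofReal (c₁ * y) * μ {q | τ < |u q|} ^ (((n : ℝ) - 2) / n) ≤
      ∫⁻ q, ENNReal.ofReal (En c g u V τ q) ∂μ +
        ∫⁻ q in {q | τ < |u q|}, ENNReal.ofReal (1 / r q ^ 2) ∂μ := by
  obtain ⟨k, rfl⟩ : ∃ k, n = k + 2 := ⟨n - 2, by omega⟩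
  have hk : 1 ≤ k := by omega
  obtain ⟨B, hB0, hB⟩ := LocV.exists_bound
  obtain ⟨c', hc', hden⟩ := den (k + 2)
  set C₁ : ℝ := 8 * B ^ 2 + 33 with hC₁
  have hC0 : 0 < C₁ := by positivity
  set β : ℝ := min 1 (min c' (1 / (4 * C₁ * 2 ^ (k + 2)))) with hβ
  have hβ0 : 0 < β := lt_min one_pos (lt_min hc' (by positivity))
  have hβ1 : β ≤ 1 := min_le_left _ _
  have hβc : β ≤ c' := (min_le_right _ _).trans (min_le_left _ _)
  have hβC : C₁ * 2 ^ (k + 2) * β ≤ 1 / 4 := by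
    calc C₁ * 2 ^ (k + 2) * β ≤ C₁ * 2 ^ (k + 2) * (1 / (4 * C₁ * 2 ^ (k + 2))) := by
          gcongr
          exact (min_le_right _ _).trans (min_le_right _ _)
      _ = 1 / 4 := by field_simp
  set K₀ : ℝ := 1280 with hK₀
  set e₀ : ℝ := 1 / (4 * C₁ * K₀ ^ 2 * 10 ^ (k + 2)) with he₀
  have he₀0 : 0 < e₀ := by positivity
  refine ⟨min e₀ (β ^ 2 / K₀ ^ 2), lt_min he₀0 (by positivity), ?_⟩
  intro X _ _ _ _ μ c g u V r y τ hc hg hμ hu huc hV hV0 hr hr0 hy hy1 hS hτ hM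
  have hlf := JB.locFin hc hg hμ
  have hucont := JB.sm_cont hc hu
  set b : ℝ := √y * β with hb
  have hb0 : 0 < b := mul_pos (Real.sqrt_pos.2 hy) hβ0
  have hb2 : b ^ 2 = y * β ^ 2 := by rw [hb, mul_pow, Real.sq_sqrt hy.le]
  have hbn : b ^ (k + 2) ≤ c' := by
    have h1 : √y ≤ 1 := Real.sqrt_le_one.2 hy1
    have h2 : b ≤ 1 := mul_le_one₀ h1 hβ0.le hβ1
    calc b ^ (k + 2) ≤ b ^ 1 := pow_le_pow_of_le_one hb0.le h2 (by omega)
      _ = √y * β := pow_one _
      _ ≤ 1 * β := by gcongr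
      _ ≤ c' := by rw [one_mul]; exact hβc
  have hσ : (((k + 2 : ℕ) : ℝ) - 2) / ((k + 2 : ℕ) : ℝ) = (k : ℝ) / (k + 2) := by
    push_cast
    congr 1
    ring
  have hOo : ∀ θ, IsOpen (Om u τ θ) := fun θ => isOpen_lt continuous_const hucont.abs
  have e0 : Om u τ 0 = {q | τ < |u q|} := by
    unfold Om
    rw [min_eq_left zero_le_one]
    simp
  have e1 : Om u τ 1 = {q | τ / 2 < |u q|} := by
    unfold Om
    rw [min_self, show τ * (1 - 1 / 2) = τ / 2 by ring]
  have hO1s : Om u τ 1 ⊆ tsupport u := fun q hq => subset_tsupport u (by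
    rw [e1] at hq
    intro h
    have h1 : τ / 2 < |u q| := hq
    rw [h, abs_zero] at h1
    linarith)
  have hmono : Monotone (Om u τ) := by
    intro θ θ' h q hq
    have h1 : τ * (1 - min θ 1 / 2) < |u q| := hq
    have h2 : min θ 1 ≤ min θ' 1 := min_le_min_right 1 h
    change τ * (1 - min θ' 1 / 2) < |u q|
    refine lt_of_le_of_lt ?_ h1
    gcongr
  set ν : Measure X := μ.withDensity fun q => ENNReal.ofReal (En c g u V τ q) with hν
  have hνB : ∀ s : Set X, MeasurableSet s →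
      ν s = ∫⁻ q in s, ENNReal.ofReal (En c g u V τ q) ∂μ := fun s hs => withDensity_apply _ hs
  have h := weak hk (y := y) (C₁ := C₁) (b := b) (e := y * e₀) (K₀ := K₀) (M := 128) hy hC0 hb0
    (by norm_num) (by positivity) (by norm_num)
    (by
      rw [hb2]
      have h1 : β ^ 2 ≤ β := by nlinarith
      calc C₁ * 2 ^ (k + 2) * (y * β ^ 2) ≤ C₁ * 2 ^ (k + 2) * (y * β) := by gcongr
        _ = y * (C₁ * 2 ^ (k + 2) * β) := by ring
        _ ≤ y * (1 / 4) := by gcongr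
        _ = y / 4 := by ring)
    (by
      rw [he₀]
      refine le_of_eq ?_
      field_simp)
    (by
      rw [hK₀, show (1280 : ℝ) = 10 * 128 by norm_num, mul_pow]
      have h1 : (128 : ℝ) ^ 1 < 128 ^ (k + 2) := pow_lt_pow_right₀ (by norm_num) (by omega)
      rw [pow_one] at h1
      gcongr)
    μ ν (dst c g) r (Om u τ) (fun θ => (hOo θ).measurableSet) hmono
    (fun θ q hq => by
      rcases le_total θ 1 with h | h
      · exact hmono h hq
      · have h1 : τ * (1 - min θ 1 / 2) < |u q| := hq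
        rw [min_eq_right h] at h1
        rw [e1]
        change τ / 2 < |u q|
        linarith)
    (ne_top_of_le_ne_top (huc : IsCompact (tsupport u)).measure_lt_top.ne (measure_mono hO1s))
    (by rw [e0, e1]; exact hM) Iso.dst_self Iso.dst_comm Iso.dst_tri (Iso.meas_ball hc)
    hr.measurable (fun x _ => hr0 x)
    (fun x _ s θ θ' hs hθ hθ' hθ1 hsr => by
      have h1 := loc hn hc hg hμ hu huc hV hV0 hy (hS x) hB hτ hs hθ hθ' hθ1 hsr
      rw [hσ] at h1
      rw [hνB _ (Iso.meas_ball hc x _)]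
      exact h1)
    (fun x hx η hη => by
      obtain ⟨s, hs, hsη, h1⟩ := hden X μ c g x hc hg hμ (Om u τ 0) (hOo 0) hx η hη
      refine ⟨s, hs, hsη, le_trans (ENNReal.ofReal_le_ofReal ?_) h1⟩
      rw [mul_pow]
      gcongr)
  rw [hσ, e0] at *
  rw [hνB univ MeasurableSet.univ, Measure.restrict_univ] at h
  refine le_trans (le_of_eq ?_) h
  congr 2
  rw [hb2, mul_comm, mul_min_of_nonneg _ _ hy.le]
  congr 1
  ring

end Vale.Agent.P223.H391.W
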