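import Vale.Agent.P223.H391.We

/-! Local Sobolev inequalities imply a global Sobolev inequality: summation over dyadic levels. -/

namespace Vale.Agent.P223.H391.W

open scoped ContDiff ENNReal NNReal Topology
open MeasureTheory Set Filter
open Vale.Agent.P223.H566 Vale.Agent.P223.H566.NV

/-- `∑ xⱼ^q ≤ (∑ xⱼ)^q` -/
theorem tsum_rpow_le {q : ℝ} (hq : 1 ≤ q) (x : ℕ → ℝ≥0∞) :
    ∑' j, x j ^ q ≤ (∑' j, x j) ^ q := by
  set T := ∑' j, x j with hT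
  have h1 : ∀ j, x j ^ q ≤ x j * T ^ (q - 1) := fun j => by
    have h2 : x j ^ q = x j * x j ^ (q - 1) := by
      conv_lhs => rw [show q = 1 + (q - 1) by ring,
        ENNReal.rpow_add_of_nonneg _ _ zero_le_one (by linarith), ENNReal.rpow_one]
    rw [h2]
    have h3 : x j ^ (q - 1) ≤ T ^ (q - 1) :=
      ENNReal.rpow_le_rpow (ENNReal.le_tsum j) (by linarith)
    gcongr
  calc ∑' j, x j ^ q ≤ ∑' j, x j * T ^ (q - 1) := ENNReal.tsum_le_tsum h1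
    _ = T * T ^ (q - 1) := ENNReal.tsum_mul_right
    _ = T ^ q := by
      conv_rhs => rw [show q = 1 + (q - 1) by ring,
        ENNReal.rpow_add_of_nonneg _ _ zero_le_one (by linarith), ENNReal.rpow_one]

theorem sum_lemma {σ : ℝ} (hσ0 : 0 < σ) (hσ1 : σ ≤ 1) (b G : ℕ → ℝ≥0∞) (hS : ∑' j, b j ≠ ⊤)
    (h : ∀ j, b j ≤ 2⁻¹ * b (j + 1) + G j ^ (1 / σ)) : (∑' j, b j) ^ σ ≤ 2 * ∑' j, G j := by
  set S := ∑' j, b j with hSd
  have h1 : S ≤ 2⁻¹ * S + (∑' j, G j) ^ (1 / σ) := by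
    calc S ≤ ∑' j, (2⁻¹ * b (j + 1) + G j ^ (1 / σ)) := ENNReal.tsum_le_tsum h
      _ = 2⁻¹ * ∑' j, b (j + 1) + ∑' j, G j ^ (1 / σ) := by
          rw [ENNReal.tsum_add, ENNReal.tsum_mul_left]
      _ ≤ 2⁻¹ * S + (∑' j, G j) ^ (1 / σ) := by
          gcongr
          · exact ENNReal.tsum_comp_le_tsum_of_injective (add_left_injective 1) b
          · exact tsum_rpow_le (by rw [le_div_iff₀ hσ0]; linarith) G
  have h2 : S ≤ 2 * (∑' j, G j) ^ (1 / σ) := by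
    have h3 : S = (2 : ℝ≥0∞)⁻¹ * S + (2 : ℝ≥0∞)⁻¹ * S := by
      rw [← add_mul, ENNReal.inv_two_add_inv_two, one_mul]
    have h4 : 2⁻¹ * S ≤ (∑' j, G j) ^ (1 / σ) := by
      have h5 : 2⁻¹ * S ≠ ⊤ := ENNReal.mul_ne_top (by simp) hS
      refine (ENNReal.add_le_add_iff_left h5).1 ?_
      rw [← h3]
      exact h1
    calc S = 2 * (2⁻¹ * S) := by
          rw [← mul_assoc, ENNReal.mul_inv_cancel two_ne_zero ENNReal.ofNat_ne_top, one_mul]
      _ ≤ _ := by gcongr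
  calc S ^ σ ≤ (2 * (∑' j, G j) ^ (1 / σ)) ^ σ := by gcongr
    _ = 2 ^ σ * ∑' j, G j := by
        rw [ENNReal.mul_rpow_of_nonneg _ _ hσ0.le, ← ENNReal.rpow_mul, one_div,
          inv_mul_cancel₀ hσ0.ne', ENNReal.rpow_one]
    _ ≤ 2 ^ (1 : ℝ) * ∑' j, G j := by
        gcongr
        norm_num
    _ = _ := by rw [ENNReal.rpow_one]

/-- sum over the levels, for a number `a` between `0` and `T` -/
theorem lvl {T a : ℝ} (ha : 0 < a) (haT : a ≤ T) :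
    ∃ j₀ : ℕ, T / 2 ^ j₀ / 2 < a ∧ a ≤ T / 2 ^ j₀ ∧ ∀ j, j < j₀ → a ≤ T / 2 ^ j / 2 := by
  have hT : 0 < T := ha.trans_le haT
  have hex : ∃ j : ℕ, T / 2 ^ j / 2 < a := by
    obtain ⟨j, hj⟩ := pow_unbounded_of_one_lt (T / a) (show (1 : ℝ) < 2 by norm_num)
    refine ⟨j, ?_⟩
    rw [div_lt_iff₀ ha] at hj
    rw [div_div, div_lt_iff₀ (by positivity)]
    nlinarith [pow_pos (show (0 : ℝ) < 2 by norm_num) j]
  classical
  refine ⟨Nat.find hex, Nat.find_spec hex, ?_, fun j hj => not_lt.1 (Nat.find_min hex hj)⟩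
  rcases Nat.eq_zero_or_pos (Nat.find hex) with h | h
  · rw [h]; simpa using haT
  · obtain ⟨m, hm⟩ : ∃ m, Nat.find hex = m + 1 := ⟨Nat.find hex - 1, by omega⟩
    have h1 := not_lt.1 (Nat.find_min hex (m := m) (by omega))
    rw [hm, pow_succ, ← div_div]
    exact h1

theorem tsum_shift (f : ℕ → ℝ≥0∞) (j₀ : ℕ) (h : ∀ j, j < j₀ → f j = 0) (A : ℝ≥0∞)
    (h' : ∀ i, f (i + j₀) ≤ A * 2⁻¹ ^ i) : ∑' j, f j ≤ A * 2 := by
  have h1 : ∑' j, f j = ∑' i, f (i + j₀) := by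
    have h2 := (ENNReal.summable (f := fun i => f (i + j₀))).sum_add_tsum_nat_add'
    rw [← h2, Finset.sum_eq_zero fun j hj => h j (Finset.mem_range.1 hj), zero_add]
  rw [h1]
  calc ∑' i, f (i + j₀) ≤ ∑' i, A * 2⁻¹ ^ i := ENNReal.tsum_le_tsum h'
    _ = A * 2 := by
      rw [ENNReal.tsum_mul_left, ENNReal.tsum_geometric]
      congr 1
      rw [ENNReal.one_sub_inv_two, inv_inv]

end Vale.Agent.P223.H391.W
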