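import Vale.Agent.P223.H391.Wf
import Vale.Agent.P223.H691.UYW

/-! Local Sobolev inequalities imply a global Sobolev inequality. -/

namespace Vale.Agent.P223.H391.W

open scoped ContDiff ENNReal NNReal Topology
open MeasureTheory Set Filter
open Vale.Agent.P223.H566 Vale.Agent.P223.H566.NV

/-- the powers of `a` and the levels below `a` -/
theorem ptA {T a p : ℝ} (ha : 0 ≤ a) (haT : a ≤ T) (hp0 : 0 < p) (hp6 : p ≤ 6) :
    ENNReal.ofReal (a ^ p) ≤ 64 * ∑' j : ℕ,
      ENNReal.ofReal ((T / 2 ^ j) ^ p) * (if T / 2 ^ j < a then 1 else 0) := by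
  rcases ha.eq_or_lt with rfl | ha
  · rw [Real.zero_rpow hp0.ne', ENNReal.ofReal_zero]; exact zero_le
  obtain ⟨j₀, h1, h2, -⟩ := lvl ha haT
  have hT : 0 < T := ha.trans_le haT
  have h3 : T / 2 ^ (j₀ + 1) = T / 2 ^ j₀ / 2 := by rw [pow_succ, div_div]
  refine le_trans ?_ (mul_le_mul_right (ENNReal.le_tsum (j₀ + 1)) 64)
  rw [if_pos (by rw [h3]; exact h1), mul_one]
  calc ENNReal.ofReal (a ^ p) ≤ ENNReal.ofReal (64 * (T / 2 ^ (j₀ + 1)) ^ p) := by
        refine ENNReal.ofReal_le_ofReal ?_
        calc a ^ p ≤ (2 * (T / 2 ^ (j₀ + 1))) ^ p :=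
              Real.rpow_le_rpow ha.le (by rw [h3]; linarith) hp0.le
          _ = 2 ^ p * (T / 2 ^ (j₀ + 1)) ^ p := Real.mul_rpow zero_le_two (by positivity)
          _ ≤ 2 ^ (6 : ℝ) * (T / 2 ^ (j₀ + 1)) ^ p := by
              gcongr
              norm_num
          _ = 64 * (T / 2 ^ (j₀ + 1)) ^ p := by norm_num
    _ = 64 * ENNReal.ofReal ((T / 2 ^ (j₀ + 1)) ^ p) := by
        rw [ENNReal.ofReal_mul (by norm_num)]
        norm_num

/-- the terms of the sum over the levels -/
noncomputable def trm (T a G W₁ W₂ : ℝ) (j : ℕ) : ℝ :=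
  (T / 2 ^ j) ^ 2 * ((if T / 2 ^ j / 2 < a ∧ a ≤ T / 2 ^ j then G / (T / 2 ^ j) ^ 2 else 0) +
    (if T / 2 ^ j / 2 < a then W₁ else 0) + (if T / 2 ^ j < a then W₂ else 0))

theorem ptB {T a G W₁ W₂ : ℝ} (ha : 0 ≤ a) (haT : a ≤ T) (hT : 0 < T) (hG : 0 ≤ G)
    (hW₁ : 0 ≤ W₁) (hW₂ : 0 ≤ W₂) :
    ∑' j : ℕ, ENNReal.ofReal (trm T a G W₁ W₂ j) ≤
      ENNReal.ofReal (8 * (G + (W₁ + W₂) * a ^ 2)) := by
  have ht : ∀ j : ℕ, 0 < T / 2 ^ j := fun j => by positivity
  rcases ha.eq_or_lt with rfl | ha
  · have h1 : ∀ j, trm T 0 G W₁ W₂ j = 0 := fun j => by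
      have := ht j
      unfold trm
      rw [if_neg (fun h => by linarith [h.1]), if_neg (by linarith), if_neg (by linarith)]
      ring
    simp only [h1, ENNReal.ofReal_zero, tsum_zero]
    exact zero_le
  obtain ⟨j₀, h1, h2, h3⟩ := lvl ha haT
  have h4 := tsum_shift (fun j => ENNReal.ofReal (trm T a G W₁ W₂ j)) j₀ (fun j hj => by
    have h5 := h3 j hj
    have h6 := ht j
    unfold trm
    rw [if_neg (fun h => by linarith [h.1]), if_neg (by linarith), if_neg (by linarith)]
    simp) (ENNReal.ofReal (G + 4 * (W₁ + W₂) * a ^ 2)) (fun i => by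
    have h5 : T / 2 ^ (i + j₀) = T / 2 ^ j₀ / 2 ^ i := by rw [pow_add]; field_simp
    have h6 : (2⁻¹ : ℝ≥0∞) ^ i = ENNReal.ofReal (1 / 2 ^ i) := by
      rw [one_div, ENNReal.ofReal_inv_of_pos (by positivity), ENNReal.ofReal_pow zero_le_two,
        ENNReal.inv_pow]
      norm_num
    rw [h6, ← ENNReal.ofReal_mul (by positivity)]
    refine ENNReal.ofReal_le_ofReal ?_
    unfold trm
    set t := T / 2 ^ (i + j₀) with htd
    have ht0 : 0 < t := ht _
    have h7 : t ^ 2 ≤ 4 * a ^ 2 * (1 / 2 ^ i) := by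
      have h8 : t ≤ 2 * a * (1 / 2 ^ i) := by
        rw [h5, mul_one_div]
        gcongr
        linarith
      have h9 : t ≤ 2 * a := by
        refine h8.trans (mul_le_of_le_one_right (by positivity) ?_)
        rw [div_le_one (by positivity)]
        exact one_le_pow₀ one_le_two
      calc t ^ 2 = t * t := sq t
        _ ≤ 2 * a * (2 * a * (1 / 2 ^ i)) := by gcongr
        _ = 4 * a ^ 2 * (1 / 2 ^ i) := by ring
    have h8 : t ^ 2 * (if t / 2 < a ∧ a ≤ t then G / t ^ 2 else 0) ≤ G * (1 / 2 ^ i) := by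
      rcases Nat.eq_zero_or_pos i with rfl | hi
      · rw [pow_zero, div_one, mul_one]
        split_ifs
        · rw [mul_div_cancel₀ _ (by positivity)]
        · rw [mul_zero]; exact hG
      · have h9 : t < a := by
          rw [h5]
          have h10 : (2 : ℝ) ^ 1 ≤ 2 ^ i := pow_le_pow_right₀ one_le_two hi
          rw [pow_one] at h10
          calc T / 2 ^ j₀ / 2 ^ i ≤ T / 2 ^ j₀ / 2 := by
                have := ht j₀
                gcongr
            _ < a := h1
        rw [if_neg (fun h => by linarith [h.2]), mul_zero]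
        positivity
    have h9 : t ^ 2 * (if t / 2 < a then W₁ else 0) ≤ 4 * a ^ 2 * (1 / 2 ^ i) * W₁ := by
      split_ifs
      · gcongr
      · rw [mul_zero]; positivity
    have h10 : t ^ 2 * (if t < a then W₂ else 0) ≤ 4 * a ^ 2 * (1 / 2 ^ i) * W₂ := by
      split_ifs
      · gcongr
      · rw [mul_zero]; positivity
    rw [mul_add, mul_add]
    calc _ ≤ G * (1 / 2 ^ i) + 4 * a ^ 2 * (1 / 2 ^ i) * W₁ + 4 * a ^ 2 * (1 / 2 ^ i) * W₂ :=
          add_le_add (add_le_add h8 h9) h10
      _ = _ := by ring)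
  refine h4.trans ?_
  have h5 : (2 : ℝ≥0∞) = ENNReal.ofReal 2 := by norm_num
  rw [h5, ← ENNReal.ofReal_mul (by positivity)]
  refine ENNReal.ofReal_le_ofReal ?_
  have h6 : 0 ≤ (W₁ + W₂) * a ^ 2 := by positivity
  linarith

/-- Local Sobolev inequalities imply a global Sobolev inequality. -/
theorem sobW (n : ℕ) (hn : 3 ≤ n) : ∃ c₂ : ℝ, 0 < c₂ ∧ ∀ (X : Type) [TopologicalSpace X]
    [T2Space X] (c : X → J.Ch n X) (g : X → J.Mtx n) (V r : X → ℝ) (y : ℝ), J.Atl c →
    J.Met c g → Continuous V → (∀ q, 0 ≤ V q) → Continuous r → (∀ q, 0 < r q) → 0 < y → y ≤ 1 →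
    (∀ x, J.SobAt c g V y x (r x)) → J.SobW c g (fun q => V q + 1 / r q ^ 2) (c₂ * y) := by
  obtain ⟨c₁, hc₁, hW⟩ := weakM n hn
  refine ⟨c₁ / 1024, by positivity, ?_⟩
  intro X _ _ c g V r y hc hg hV hV0 hr hr0 hy hy1 hS _ _ μ hμ u hu huc
  have hn3 : (3 : ℝ) ≤ n := by exact_mod_cast hn
  set σ : ℝ := ((n : ℝ) - 2) / n with hσ
  set p : ℝ := 2 * (n : ℝ) / (n - 2) with hp
  have hσ0 : 0 < σ := div_pos (by linarith) (by linarith)
  have hσ1 : σ ≤ 1 := by rw [hσ, div_le_one (by linarith)]; linarith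
  have hp0 : 0 < p := div_pos (by linarith) (by linarith)
  have hp1 : 1 ≤ p := by rw [hp, le_div_iff₀ (by linarith)]; linarith
  have hp6 : p ≤ 6 := by rw [hp, div_le_iff₀ (by linarith)]; linarith
  have hpσ : p * σ = 2 := by
    have h1 : (n : ℝ) - 2 ≠ 0 := by linarith
    have h2 : (n : ℝ) ≠ 0 := by linarith
    rw [hσ, hp]
    field_simp
  have hlf := JB.locFin hc hg hμ
  have ucont := JB.sm_cont hc hu
  have gcont := JB.cont_grd hc hg hu
  -- the levels
  obtain ⟨T₀, hT₀⟩ := (huc : IsCompact (tsupport u)).exists_bound_of_continuousOn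
    (f := u) ucont.continuousOn
  set T : ℝ := max T₀ 1 with hT
  have hT0 : 0 < T := lt_max_of_lt_right one_pos
  have huT : ∀ q, |u q| ≤ T := fun q => by
    by_cases hq : q ∈ tsupport u
    · exact (hT₀ q hq).trans (le_max_left _ _)
    · rw [image_eq_zero_of_notMem_tsupport hq, abs_zero]; exact hT0.le
  set t : ℕ → ℝ := fun j => T / 2 ^ j with ht
  have ht0 : ∀ j, 0 < t j := fun j => by positivity
  have htS : ∀ j, t (j + 1) = t j / 2 := fun j => by simp only [ht]; rw [pow_succ, div_div]
  have hmS : ∀ j, MeasurableSet {q | t j < |u q|} := fun j =>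
    measurableSet_lt measurable_const ucont.abs.measurable
  set a : ℕ → ℝ≥0∞ := fun j => μ {q | t j < |u q|} with ha
  set b : ℕ → ℝ≥0∞ := fun j => ENNReal.ofReal (t j ^ p) * a j with hb
  set E : ℕ → ℝ≥0∞ := fun j => ENNReal.ofReal (t j ^ 2) *
    (∫⁻ q, ENNReal.ofReal (En c g u V (t j) q) ∂μ +
      ∫⁻ q in {q | t j < |u q|}, ENNReal.ofReal (1 / r q ^ 2) ∂μ) with hE
  set L : ℝ≥0∞ := ENNReal.ofReal (c₁ * y) with hL
  have hL0 : L ≠ 0 := (ENNReal.ofReal_pos.2 (by positivity)).ne'
  have hLt : L ≠ ⊤ := ENNReal.ofReal_ne_top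
  -- one level
  have h1 : ∀ j, b j ≤ 2⁻¹ * b (j + 1) + (E j / L) ^ (1 / σ) := by
    intro j
    by_cases hM : μ {q | t j / 2 < |u q|} ≤ ENNReal.ofReal 128 * μ {q | t j < |u q|}
    · refine le_add_left ?_
      have h2 := hW X μ c g u V r y (t j) hc hg hμ hu huc hV hV0 hr hr0 hy hy1 hS (ht0 j) hM
      have h3 : L * b j ^ σ ≤ E j := by
        calc L * b j ^ σ = ENNReal.ofReal (t j ^ 2) * (L * a j ^ σ) := by
              simp only [hb]
              rw [ENNReal.mul_rpow_of_nonneg _ _ hσ0.le, ENNReal.ofReal_rpow_of_pos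
                (Real.rpow_pos_of_pos (ht0 j) _), ← Real.rpow_mul (ht0 j).le, hpσ,
                Real.rpow_two]
              ring
          _ ≤ E j := by
              simp only [hE]
              gcongr
      have h4 : b j ^ σ ≤ E j / L := by
        rw [ENNReal.le_div_iff_mul_le (Or.inl hL0) (Or.inl hLt), mul_comm]
        exact h3
      calc b j = (b j ^ σ) ^ (1 / σ) := by
            rw [← ENNReal.rpow_mul, mul_one_div, div_self hσ0.ne', ENNReal.rpow_one]
        _ ≤ _ := by gcongr
    · refine le_add_right ?_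
      push Not at hM
      have h2 : a (j + 1) = μ {q | t j / 2 < |u q|} := by simp only [ha, htS]
      have h3 : ENNReal.ofReal (t j ^ p) ≤ 64 * ENNReal.ofReal (t (j + 1) ^ p) := by
        have h4 : (64 : ℝ≥0∞) = ENNReal.ofReal 64 := by norm_num
        rw [h4, ← ENNReal.ofReal_mul (by norm_num)]
        refine ENNReal.ofReal_le_ofReal ?_
        have h5 : t j = 2 * t (j + 1) := by rw [htS]; ring
        calc t j ^ p = 2 ^ p * t (j + 1) ^ p := by
              rw [h5, Real.mul_rpow zero_le_two (ht0 _).le]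
          _ ≤ 2 ^ (6 : ℝ) * t (j + 1) ^ p := by
              have := Real.rpow_nonneg (ht0 (j + 1)).le p
              gcongr
              norm_num
          _ = 64 * t (j + 1) ^ p := by norm_num
      have h5 : a j ≤ 128⁻¹ * a (j + 1) := by
        rw [h2]
        have h6 : ENNReal.ofReal 128 = 128 := by norm_num
        rw [h6] at hM
        calc a j = 128⁻¹ * (128 * a j) := by
              rw [← mul_assoc, ENNReal.inv_mul_cancel (by simp) (by simp), one_mul]
          _ ≤ _ := by gcongr
      calc b j = ENNReal.ofReal (t j ^ p) * a j := rfl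
        _ ≤ 64 * ENNReal.ofReal (t (j + 1) ^ p) * (128⁻¹ * a (j + 1)) := by gcongr
        _ = (64 * 128⁻¹) * b (j + 1) := by simp only [hb]; ring
        _ = 2⁻¹ * b (j + 1) := by
          congr 1
          rw [show (128 : ℝ≥0∞) = 64 * 2 by norm_num,
            ENNReal.mul_inv (Or.inl (by simp)) (Or.inl (by simp)), ← mul_assoc,
            ENNReal.mul_inv_cancel (by simp) (by simp), one_mul]
  -- the sum is finite
  have hKfin : μ (tsupport u) ≠ ⊤ := (huc : IsCompact (tsupport u)).measure_lt_top.ne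
  have h2 : ∑' j, b j ≠ ⊤ := by
    have h3 : ∀ j, b j ≤ ENNReal.ofReal (T ^ p) * μ (tsupport u) * 2⁻¹ ^ j := by
      intro j
      have h4 : a j ≤ μ (tsupport u) := measure_mono fun q hq => subset_tsupport u (by
        intro h
        have h5 : t j < |u q| := hq
        rw [h, abs_zero] at h5
        linarith [ht0 j])
      have h5 : ENNReal.ofReal (t j ^ p) ≤ ENNReal.ofReal (T ^ p) * 2⁻¹ ^ j := by
        have h6 : (2⁻¹ : ℝ≥0∞) ^ j = ENNReal.ofReal (1 / 2 ^ j) := by
          rw [one_div, ENNReal.ofReal_inv_of_pos (by positivity), ENNReal.ofReal_pow zero_le_two,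
            ENNReal.inv_pow]
          norm_num
        rw [h6, ← ENNReal.ofReal_mul (by positivity)]
        refine ENNReal.ofReal_le_ofReal ?_
        simp only [ht]
        rw [Real.div_rpow hT0.le (by positivity), div_eq_mul_one_div]
        have h7 : (2 : ℝ) ^ j ≤ ((2 : ℝ) ^ j) ^ p := by
          have h8 : (1 : ℝ) ≤ 2 ^ j := one_le_pow₀ one_le_two
          calc (2 : ℝ) ^ j = ((2 : ℝ) ^ j) ^ (1 : ℝ) := (Real.rpow_one _).symm
            _ ≤ _ := Real.rpow_le_rpow_of_exponent_le h8 hp1
        gcongr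
      calc b j = ENNReal.ofReal (t j ^ p) * a j := rfl
        _ ≤ ENNReal.ofReal (T ^ p) * 2⁻¹ ^ j * μ (tsupport u) := by gcongr
        _ = _ := by ring
    refine ne_top_of_le_ne_top ?_ (ENNReal.tsum_le_tsum h3)
    rw [ENNReal.tsum_mul_left, ENNReal.tsum_geometric]
    refine ENNReal.mul_ne_top (ENNReal.mul_ne_top ENNReal.ofReal_ne_top hKfin) ?_
    rw [ENNReal.one_sub_inv_two, inv_inv]
    simp
  have h3 := sum_lemma hσ0 hσ1 b (fun j => E j / L) h2 h1
  -- the mass
  have h4 : ∫⁻ q, ENNReal.ofReal (|u q| ^ p) ∂μ ≤ 64 * ∑' j, b j := by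
    calc ∫⁻ q, ENNReal.ofReal (|u q| ^ p) ∂μ
        ≤ ∫⁻ q, 64 * ∑' j, {q | t j < |u q|}.indicator (fun _ => ENNReal.ofReal (t j ^ p)) q ∂μ := by
          refine lintegral_mono fun q => ?_
          refine (ptA (abs_nonneg _) (huT q) hp0 hp6).trans (le_of_eq ?_)
          congr 1
          refine tsum_congr fun j => ?_
          by_cases hq : t j < |u q|
          · rw [indicator_of_mem (show q ∈ {q | t j < |u q|} from hq), if_pos hq, mul_one]
          · rw [indicator_of_notMem (show q ∉ {q | t j < |u q|} from hq), if_neg hq, mul_zero]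
      _ = 64 * ∑' j, b j := by
          rw [lintegral_const_mul' _ _ (by simp), lintegral_tsum fun j =>
            (measurable_const.indicator (hmS j)).aemeasurable]
          congr 1
          refine tsum_congr fun j => ?_
          rw [lintegral_indicator (hmS j), setLIntegral_const]
  -- the energy
  set W : X → ℝ := fun q => grd c g u q ^ 2 + (V q + 1 / r q ^ 2) * u q ^ 2 with hWd
  have hEm : ∀ τ, Measurable fun q => ENNReal.ofReal (En c g u V τ q) := by
    intro τ
    refine ENNReal.measurable_ofReal.comp ?_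
    unfold En
    refine Measurable.add ?_ ?_
    · exact ((gcont.measurable.div_const τ).pow_const 2).indicator
        ((measurableSet_lt measurable_const ucont.abs.measurable).inter
          (measurableSet_le ucont.abs.measurable measurable_const))
    · exact hV.measurable.indicator (measurableSet_lt measurable_const ucont.abs.measurable)
  have hrm : Measurable fun q => ENNReal.ofReal (1 / r q ^ 2) :=
    ENNReal.measurable_ofReal.comp (measurable_const.div (hr.measurable.pow_const 2))
  have h5 : ∑' j, E j ≤ ∫⁻ q, ENNReal.ofReal (8 * W q) ∂μ := by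
    have h6 : ∀ j, E j = ∫⁻ q, ENNReal.ofReal (trm T |u q| (grd c g u q ^ 2) (V q)
        (1 / r q ^ 2) j) ∂μ := by
      intro j
      have h7 : ∀ q, ENNReal.ofReal (trm T |u q| (grd c g u q ^ 2) (V q) (1 / r q ^ 2) j) =
          ENNReal.ofReal (t j ^ 2) * (ENNReal.ofReal (En c g u V (t j) q) +
            {q | t j < |u q|}.indicator (fun q => ENNReal.ofReal (1 / r q ^ 2)) q) := by
        intro q
        have h8 : {q | t j < |u q|}.indicator (fun q => ENNReal.ofReal (1 / r q ^ 2)) q =
            ENNReal.ofReal (if t j < |u q| then 1 / r q ^ 2 else 0) := by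
          by_cases hq : t j < |u q|
          · rw [indicator_of_mem (show q ∈ {q | t j < |u q|} from hq), if_pos hq]
          · rw [indicator_of_notMem (show q ∉ {q | t j < |u q|} from hq), if_neg hq,
              ENNReal.ofReal_zero]
        have h9 : En c g u V (t j) q = (if t j / 2 < |u q| ∧ |u q| ≤ t j then
            grd c g u q ^ 2 / t j ^ 2 else 0) + (if t j / 2 < |u q| then V q else 0) := by
          unfold En
          simp only [indicator_apply, mem_ofPred_eq, div_pow]
        have h10 : 0 ≤ En c g u V (t j) q := by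
          unfold En
          exact add_nonneg (indicator_nonneg (fun q _ => sq_nonneg _) q)
            (indicator_nonneg (fun q _ => hV0 q) q)
        rw [h8, ← ENNReal.ofReal_add h10 (by split_ifs <;> positivity),
          ← ENNReal.ofReal_mul (by positivity), h9]
        rfl
      simp only [h7]
      rw [lintegral_const_mul' _ _ ENNReal.ofReal_ne_top, lintegral_add_left (hEm _),
        lintegral_indicator (hmS j)]
    have h6' : ∑' j, E j = ∫⁻ q, ∑' j, ENNReal.ofReal (trm T |u q| (grd c g u q ^ 2) (V q)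
        (1 / r q ^ 2) j) ∂μ := by
      rw [lintegral_tsum]
      · exact tsum_congr h6
      · intro j
        refine (ENNReal.measurable_ofReal.comp ?_).aemeasurable
        unfold trm
        have m1 : MeasurableSet {q | T / 2 ^ j / 2 < |u q|} :=
          measurableSet_lt measurable_const ucont.abs.measurable
        have m2 : MeasurableSet {q | |u q| ≤ T / 2 ^ j} :=
          measurableSet_le ucont.abs.measurable measurable_const
        exact (((Measurable.ite (m1.inter m2) ((gcont.measurable.pow_const 2).div_const _)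
          measurable_const).add (Measurable.ite m1 hV.measurable measurable_const)).add
            (Measurable.ite (hmS j) (measurable_const.div (hr.measurable.pow_const 2))
              measurable_const)).const_mul _
    rw [h6']
    refine lintegral_mono fun q => ?_
    refine (ptB (abs_nonneg _) (huT q) hT0 (sq_nonneg _) (hV0 q) (by positivity)).trans
      (le_of_eq ?_)
    simp only [hWd, sq_abs]
  -- the end
  have hWc : Continuous W := (gcont.pow 2).add ((hV.add (continuous_const.div (hr.pow 2)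
    fun q => (pow_pos (hr0 q) 2).ne')).mul (ucont.pow 2))
  have hW0 : ∀ q, 0 ≤ W q := fun q => by
    have := hV0 q
    have := hr0 q
    positivity
  have hgo : ∀ q, q ∉ tsupport u → grd c g u q = 0 := fun q hq => by
    have h2 := gsq_out (g := g) hc hq
    rw [gsq_eq hc hg] at h2
    exact pow_eq_zero_iff two_ne_zero |>.1 h2
  have hWi : Integrable W μ := hWc.integrable_of_hasCompactSupport
    (HasCompactSupport.intro huc.isCompact fun q hq => by
      simp only [hWd, hgo q hq, image_eq_zero_of_notMem_tsupport hq]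
      ring)
  have hPi : Integrable (fun q => |u q| ^ p) μ := by
    refine (ucont.abs.rpow_const fun q => Or.inr hp0.le).integrable_of_hasCompactSupport
      (HasCompactSupport.intro huc.isCompact fun q hq => ?_)
    rw [image_eq_zero_of_notMem_tsupport hq, abs_zero, Real.zero_rpow hp0.ne']
  have h6 : L * (∫⁻ q, ENNReal.ofReal (|u q| ^ p) ∂μ) ^ σ ≤
      1024 * ∫⁻ q, ENNReal.ofReal (W q) ∂μ := by
    calc L * (∫⁻ q, ENNReal.ofReal (|u q| ^ p) ∂μ) ^ σ ≤ L * (64 * ∑' j, b j) ^ σ := by gcongr
      _ = L * (64 ^ σ * (∑' j, b j) ^ σ) := by rw [ENNReal.mul_rpow_of_nonneg _ _ hσ0.le]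
      _ ≤ L * (64 ^ (1 : ℝ) * (2 * ∑' j, E j / L)) := by
          gcongr
          norm_num
      _ = L * (64 * (2 * (L⁻¹ * ∑' j, E j))) := by
          rw [ENNReal.rpow_one]
          simp only [ENNReal.div_eq_inv_mul]
          rw [ENNReal.tsum_mul_left]
      _ = 128 * (L * L⁻¹ * ∑' j, E j) := by ring
      _ = 128 * ∑' j, E j := by rw [ENNReal.mul_inv_cancel hL0 hLt, one_mul]
      _ ≤ 128 * ∫⁻ q, ENNReal.ofReal (8 * W q) ∂μ := by gcongr
      _ = 128 * (8 * ∫⁻ q, ENNReal.ofReal (W q) ∂μ) := by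
          congr 1
          rw [← lintegral_const_mul' _ _ (by simp)]
          refine lintegral_congr fun q => ?_
          rw [ENNReal.ofReal_mul (by norm_num)]
          norm_num
      _ = _ := by ring
  have hI0 : 0 ≤ ∫ q, |u q| ^ p ∂μ := integral_nonneg fun q => by positivity
  rw [← ofReal_integral_eq_lintegral_ofReal hPi (ae_of_all _ fun q => by positivity),
    ← ofReal_integral_eq_lintegral_ofReal hWi (ae_of_all _ hW0),
    ENNReal.ofReal_rpow_of_nonneg hI0 hσ0.le, hL, ← ENNReal.ofReal_mul (by positivity),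
    show (1024 : ℝ≥0∞) = ENNReal.ofReal 1024 by norm_num, ← ENNReal.ofReal_mul (by norm_num),
    ENNReal.ofReal_le_ofReal_iff (mul_nonneg (by norm_num) (integral_nonneg hW0))] at h6
  have h7 : ∫ q, (J.gsq (g q) (fun x => u ((c q).symm x)) (c q q) +
      (V q + 1 / r q ^ 2) * u q ^ 2) ∂μ = ∫ q, W q ∂μ := by
    refine integral_congr_ae (ae_of_all _ fun q => ?_)
    simp only [hWd, gsq_eq hc hg]
  rw [h7]
  calc c₁ / 1024 * y * (∫ q, |u q| ^ p ∂μ) ^ σ
      = (c₁ * y * (∫ q, |u q| ^ p ∂μ) ^ σ) / 1024 := by ring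
    _ ≤ _ := by
      rw [div_le_iff₀ (by norm_num)]
      linarith

end Vale.Agent.P223.H391.W
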